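import Mathlib

/-! Finite Fourier analysis for the linearity test. -/

namespace Vale.Agent.P327.BLRFin

variable {m : ℕ}

/-- sign of a bit -/
def sg (b : Bool) : ℝ := if b then -1 else 1

@[simp] theorem sg_xor (a b : Bool) : sg (xor a b) = sg a * sg b := by
  cases a <;> cases b <;> simp [sg]

theorem sg_mul_self (a : Bool) : sg a * sg a = 1 := by cases a <;> simp [sg]

/-- characters -/
def ch (a : Finset (Fin m)) (x : Fin m → Bool) : ℝ := ∏ i ∈ a, sg (x i)

def xo (x y : Fin m → Bool) : Fin m → Bool := fun i => xor (x i) (y i)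

theorem ch_xo (a : Finset (Fin m)) (x y : Fin m → Bool) : ch a (xo x y) = ch a x * ch a y := by
  simp [ch, xo, Finset.prod_mul_distrib]

theorem sum_ch (x : Fin m → Bool) :
    ∑ a : Finset (Fin m), ch a x = if x = (fun _ => false) then (2:ℝ) ^ m else 0 := by
  have h : ∑ a : Finset (Fin m), ch a x = ∏ i, (1 + sg (x i)) := by
    rw [Finset.prod_one_add]
    simp [ch]
  rw [h]
  split_ifs with hx
  · subst hx
    simp only [sg, Bool.false_eq_true, if_false]
    norm_num
  · obtain ⟨i, hi⟩ := Function.ne_iff.1 hx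
    apply Finset.prod_eq_zero (Finset.mem_univ i)
    have : x i = true := by simpa using hi
    simp [this, sg]

theorem xo_eq_false (x y : Fin m → Bool) : xo x y = (fun _ => false) ↔ x = y := by
  constructor
  · intro h; funext i
    have := congrFun h i
    simpa [xo] using this
  · rintro rfl; funext i; simp [xo]

theorem sum_ch_mul (x y : Fin m → Bool) :
    ∑ a : Finset (Fin m), ch a x * ch a y = if x = y then (2:ℝ) ^ m else 0 := by
  simp only [← ch_xo, sum_ch, xo_eq_false]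

/-- Fourier coefficient -/
noncomputable def co (f : (Fin m → Bool) → ℝ) (a : Finset (Fin m)) : ℝ :=
  ((2:ℝ) ^ m)⁻¹ * ∑ x, f x * ch a x

theorem parseval (f : (Fin m → Bool) → ℝ) :
    ∑ a, co f a ^ 2 = ((2:ℝ) ^ m)⁻¹ * ∑ x, f x ^ 2 := by
  have h2 : (2:ℝ) ^ m ≠ 0 := by positivity
  have h : ∀ a, co f a ^ 2 = ((2:ℝ) ^ m)⁻¹ ^ 2 * ∑ x, ∑ y, f x * f y * (ch a x * ch a y) := by
    intro a
    rw [co, mul_pow, sq (∑ x, f x * ch a x), Finset.sum_mul_sum]
    congr 1
    refine Finset.sum_congr rfl fun x _ => Finset.sum_congr rfl fun y _ => by ring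
  simp only [h, ← Finset.mul_sum]
  rw [Finset.sum_comm]
  have h3 : ∀ x, ∑ a : Finset (Fin m), ∑ y, f x * f y * (ch a x * ch a y) = f x ^ 2 * 2 ^ m := by
    intro x
    rw [Finset.sum_comm]
    simp only [← Finset.mul_sum, sum_ch_mul]
    simp only [mul_ite, mul_zero, Finset.sum_ite_eq, Finset.mem_univ, if_true]
    ring
  simp only [h3, ← Finset.sum_mul]
  field_simp

theorem triple (f g h : (Fin m → Bool) → ℝ) :
    ∑ a, co f a * co g a * co h a = (((2:ℝ) ^ m)⁻¹) ^ 2 * ∑ x, ∑ y, g x * h y * f (xo x y) := by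
  have h2 : (2:ℝ) ^ m ≠ 0 := by positivity
  have h1 : ∀ a, co f a * co g a * co h a =
      ((2:ℝ) ^ m)⁻¹ ^ 3 * ∑ x, ∑ y, ∑ z, g x * h y * f z * (ch a z * ch a (xo x y)) := by
    intro a
    simp only [co]
    have : (∑ x, ∑ y, ∑ z, g x * h y * f z * (ch a z * ch a (xo x y))) =
        (∑ x, g x * ch a x) * (∑ y, h y * ch a y) * (∑ z, f z * ch a z) := by
      rw [Finset.sum_mul_sum, Finset.sum_mul]
      refine Finset.sum_congr rfl fun x _ => ?_
      rw [Finset.sum_mul]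
      refine Finset.sum_congr rfl fun y _ => ?_
      rw [Finset.mul_sum]
      refine Finset.sum_congr rfl fun z _ => ?_
      rw [ch_xo]; ring
    rw [this]; ring
  simp only [h1, ← Finset.mul_sum]
  have h3 : ∑ a : Finset (Fin m), ∑ x, ∑ y, ∑ z, g x * h y * f z * (ch a z * ch a (xo x y)) =
      ∑ x, ∑ y, g x * h y * f (xo x y) * 2 ^ m := by
    rw [Finset.sum_comm]
    refine Finset.sum_congr rfl fun x _ => ?_
    rw [Finset.sum_comm]
    refine Finset.sum_congr rfl fun y _ => ?_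
    rw [Finset.sum_comm]
    simp only [← Finset.mul_sum, sum_ch_mul]
    simp only [mul_ite, mul_zero, Finset.sum_ite_eq', Finset.mem_univ, if_true]
  rw [h3]
  simp only [← Finset.sum_mul]
  field_simp

/-- main finite statement -/
theorem main (f g h : (Fin m → Bool) → ℝ) (hf : ∀ x, f x ^ 2 = 1) (hg : ∀ x, g x ^ 2 = 1)
    (hh : ∀ x, h x ^ 2 = 1) (δ : ℝ) (hδ : δ ≤ 1 / 16)
    (H : 1 - 2 * δ ≤ (((2:ℝ) ^ m)⁻¹) ^ 2 * ∑ x, ∑ y, g x * h y * f (xo x y)) :
    ∃ a, 1 - 2 * δ ≤ |co f a| ∧ 1 - 2 * δ ≤ |co g a| ∧ 1 - 2 * δ ≤ |co h a| := by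
  rw [← triple] at H
  have P : ∀ f : (Fin m → Bool) → ℝ, (∀ x, f x ^ 2 = 1) → ∑ a, co f a ^ 2 = 1 := by
    intro f hf
    rw [parseval]
    simp [hf]
  -- general: if `∑ |u v w| ≥ 1 - 2δ` with unit vectors, some coordinate of `u` is large
  have big : ∀ u v w : Finset (Fin m) → ℝ, ∑ a, v a ^ 2 = 1 → ∑ a, w a ^ 2 = 1 →
      1 - 2 * δ ≤ ∑ a, u a * v a * w a → ∃ a, 1 - 2 * δ ≤ |u a| := by
    intro u v w hv hw hs
    by_contra hcon
    push Not at hcon
    have h1 : ∑ a, |v a * w a| ≤ 1 := by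
      have : ∀ a, |v a * w a| ≤ (v a ^ 2 + w a ^ 2) / 2 := by
        intro a
        rw [abs_mul]
        nlinarith [sq_nonneg (|v a| - |w a|), sq_abs (v a), sq_abs (w a)]
      calc ∑ a, |v a * w a| ≤ ∑ a, (v a ^ 2 + w a ^ 2) / 2 := Finset.sum_le_sum fun a _ => this a
        _ = 1 := by rw [← Finset.sum_div, Finset.sum_add_distrib, hv, hw]; norm_num
    obtain ⟨a₀, -, ha₀⟩ := Finset.exists_max_image (Finset.univ : Finset (Finset (Fin m)))
      (fun a => |u a|) ⟨∅, Finset.mem_univ _⟩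
    have h2 : ∑ a, u a * v a * w a ≤ |u a₀| := by
      calc ∑ a, u a * v a * w a ≤ ∑ a, |u a₀| * |v a * w a| := by
            refine Finset.sum_le_sum fun a _ => ?_
            calc u a * v a * w a = u a * (v a * w a) := by ring
              _ ≤ |u a * (v a * w a)| := le_abs_self _
              _ = |u a| * |v a * w a| := abs_mul _ _
              _ ≤ |u a₀| * |v a * w a| :=
                mul_le_mul_of_nonneg_right (ha₀ a (Finset.mem_univ a)) (abs_nonneg _)
        _ = |u a₀| * ∑ a, |v a * w a| := by rw [Finset.mul_sum]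
        _ ≤ |u a₀| * 1 := mul_le_mul_of_nonneg_left h1 (abs_nonneg _)
        _ = |u a₀| := mul_one _
    linarith [hcon a₀]
  have uniq : ∀ u : Finset (Fin m) → ℝ, ∑ a, u a ^ 2 = 1 → ∀ a b, a ≠ b → u a ^ 2 + u b ^ 2 ≤ 1 := by
    intro u hu a b hab
    rw [← hu, ← Finset.sum_pair (f := fun x => u x ^ 2) hab]
    exact Finset.sum_le_sum_of_subset_of_nonneg (Finset.subset_univ _) fun _ _ _ => sq_nonneg _
  obtain ⟨a, ha⟩ := big (co f) (co g) (co h) (P g hg) (P h hh) H
  obtain ⟨b, hb⟩ := big (co g) (co f) (co h) (P f hf) (P h hh) (by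
    refine H.trans (le_of_eq (Finset.sum_congr rfl fun a _ => by ring)))
  obtain ⟨c, hc⟩ := big (co h) (co f) (co g) (P f hf) (P g hg) (by
    refine H.trans (le_of_eq (Finset.sum_congr rfl fun a _ => by ring)))
  -- the three positions agree
  have far : ∀ u v w : Finset (Fin m) → ℝ, ∑ a, u a ^ 2 = 1 → ∑ a, v a ^ 2 = 1 → ∑ a, w a ^ 2 = 1 →
      1 - 2 * δ ≤ ∑ a, u a * v a * w a → ∀ a b, 1 - 2 * δ ≤ |u a| → 1 - 2 * δ ≤ |v b| → a = b := by
    intro u v w hu hv hw hs a b ha hb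
    by_contra hab
    have e1 : (49:ℝ) / 64 ≤ u a ^ 2 := by
      rw [← sq_abs]; nlinarith
    have e2 : (49:ℝ) / 64 ≤ v b ^ 2 := by
      rw [← sq_abs]; nlinarith
    have e3 : v a ^ 2 ≤ 15 / 64 := by linarith [uniq v hv a b hab]
    -- sum of squares of the products
    have e4 : ∑ x, (u x * v x) ^ 2 ≤ 30 / 64 := by
      have : ∑ x, (u x * v x) ^ 2 = (u a * v a) ^ 2 + ∑ x ∈ Finset.univ.erase a, (u x * v x) ^ 2 := by
        exact (Finset.add_sum_erase _ (fun x => (u x * v x) ^ 2) (Finset.mem_univ a)).symm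
      rw [this]
      have hle1 : ∀ v : Finset (Fin m) → ℝ, ∑ a, v a ^ 2 = 1 → ∀ x, v x ^ 2 ≤ 1 := by
        intro v hv x
        rw [← hv]
        exact Finset.single_le_sum (f := fun x => v x ^ 2) (fun _ _ => sq_nonneg _) (Finset.mem_univ x)
      have t1 : (u a * v a) ^ 2 ≤ 15 / 64 := by
        rw [mul_pow]
        nlinarith [hle1 u hu a, sq_nonneg (v a), sq_nonneg (u a)]
      have t2 : ∑ x ∈ Finset.univ.erase a, (u x * v x) ^ 2 ≤ 15 / 64 := by
        calc ∑ x ∈ Finset.univ.erase a, (u x * v x) ^ 2 ≤ ∑ x ∈ Finset.univ.erase a, u x ^ 2 := by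
              refine Finset.sum_le_sum fun x _ => ?_
              rw [mul_pow]
              nlinarith [hle1 v hv x, sq_nonneg (u x)]
          _ = 1 - u a ^ 2 := by
              rw [← hu, ← Finset.add_sum_erase _ (fun x => u x ^ 2) (Finset.mem_univ a)]; ring
          _ ≤ 15 / 64 := by linarith
      linarith
    have e5 : (∑ x, u x * v x * w x) ^ 2 ≤ (∑ x, (u x * v x) ^ 2) * ∑ x, w x ^ 2 :=
      Finset.sum_mul_sq_le_sq_mul_sq _ _ _
    rw [hw, mul_one] at e5
    have e6 : (7:ℝ) / 8 ≤ ∑ x, u x * v x * w x := by linarith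
    nlinarith
  have hab : a = b := far (co f) (co g) (co h) (P f hf) (P g hg) (P h hh) H a b ha hb
  have hac : a = c := far (co f) (co h) (co g) (P f hf) (P h hh) (P g hg)
    (H.trans (le_of_eq (Finset.sum_congr rfl fun a _ => by ring))) a c ha hc
  subst hab; subst hac
  exact ⟨a, ha, hb, hc⟩

end Vale.Agent.P327.BLRFin
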