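import Vale.Agent.P327.Meas

/-! Uniformly `E₀`-invariant homeomorphisms preserve the fair coin measure. -/

open MeasureTheory
open scoped ENNReal

namespace Vale.Agent.P327

namespace E0

/-- Replace the first `m` bits of `A` by `w`. -/
def ow (m : ℕ) (w : Fin m → Bool) (A : Cantor) : Cantor := fun i => if h : i < m then w ⟨i, h⟩ else A i

/-- The first `m` bits. -/
def hd (m : ℕ) (A : Cantor) : Fin m → Bool := fun i => A i

/-- `D` is determined by the first `m` bits. -/
def Det (m : ℕ) (D : Set Cantor) : Prop := ∀ Z Z' : Cantor, (∀ i < m, Z i = Z' i) → (Z ∈ D ↔ Z' ∈ D)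

theorem Det.mono {m n : ℕ} (h : m ≤ n) {D : Set Cantor} (hD : Det m D) : Det n D :=
  fun Z Z' hZ => hD Z Z' fun i hi => hZ i (lt_of_lt_of_le hi h)

theorem det_of_clopen {D : Set Cantor} (hD : IsClopen D) : ∃ m, Det m D := by
  obtain ⟨L, hL⟩ := exists_pre_of_clopen hD
  exact ⟨L, fun Z Z' h => hL Z Z' (pre_eq_iff.2 h)⟩

@[simp] theorem hd_ow (m : ℕ) (w : Fin m → Bool) (A : Cantor) : hd m (ow m w A) = w := by
  funext i; simp [hd, ow]

@[simp] theorem ow_hd_ow (m : ℕ) (w : Fin m → Bool) (A : Cantor) : ow m (hd m A) (ow m w A) = A := by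
  funext i; simp only [ow, hd]; split_ifs <;> rfl

theorem ow_mem_iff {m : ℕ} {D : Set Cantor} (hD : Det m D) (w : Fin m → Bool) (A B : Cantor) :
    ow m w A ∈ D ↔ ow m w B ∈ D :=
  hD _ _ fun i hi => by simp [ow, hi]

theorem bool_meas (b : Bool) : (PMF.uniformOfFintype Bool).toMeasure {b} = (2 : ℝ≥0∞)⁻¹ := by
  rw [PMF.toMeasure_apply_singleton _ _ (measurableSet_singleton b)]
  simp

theorem cyl_meas (m : ℕ) (w : Fin m → Bool) :
    fairCoin {Z : Cantor | hd m Z = w} = ((2 : ℝ≥0∞) ^ m)⁻¹ := by
  have h : {Z : Cantor | hd m Z = w} =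
      Set.pi (Finset.range m : Set ℕ) (fun i => {ow m w (fun _ => false) i}) := by
    ext Z
    simp only [Set.mem_ofPred_eq, Set.mem_pi, Finset.coe_range, Set.mem_Iio, Set.mem_singleton_iff]
    constructor
    · rintro rfl i hi; simp [ow, hd, hi]
    · intro h; funext i
      have := h i i.2
      simpa [ow, hd] using this
  rw [h, fairCoin, Measure.infinitePi_pi _ (fun i _ => measurableSet_singleton _)]
  simp only [bool_meas, Finset.prod_const, Finset.card_range]
  rw [ENNReal.inv_pow]

theorem measurableSet_cyl (m : ℕ) (w : Fin m → Bool) : MeasurableSet {Z : Cantor | hd m Z = w} := by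
  have : Measurable (hd m) := by
    apply measurable_pi_lambda; intro i; exact measurable_pi_apply _
  exact this (measurableSet_singleton w)

theorem det_meas {m : ℕ} {D : Set Cantor} [DecidablePred (· ∈ D)] (hD : Det m D) (A : Cantor) :
    fairCoin D = ((Finset.univ.filter fun w : Fin m → Bool => ow m w A ∈ D).card : ℝ≥0∞) *
      ((2 : ℝ≥0∞) ^ m)⁻¹ := by
  have h : D = ⋃ w ∈ (Finset.univ.filter fun w : Fin m → Bool => ow m w A ∈ D),
      {Z : Cantor | hd m Z = w} := by
    ext Z
    simp only [Finset.mem_filter, Finset.mem_univ, true_and, Set.mem_iUnion, Set.mem_ofPred_eq,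
      exists_prop, exists_eq_right']
    apply hD
    intro i hi; simp [ow, hd, hi]
  conv_lhs => rw [h]
  rw [measure_biUnion_finset]
  · simp only [cyl_meas, Finset.sum_const, nsmul_eq_mul]
  · intro w _ w' _ hne
    rw [Function.onFun, Set.disjoint_left]
    intro Z h1 h2
    exact hne (h1.symm.trans h2)
  · intro w _; exact measurableSet_cyl m w

open Classical in
/-- Counting in a finite set closed under changing the first n bits. -/
theorem count_sat {n : ℕ} {D : Set Cantor} (hD : Det n D) (P : Finset Cantor)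
    (hP : ∀ x ∈ P, ∀ z : Fin n → Bool, ow n z x ∈ P) (A : Cantor) :
    P.card * (Finset.univ.filter fun z : Fin n → Bool => ow n z A ∈ D).card =
      2 ^ n * (P.filter (· ∈ D)).card := by
  have h1 : ((P ×ˢ (Finset.univ : Finset (Fin n → Bool))).filter
      fun p => ow n p.2 p.1 ∈ D).card =
      P.card * (Finset.univ.filter fun z : Fin n → Bool => ow n z A ∈ D).card := by
    rw [← Finset.card_product]
    congr 1
    ext ⟨x, z⟩
    simp only [Finset.mem_filter, Finset.mem_product, Finset.mem_univ, and_true, true_and]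
    rw [ow_mem_iff hD z x A]
  have h2 : ((P ×ˢ (Finset.univ : Finset (Fin n → Bool))).filter
      fun p => p.1 ∈ D).card = 2 ^ n * (P.filter (· ∈ D)).card := by
    have hc : (2 : ℕ) ^ n = (Finset.univ : Finset (Fin n → Bool)).card := by simp
    rw [hc, mul_comm, ← Finset.card_product]
    congr 1
    ext ⟨x, z⟩
    simp
  rw [← h1, ← h2]
  refine Finset.card_bij' (fun p _ => (ow n p.2 p.1, hd n p.1)) (fun p _ => (ow n p.2 p.1, hd n p.1))
    ?_ ?_ ?_ ?_
  · rintro ⟨x, z⟩ h
    simp only [Finset.mem_filter, Finset.mem_product, Finset.mem_univ, and_true] at h ⊢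
    exact ⟨hP x h.1 z, h.2⟩
  · rintro ⟨x, z⟩ h
    simp only [Finset.mem_filter, Finset.mem_product, Finset.mem_univ, and_true, ow_hd_ow] at h ⊢
    exact ⟨hP x h.1 z, h.2⟩
  · rintro ⟨x, z⟩ h; simp
  · rintro ⟨x, z⟩ h; simp

end E0

open E0 Classical in
theorem measurePreserving_of_uniformlyE0Invariant (F : Cantor ≃ₜ Cantor)
    (hF : UniformlyE0Invariant F) : MeasurePreserving F fairCoin fairCoin := by
  have key : ∀ C : Set Cantor, IsClopen C → fairCoin (F ⁻¹' C) = fairCoin C := by
    intro C hC
    obtain ⟨L, hL⟩ := det_of_clopen hC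
    obtain ⟨n, hn⟩ := det_of_clopen (hC.preimage F.continuous)
    obtain ⟨m₀, hm₀⟩ := hF n
    obtain ⟨m, hmL, hm⟩ : ∃ m, L ≤ m ∧ ∀ A B : Cantor, (∀ k, n ≤ k → A k = B k) →
        ∀ k, m ≤ k → F A k = F B k :=
      ⟨max L m₀, le_max_left _ _, fun A B h k hk => hm₀ A B h k (le_trans (le_max_right _ _) hk)⟩
    have hC' := hL.mono hmL
    let y : Cantor := fun _ => false
    let T : Finset Cantor := Finset.univ.image fun w : Fin m → Bool => ow m w y
    have hinj : Function.Injective fun w : Fin m → Bool => ow m w y := fun w w' h => by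
      have := congrArg (hd m) h
      simpa using this
    let P : Finset Cantor := T.image F.symm
    have hPT : P.card = 2 ^ m := by
      rw [Finset.card_image_of_injective _ F.symm.injective, Finset.card_image_of_injective _ hinj]
      simp
    have hmemT : ∀ x, x ∈ T ↔ ∀ k, m ≤ k → x k = y k := by
      intro x
      simp only [T, Finset.mem_image, Finset.mem_univ, true_and]
      constructor
      · rintro ⟨w, rfl⟩ k hk; simp [ow, not_lt.2 hk]
      · intro h
        refine ⟨hd m x, ?_⟩
        funext i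
        by_cases hi : i < m
        · simp [ow, hd, hi]
        · simp [ow, hi, h i (not_lt.1 hi)]
    have hmemP : ∀ x, x ∈ P ↔ F x ∈ T := by
      intro x
      simp only [P, Finset.mem_image]
      constructor
      · rintro ⟨t, ht, rfl⟩; simpa using ht
      · intro h; exact ⟨F x, h, by simp⟩
    have hPsat : ∀ x ∈ P, ∀ z : Fin n → Bool, ow n z x ∈ P := by
      intro x hx z
      rw [hmemP, hmemT] at hx ⊢
      intro k hk
      rw [← hx k hk]
      exact hm _ _ (fun i hi => by simp [ow, not_lt.2 hi]) k hk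
    have hcount := count_sat hn P hPsat y
    have hbij : (P.filter (· ∈ F ⁻¹' C)).card =
        (Finset.univ.filter fun w : Fin m → Bool => ow m w y ∈ C).card := by
      have e1 : (P.filter (· ∈ F ⁻¹' C)) = (T.filter (· ∈ C)).image F.symm := by
        ext x
        simp only [Finset.mem_filter, hmemP, Set.mem_preimage, Finset.mem_image]
        constructor
        · rintro ⟨h1, h2⟩; exact ⟨F x, ⟨h1, h2⟩, by simp⟩
        · rintro ⟨t, ⟨h1, h2⟩, rfl⟩; simpa using ⟨h1, h2⟩
      have e2 : T.filter (· ∈ C) =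
          (Finset.univ.filter fun w : Fin m → Bool => ow m w y ∈ C).image fun w => ow m w y := by
        ext x
        simp only [T, Finset.mem_filter, Finset.mem_image, Finset.mem_univ, true_and]
        constructor
        · rintro ⟨⟨w, rfl⟩, h⟩; exact ⟨w, h, rfl⟩
        · rintro ⟨w, h, rfl⟩; exact ⟨⟨w, rfl⟩, h⟩
      rw [e1, Finset.card_image_of_injective _ F.symm.injective, e2,
        Finset.card_image_of_injective _ hinj]
    rw [hPT, hbij] at hcount
    rw [det_meas hn y, det_meas hC' y]
    have h2n : (2 : ℝ≥0∞) ^ n ≠ 0 := by positivity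
    have h2nt : (2 : ℝ≥0∞) ^ n ≠ ∞ := by finiteness
    have h2m : (2 : ℝ≥0∞) ^ m ≠ 0 := by positivity
    have h2mt : (2 : ℝ≥0∞) ^ m ≠ ∞ := by finiteness
    rw [← div_eq_mul_inv, ← div_eq_mul_inv, ENNReal.div_eq_div_iff h2m h2mt h2n h2nt]
    exact_mod_cast hcount
  refine ⟨F.continuous.measurable, ?_⟩
  rw [fairCoin]
  apply Measure.eq_infinitePi
  intro s t ht
  rw [Measure.map_apply F.continuous.measurable (MeasurableSet.pi s.countable_toSet fun i _ => ht i)]
  have hclopen : IsClopen (Set.pi (s : Set ℕ) t) := by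
    constructor
    · exact isClosed_set_pi fun i _ => isClosed_discrete _
    · exact isOpen_set_pi s.finite_toSet fun i _ => isOpen_discrete _
  change fairCoin (F ⁻¹' Set.pi (s : Set ℕ) t) = _
  rw [key _ hclopen, fairCoin, Measure.infinitePi_pi _ (fun i _ => ht i)]

end Vale.Agent.P327
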