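import Vale.Agent.P327.Meas
import Vale.Agent.P327.E0
import Vale.Agent.P327.BLRFin

/-! Linearity test and noise stability on Cantor space. -/

open MeasureTheory
open scoped ENNReal

namespace Vale.Agent.P327

/-- Parity of the bits of `Y` at the positions in `a`. -/
def par (a : Finset ℕ) (Y : Cantor) : Bool := decide (Odd (a.filter fun i => Y i = true).card)

namespace Stab

theorem par_insert {a : Finset ℕ} {i : ℕ} (hi : i ∉ a) (Y : Cantor) :
    par (insert i a) Y = xor (Y i) (par a Y) := by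
  unfold par
  rw [Finset.filter_insert]
  by_cases h : Y i = true
  · rw [if_pos h, Finset.card_insert_of_notMem (by simp [hi]), h]
    simp only [Nat.odd_add_one, Bool.true_xor, decide_not]
  · rw [if_neg h]
    simp only [Bool.not_eq_true] at h
    rw [h]
    simp

theorem par_xor (a : Finset ℕ) (Y Z : Cantor) : par a (xorC Y Z) = xor (par a Y) (par a Z) := by
  induction a using Finset.induction_on with
  | empty => simp [par]
  | insert i a hi ih =>
    rw [par_insert hi, par_insert hi, par_insert hi, ih]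
    simp only [xorC]
    cases Y i <;> cases Z i <;> cases par a Y <;> cases par a Z <;> rfl

theorem measurable_par (a : Finset ℕ) : Measurable (par a) := by
  induction a using Finset.induction_on with
  | empty =>
    have : par ∅ = fun _ => false := by funext Y; simp [par]
    rw [this]; exact measurable_const
  | insert i a hi ih =>
    have : par (insert i a) = (fun p : Bool × Bool => xor p.1 p.2) ∘ fun Y => (Y i, par a Y) := by
      funext Y; exact par_insert hi Y
    rw [this]
    exact (Measurable.of_discrete).comp ((measurable_pi_apply i).prodMk ih)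

end Stab

namespace BLR
open BLRFin

theorem measurable_sg : Measurable sg := Measurable.of_discrete

theorem sg_eq (b : Bool) : sg b = 2 * (if b = false then 1 else 0) - 1 := by
  cases b <;> norm_num [sg]

theorem integral_sg {Ω : Type*} [MeasurableSpace Ω] (μ : Measure Ω) [IsProbabilityMeasure μ]
    (b : Ω → Bool) (hb : Measurable b) : ∫ ω, sg (b ω) ∂μ = 2 * μ.real {ω | b ω = false} - 1 := by
  have hm : MeasurableSet {ω | b ω = false} := hb (measurableSet_singleton false)
  have h : (fun ω => sg (b ω)) =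
      fun ω => 2 * Set.indicator {ω | b ω = false} (1 : Ω → ℝ) ω - 1 := by
    funext ω
    rw [sg_eq]
    simp only [Set.indicator, Set.mem_ofPred_eq, Pi.one_apply]
  rw [h, integral_sub, integral_const_mul, integral_indicator_one hm]
  · simp
  · exact ((integrable_const (1:ℝ)).indicator hm).const_mul 2
  · exact integrable_const _

theorem measurable_hd (m : ℕ) : Measurable (E0.hd m) := by
  apply measurable_pi_lambda; intro i; exact measurable_pi_apply _

theorem map_hd_real (m : ℕ) (x : Fin m → Bool) :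
    (fairCoin.map (E0.hd m)).real {x} = ((2:ℝ) ^ m)⁻¹ := by
  rw [map_measureReal_apply (measurable_hd m) (measurableSet_singleton x), measureReal_def]
  have h : E0.hd m ⁻¹' {x} = {Z : Cantor | E0.hd m Z = x} := rfl
  rw [h, E0.cyl_meas, ENNReal.toReal_inv, ENNReal.toReal_pow]
  simp

theorem integral_hd (m : ℕ) (F : (Fin m → Bool) → ℝ) :
    ∫ Y, F (E0.hd m Y) ∂fairCoin = ((2:ℝ) ^ m)⁻¹ * ∑ x, F x := by
  have : IsProbabilityMeasure (fairCoin.map (E0.hd m)) :=
    Measure.isProbabilityMeasure_map (measurable_hd m).aemeasurable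
  rw [← integral_map (f := F) (measurable_hd m).aemeasurable
    (Measurable.of_discrete (f := F)).aestronglyMeasurable]
  rw [integral_fintype (Integrable.of_finite)]
  simp only [map_hd_real, smul_eq_mul, Finset.mul_sum]

theorem integral_hd2 (m : ℕ) (F : (Fin m → Bool) → (Fin m → Bool) → ℝ) :
    ∫ p : Cantor × Cantor, F (E0.hd m p.1) (E0.hd m p.2) ∂(fairCoin.prod fairCoin) =
      ((2:ℝ) ^ m)⁻¹ ^ 2 * ∑ x, ∑ y, F x y := by
  have : IsProbabilityMeasure (fairCoin.map (E0.hd m)) :=
    Measure.isProbabilityMeasure_map (measurable_hd m).aemeasurable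
  have h1 : Integrable (fun p : Cantor × Cantor => F (E0.hd m p.1) (E0.hd m p.2))
      (fairCoin.prod fairCoin) := by
    have h2 : Integrable (fun q : (Fin m → Bool) × (Fin m → Bool) => F q.1 q.2)
        ((fairCoin.prod fairCoin).map (Prod.map (E0.hd m) (E0.hd m))) := by
      have : IsProbabilityMeasure ((fairCoin.prod fairCoin).map (Prod.map (E0.hd m) (E0.hd m))) :=
        Measure.isProbabilityMeasure_map ((measurable_hd m).prodMap (measurable_hd m)).aemeasurable
      exact Integrable.of_finite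
    exact h2.comp_measurable ((measurable_hd m).prodMap (measurable_hd m))
  rw [integral_prod _ h1]
  have h3 : ∀ Y : Cantor, ∫ Z, F (E0.hd m Y) (E0.hd m Z) ∂fairCoin =
      ((2:ℝ) ^ m)⁻¹ * ∑ y, F (E0.hd m Y) y := fun Y => integral_hd m _
  simp only [h3]
  rw [integral_hd m (fun x => ((2:ℝ) ^ m)⁻¹ * ∑ y, F x y), ← Finset.mul_sum]
  ring

theorem ch_hd (m : ℕ) (a : Finset (Fin m)) (Y : Cantor) :
    ch a (E0.hd m Y) = sg (par (a.map Fin.valEmbedding) Y) := by
  induction a using Finset.induction_on with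
  | empty => simp [ch, par, sg]
  | insert i a hi ih =>
    have hi' : Fin.valEmbedding i ∉ a.map Fin.valEmbedding :=
      fun hmem => hi ((Finset.mem_map' Fin.valEmbedding).1 hmem)
    rw [Finset.map_insert, Stab.par_insert hi', sg_xor, ← ih]
    simp [ch, Finset.prod_insert hi, E0.hd]

theorem exists_det (φ : Cantor → Bool) (hφ : Continuous φ) :
    ∃ m, E0.Det m {Y | φ Y = true} :=
  E0.det_of_clopen ((isClopen_discrete {true}).preimage hφ)

theorem eq_of_det {m : ℕ} {φ : Cantor → Bool} (h : E0.Det m {Y | φ Y = true}) (Y Z : Cantor)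
    (hYZ : ∀ i < m, Y i = Z i) : φ Y = φ Z := by
  have := h Y Z hYZ
  simp only [Set.mem_ofPred_eq] at this
  cases h1 : φ Y <;> cases h2 : φ Z <;> simp_all

theorem exists_cyl {m : ℕ} {φ : Cantor → Bool} (h : E0.Det m {Y | φ Y = true}) :
    ∃ Φ : (Fin m → Bool) → Bool, ∀ Y, φ Y = Φ (E0.hd m Y) :=
  ⟨fun x => φ (E0.ow m x fun _ => false), fun Y => eq_of_det h _ _ fun i hi => by
    simp [E0.ow, E0.hd, hi]⟩

theorem extract (m : ℕ) (φ : Cantor → Bool) (hφ : Measurable φ) (Φ : (Fin m → Bool) → Bool)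
    (h : ∀ Y, φ Y = Φ (E0.hd m Y)) (a : Finset (Fin m)) (δ : ℝ)
    (ha : 1 - 2 * δ ≤ |co (fun x => sg (Φ x)) a|) :
    ∃ s : Bool, 1 - δ ≤ fairCoin.real {Y | φ Y = xor s (par (a.map Fin.valEmbedding) Y)} := by
  have hmb : Measurable fun Y => xor (φ Y) (par (a.map Fin.valEmbedding) Y) :=
    (Measurable.of_discrete (f := fun p : Bool × Bool => xor p.1 p.2)).comp
      (hφ.prodMk (Stab.measurable_par _))
  have h1 : co (fun x => sg (Φ x)) a =
      2 * fairCoin.real {Y | xor (φ Y) (par (a.map Fin.valEmbedding) Y) = false} - 1 := by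
    rw [← integral_sg fairCoin _ hmb]
    simp only [sg_xor, ← ch_hd, h]
    rw [integral_hd m (fun x => sg (Φ x) * ch a x)]
    rfl
  rcases le_or_gt 0 (co (fun x => sg (Φ x)) a) with hc | hc
  · refine ⟨false, ?_⟩
    rw [abs_of_nonneg hc, h1] at ha
    have e : {Y | φ Y = xor false (par (a.map Fin.valEmbedding) Y)} =
        {Y | xor (φ Y) (par (a.map Fin.valEmbedding) Y) = false} := by
      ext Y; simp
    rw [e]; linarith
  · refine ⟨true, ?_⟩
    rw [abs_of_neg hc, h1] at ha
    have e : {Y | φ Y = xor true (par (a.map Fin.valEmbedding) Y)} =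
        {Y | xor (φ Y) (par (a.map Fin.valEmbedding) Y) = false}ᶜ := by
      ext Y
      simp only [Set.mem_ofPred_eq, Set.mem_compl_iff]
      cases φ Y <;> cases par (a.map Fin.valEmbedding) Y <;> simp
    have hms : MeasurableSet {Y | xor (φ Y) (par (a.map Fin.valEmbedding) Y) = false} :=
      hmb (measurableSet_singleton false)
    rw [e, probReal_compl_eq_one_sub hms]
    linarith

end BLR

open BLR BLRFin in
/-- The linearity test (Blum-Luby-Rubinfeld) for continuous functions. -/
theorem blr (φp φ0 φ1 : Cantor → Bool) (hp : Continuous φp) (h0 : Continuous φ0)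
    (h1 : Continuous φ1) (δ : ℝ) (hδ : δ ≤ 1 / 16)
    (h : 1 - δ ≤ (fairCoin.prod fairCoin).real
      {p | φp (xorC p.1 p.2) = xor (φ0 p.1) (φ1 p.2)}) :
    ∃ (a : Finset ℕ) (sp s0 s1 : Bool),
      1 - δ ≤ fairCoin.real {Y | φp Y = xor sp (par a Y)} ∧
      1 - δ ≤ fairCoin.real {Y | φ0 Y = xor s0 (par a Y)} ∧
      1 - δ ≤ fairCoin.real {Y | φ1 Y = xor s1 (par a Y)} := by
  obtain ⟨mp, hmp⟩ := exists_det φp hp
  obtain ⟨m0, hm0⟩ := exists_det φ0 h0
  obtain ⟨m1, hm1⟩ := exists_det φ1 h1
  obtain ⟨m, hm⟩ : ∃ m, mp ≤ m ∧ m0 ≤ m ∧ m1 ≤ m :=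
    ⟨max mp (max m0 m1), le_max_left _ _, (le_max_left _ _).trans (le_max_right _ _),
      (le_max_right _ _).trans (le_max_right _ _)⟩
  obtain ⟨Fp, hFp⟩ := exists_cyl (hmp.mono hm.1)
  obtain ⟨F0, hF0⟩ := exists_cyl (hm0.mono hm.2.1)
  obtain ⟨F1, hF1⟩ := exists_cyl (hm1.mono hm.2.2)
  have hcx : Measurable fun p : Cantor × Cantor => xorC p.1 p.2 := by
    apply measurable_pi_lambda; intro n
    have e1 : Measurable fun p : Cantor × Cantor => (p.1 n, p.2 n) :=
      ((measurable_pi_apply n).comp measurable_fst).prodMk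
        ((measurable_pi_apply n).comp measurable_snd)
    exact (Measurable.of_discrete (f := fun q : Bool × Bool => xor q.1 q.2)).comp e1
  have hxm : Measurable fun q : Bool × Bool => xor q.1 q.2 := Measurable.of_discrete
  have hmb : Measurable fun p : Cantor × Cantor =>
      xor (φp (xorC p.1 p.2)) (xor (φ0 p.1) (φ1 p.2)) :=
    hxm.comp ((hp.measurable.comp hcx).prodMk
      (hxm.comp ((h0.measurable.comp measurable_fst).prodMk (h1.measurable.comp measurable_snd))))
  have hint := integral_sg (fairCoin.prod fairCoin) _ hmb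
  have hset : {p : Cantor × Cantor | φp (xorC p.1 p.2) = xor (φ0 p.1) (φ1 p.2)} =
      {p : Cantor × Cantor | xor (φp (xorC p.1 p.2)) (xor (φ0 p.1) (φ1 p.2)) = false} := by
    ext p
    simp only [Set.mem_ofPred_eq]
    cases φp (xorC p.1 p.2) <;> cases φ0 p.1 <;> cases φ1 p.2 <;> simp
  rw [hset] at h
  have hval : ∫ p : Cantor × Cantor, sg (xor (φp (xorC p.1 p.2)) (xor (φ0 p.1) (φ1 p.2)))
      ∂(fairCoin.prod fairCoin) =
      ((2:ℝ) ^ m)⁻¹ ^ 2 * ∑ x, ∑ y, sg (F0 x) * sg (F1 y) * sg (Fp (xo x y)) := by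
    rw [← integral_hd2 m (fun x y => sg (F0 x) * sg (F1 y) * sg (Fp (xo x y)))]
    refine integral_congr_ae (Filter.Eventually.of_forall fun p => ?_)
    simp only [sg_xor, hFp, hF0, hF1]
    have : E0.hd m (xorC p.1 p.2) = xo (E0.hd m p.1) (E0.hd m p.2) := rfl
    rw [this]; ring
  rw [hval] at hint
  have hsq : ∀ F : (Fin m → Bool) → Bool, ∀ x, (fun x => sg (F x)) x ^ 2 = 1 := by
    intro F x; rw [sq]; exact sg_mul_self _
  obtain ⟨a, hap, ha0, ha1⟩ := main (fun x => sg (Fp x)) (fun x => sg (F0 x)) (fun x => sg (F1 x))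
    (hsq Fp) (hsq F0) (hsq F1) δ hδ (by rw [hint]; linarith)
  obtain ⟨sp, hsp⟩ := extract m φp hp.measurable Fp hFp a δ hap
  obtain ⟨s0, hs0⟩ := extract m φ0 h0.measurable F0 hF0 a δ ha0
  obtain ⟨s1, hs1⟩ := extract m φ1 h1.measurable F1 hF1 a δ ha1
  exact ⟨a.map Fin.valEmbedding, sp, s0, s1, hsp, hs0, hs1⟩

end Vale.Agent.P327
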