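import Vale.Agent.P327.Defs

/-! Basic operations on Cantor space, finite approximations, r.e. functionals. -/

open MeasureTheory

namespace Vale.Agent.P327

/-- The list of the first `j` bits. -/
def pre (A : Cantor) (j : ℕ) : List Bool := (List.range j).map A

/-- Join of two sets. -/
def join (A B : Cantor) : Cantor := fun n => if n % 2 = 0 then A (n / 2) else B (n / 2)

/-- Even part. -/
def ev (A : Cantor) : Cantor := fun n => A (2 * n)
/-- Odd part. -/
def od (A : Cantor) : Cantor := fun n => A (2 * n + 1)

/-- Join of four sets. -/
def J4 (a : Fin 4 → Cantor) : Cantor := fun n => a ⟨n % 4, Nat.mod_lt _ (by norm_num)⟩ (n / 4)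

/-- The four columns. -/
def pr (i : Fin 4) (Z : Cantor) : Cantor := fun n => Z (4 * n + i)

/-- Replace the first `N` bits of `A` by those of `z`. -/
def put (N : ℕ) (z A : Cantor) : Cantor := fun n => if n < N then z n else A n

/-- Symmetric difference. -/
def xorC (A B : Cantor) : Cantor := fun n => xor (A n) (B n)
/-- Intersection. -/
def andC (A B : Cantor) : Cantor := fun n => A n && B n

/-- A set of axioms for a functional. -/
abbrev Fnl : Type := List Bool → ℕ → Bool → Prop

/-- The axioms are recursively enumerable and monotone in the oracle string. -/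
structure Good (W : Fnl) : Prop where
  re : REPred fun x : List Bool × ℕ × Bool => W x.1 x.2.1 x.2.2
  mono : ∀ σ τ n v, σ <+: τ → W σ n v → W τ n v

/-- The functional `W` with oracle `B` computes exactly `A`. -/
def Computes (W : Fnl) (B A : Cantor) : Prop := ∀ n v, A n = v ↔ ∃ j, W (pre B j) n v

@[simp] theorem pre_length (A : Cantor) (j : ℕ) : (pre A j).length = j := by simp [pre]

theorem pre_prefix (A : Cantor) {i j : ℕ} (h : i ≤ j) : pre A i <+: pre A j := by
  unfold pre
  obtain ⟨k, rfl⟩ := Nat.exists_eq_add_of_le h
  rw [List.range_add, List.map_append]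
  exact List.prefix_append _ _

@[simp] theorem ev_join (A B : Cantor) : ev (join A B) = A := by
  funext n; simp [ev, join]

@[simp] theorem od_join (A B : Cantor) : od (join A B) = B := by
  funext n
  have h1 : (2 * n + 1) % 2 = 1 := by omega
  have h2 : (2 * n + 1) / 2 = n := by omega
  simp [od, join, h1, h2]

@[simp] theorem join_ev_od (A : Cantor) : join (ev A) (od A) = A := by
  funext n
  unfold join ev od
  split_ifs with h
  · congr 1; omega
  · congr 1; omega

@[simp] theorem pr_J4 (i : Fin 4) (a : Fin 4 → Cantor) : pr i (J4 a) = a i := by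
  funext n
  have hi := i.2
  have h1 : (4 * n + (i : ℕ)) % 4 = i := by omega
  have h2 : (4 * n + (i : ℕ)) / 4 = n := by omega
  simp [pr, J4, h1, h2]

@[simp] theorem J4_pr (Z : Cantor) : J4 (fun i => pr i Z) = Z := by
  funext n
  simp only [J4, pr]
  congr 1
  omega

theorem put_put (N : ℕ) (z A : Cantor) : put N z (put N z A) = put N z A := by
  funext n; simp only [put]; split_ifs <;> rfl

theorem xorC_put (N : ℕ) (z z' A B : Cantor) :
    xorC (put N z A) (put N z' B) = put N (xorC z z') (xorC A B) := by
  funext n; simp only [put, xorC]; split_ifs <;> rfl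

theorem andC_put (N : ℕ) (z z' A B : Cantor) :
    andC (put N z A) (put N z' B) = put N (andC z z') (andC A B) := by
  funext n; simp only [put, andC]; split_ifs <;> rfl

theorem pr_put (N : ℕ) (i : Fin 4) (z A : Cantor) :
    pr i (put (4 * N) z A) = put N (pr i z) (pr i A) := by
  funext n
  have hi := i.2
  simp only [pr, put]
  by_cases h : n < N
  · rw [if_pos h, if_pos (by omega)]
  · rw [if_neg h, if_neg (by omega)]

end Vale.Agent.P327
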