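import Vale.Agent.P327.RE

/-! Normal form for Turing reducibility between sets. -/

open MeasureTheory

namespace Vale.Agent.P327

theorem red_refl (A : Cantor) : Red A A := TuringReducible.refl _

theorem red_trans {A B C : Cantor} (h1 : Red A B) (h2 : Red B C) : Red A C :=
  TuringReducible.trans h1 h2

/-! ### Uniformisation in the oracle -/

/-- `F` is a monotone approximation of `f` along the prefixes of `B`. -/
structure Approx (B : Cantor) (f : ℕ →. ℕ) (F : List Bool → ℕ →. ℕ) : Prop where
  part : Partrec₂ F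
  mono : ∀ σ τ n y, σ <+: τ → y ∈ F σ n → y ∈ F τ n
  lim : ∀ n y, y ∈ f n ↔ ∃ j, y ∈ F (pre B j) n

theorem Approx.mono' {B : Cantor} {f : ℕ →. ℕ} {F : List Bool → ℕ →. ℕ} (h : Approx B f F)
    {i j n y : ℕ} (hij : i ≤ j) (hy : y ∈ F (pre B i) n) : y ∈ F (pre B j) n :=
  h.mono _ _ _ _ (pre_prefix B hij) hy

theorem approx_total {B : Cantor} {f : ℕ → ℕ} (hf : Computable f) :
    Approx B (fun n => Part.some (f n)) (fun _ n => Part.some (f n)) where
  part := (hf.comp Computable.snd).partrec
  mono := fun _ _ _ _ _ h => h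
  lim := fun _ _ => ⟨fun h => ⟨0, h⟩, fun ⟨_, h⟩ => h⟩

theorem getElem?_pre (B : Cantor) (j n : ℕ) (b : Bool) :
    (pre B j)[n]? = some b ↔ n < j ∧ B n = b := by
  unfold pre
  rw [List.getElem?_map]
  by_cases h : n < j
  · rw [List.getElem?_range h]
    simp [h]
  · rw [List.getElem?_eq_none (by simpa using h)]
    simp [h]

theorem approx_oracle (B : Cantor) : Approx B (chi B)
    (fun σ n => ((σ[n]?).map Bool.toNat : Option ℕ)) where
  part := by
    have h5 : Computable Bool.toNat := (Primrec.dom_finite _).to_comp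
    have h1 : Computable fun x : List Bool × ℕ => (x.1[x.2]?).map Bool.toNat :=
      Computable.option_map (Computable.list_getElem?.comp Computable.fst Computable.snd)
        (h5.comp Computable.snd)
    exact h1.ofOption
  mono := by
    rintro σ τ n y ⟨ρ, rfl⟩ hy
    rw [Part.mem_coe, Option.mem_def, Option.map_eq_some_iff] at hy ⊢
    obtain ⟨b, hb, hy⟩ := hy
    refine ⟨b, ?_, hy⟩
    obtain ⟨h1, h2⟩ := List.getElem?_eq_some_iff.1 hb
    rw [List.getElem?_append_left h1]
    exact hb
  lim := by
    intro n y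
    constructor
    · intro h
      refine ⟨n + 1, ?_⟩
      rw [Part.mem_coe, Option.mem_def, Option.map_eq_some_iff]
      refine ⟨B n, (getElem?_pre B _ _ _).2 ⟨Nat.lt_succ_self n, rfl⟩, ?_⟩
      exact (Part.mem_some_iff.1 h).symm
    · rintro ⟨j, hj⟩
      rw [Part.mem_coe, Option.mem_def, Option.map_eq_some_iff] at hj
      obtain ⟨b, hb, hy⟩ := hj
      obtain ⟨_, h2⟩ := (getElem?_pre B _ _ _).1 hb
      rw [← hy, ← h2]
      exact Part.mem_some _

theorem mem_pair_iff {p q : Part ℕ} {y : ℕ} :
    y ∈ (Nat.pair <$> p <*> q) ↔ ∃ a ∈ p, ∃ b ∈ q, Nat.pair a b = y := by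
  simp [Seq.seq]

theorem approx_pair {B : Cantor} {f h : ℕ →. ℕ} {F H : List Bool → ℕ →. ℕ}
    (hF : Approx B f F) (hH : Approx B h H) :
    Approx B (fun n => (Nat.pair <$> f n <*> h n))
      (fun σ n => (F σ n).bind fun a => (H σ n).map fun b => Nat.pair a b) where
  part := by
    refine Partrec.bind hF.part ?_
    refine Partrec.map (f := fun x : (List Bool × ℕ) × ℕ => H x.1.1 x.1.2)
      (g := fun x b => Nat.pair x.2 b) ?_ ?_
    · exact Partrec₂.comp hH.part (Computable.fst.comp Computable.fst)
        (Computable.snd.comp Computable.fst)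
    · exact Primrec₂.natPair.to_comp.comp (Computable.snd.comp Computable.fst) Computable.snd
  mono := by
    intro σ τ n y hst hy
    obtain ⟨a, ha, hy⟩ := Part.mem_bind_iff.1 hy
    obtain ⟨b, hb, hy⟩ := (Part.mem_map_iff _).1 hy
    exact Part.mem_bind_iff.2 ⟨a, hF.mono _ _ _ _ hst ha,
      (Part.mem_map_iff _).2 ⟨b, hH.mono _ _ _ _ hst hb, hy⟩⟩
  lim := by
    intro n y
    refine Iff.trans mem_pair_iff ?_
    constructor
    · rintro ⟨a, ha, b, hb, hy⟩
      obtain ⟨i, hi⟩ := (hF.lim _ _).1 ha
      obtain ⟨j, hj⟩ := (hH.lim _ _).1 hb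
      exact ⟨max i j, Part.mem_bind_iff.2 ⟨a, hF.mono' (le_max_left _ _) hi,
        (Part.mem_map_iff _).2 ⟨b, hH.mono' (le_max_right _ _) hj, hy⟩⟩⟩
    · rintro ⟨j, hj⟩
      obtain ⟨a, ha, hy⟩ := Part.mem_bind_iff.1 hj
      obtain ⟨b, hb, hy⟩ := (Part.mem_map_iff _).1 hy
      exact ⟨a, (hF.lim _ _).2 ⟨j, ha⟩, b, (hH.lim _ _).2 ⟨j, hb⟩, hy⟩

theorem approx_comp {B : Cantor} {f h : ℕ →. ℕ} {F H : List Bool → ℕ →. ℕ}
    (hF : Approx B f F) (hH : Approx B h H) :
    Approx B (fun n => h n >>= f) (fun σ n => (H σ n).bind (F σ)) where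
  part := by
    refine Partrec.bind hH.part ?_
    exact Partrec₂.comp hF.part (Computable.fst.comp Computable.fst) Computable.snd
  mono := by
    intro σ τ n y hst hy
    obtain ⟨a, ha, hy⟩ := Part.mem_bind_iff.1 hy
    exact Part.mem_bind_iff.2 ⟨a, hH.mono _ _ _ _ hst ha, hF.mono _ _ _ _ hst hy⟩
  lim := by
    intro n y
    constructor
    · intro hy
      obtain ⟨a, ha, hy⟩ := Part.mem_bind_iff.1 hy
      obtain ⟨i, hi⟩ := (hH.lim _ _).1 ha
      obtain ⟨j, hj⟩ := (hF.lim _ _).1 hy
      exact ⟨max i j, Part.mem_bind_iff.2 ⟨a, hH.mono' (le_max_left _ _) hi,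
        hF.mono' (le_max_right _ _) hj⟩⟩
    · rintro ⟨j, hj⟩
      obtain ⟨a, ha, hy⟩ := Part.mem_bind_iff.1 hj
      exact Part.mem_bind_iff.2 ⟨a, (hH.lim _ _).2 ⟨j, ha⟩, (hF.lim _ _).2 ⟨j, hy⟩⟩

theorem approx_prec {B : Cantor} {f h : ℕ →. ℕ} {F H : List Bool → ℕ →. ℕ}
    (hF : Approx B f F) (hH : Approx B h H) :
    Approx B (fun p =>
        let (a, n) := Nat.unpair p
        n.rec (f a) fun y IH => do
          let i ← IH
          h (Nat.pair a (Nat.pair y i)))
      (fun σ p => Nat.rec (F σ p.unpair.1) (fun y IH => IH.bind fun i =>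
        H σ (Nat.pair p.unpair.1 (Nat.pair y i))) p.unpair.2) where
  part := by
    have c1 : Computable fun x : List Bool × ℕ => x.2.unpair.1 :=
      Computable.fst.comp (Computable.unpair.comp Computable.snd)
    have c2 : Computable fun x : List Bool × ℕ => x.2.unpair.2 :=
      Computable.snd.comp (Computable.unpair.comp Computable.snd)
    refine Partrec.nat_rec (f := fun x : List Bool × ℕ => x.2.unpair.2)
      (g := fun x => F x.1 x.2.unpair.1)
      (h := fun x y => H x.1 (Nat.pair x.2.unpair.1 (Nat.pair y.1 y.2))) c2 ?_ ?_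
    · exact Partrec₂.comp hF.part Computable.fst c1
    · refine Partrec₂.comp hH.part (Computable.fst.comp Computable.fst) ?_
      exact Primrec₂.natPair.to_comp.comp (c1.comp Computable.fst)
        (Primrec₂.natPair.to_comp.comp (Computable.fst.comp Computable.snd)
          (Computable.snd.comp Computable.snd))
  mono := by
    intro σ τ p y hst
    generalize p.unpair.1 = a
    generalize p.unpair.2 = n
    induction n generalizing y with
    | zero => exact fun hy => hF.mono _ _ _ _ hst hy
    | succ n ih =>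
      intro hy
      obtain ⟨i, hi, hy⟩ := Part.mem_bind_iff.1 hy
      exact Part.mem_bind_iff.2 ⟨i, ih i hi, hH.mono _ _ _ _ hst hy⟩
  lim := by
    intro p y
    show y ∈ (Nat.rec (f p.unpair.1) (fun y IH => IH.bind fun i =>
        h (Nat.pair p.unpair.1 (Nat.pair y i))) p.unpair.2 : Part ℕ) ↔ _
    generalize p.unpair.1 = a
    generalize p.unpair.2 = n
    have mono : ∀ (n y i j : ℕ), i ≤ j →
        y ∈ (Nat.rec (F (pre B i) a) (fun y IH => IH.bind fun k =>
          H (pre B i) (Nat.pair a (Nat.pair y k))) n : Part ℕ) →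
        y ∈ (Nat.rec (F (pre B j) a) (fun y IH => IH.bind fun k =>
          H (pre B j) (Nat.pair a (Nat.pair y k))) n : Part ℕ) := by
      intro n
      induction n with
      | zero => exact fun y i j hij hy => hF.mono' hij hy
      | succ n ih =>
        intro y i j hij hy
        obtain ⟨k, hk, hy⟩ := Part.mem_bind_iff.1 hy
        exact Part.mem_bind_iff.2 ⟨k, ih k i j hij hk, hH.mono' hij hy⟩
    induction n generalizing y with
    | zero => exact hF.lim a y
    | succ n ih =>
      constructor
      · intro hy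
        obtain ⟨k, hk, hy⟩ := Part.mem_bind_iff.1 hy
        obtain ⟨i, hi⟩ := (ih k).1 hk
        obtain ⟨j, hj⟩ := (hH.lim _ _).1 hy
        exact ⟨max i j, Part.mem_bind_iff.2 ⟨k, mono n k i _ (le_max_left _ _) hi,
          hH.mono' (le_max_right _ _) hj⟩⟩
      · rintro ⟨j, hj⟩
        obtain ⟨k, hk, hy⟩ := Part.mem_bind_iff.1 hj
        exact Part.mem_bind_iff.2 ⟨k, (ih k).2 ⟨j, hk⟩, (hH.lim _ _).2 ⟨j, hy⟩⟩

theorem mem_rfind_iff {g : ℕ →. ℕ} {a y : ℕ} :
    (y ∈ Nat.rfind fun n => (g (Nat.pair a n)).map fun m => decide (m = 0)) ↔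
      (∃ z ∈ g (Nat.pair a y), decide (z = 0) = true) ∧
        ∀ m < y, ∃ z ∈ g (Nat.pair a m), decide (z = 0) = false := by
  constructor
  · intro h
    refine ⟨(Part.mem_map_iff _).1 (Nat.rfind_spec h), fun m hm => ?_⟩
    exact (Part.mem_map_iff _).1 (Nat.rfind_min h hm)
  · rintro ⟨h1, h2⟩
    exact Nat.mem_rfind.2 ⟨(Part.mem_map_iff _).2 h1, fun {m} hm =>
      (Part.mem_map_iff _).2 (h2 m hm)⟩

theorem approx_rfind {B : Cantor} {f : ℕ →. ℕ} {F : List Bool → ℕ →. ℕ}
    (hF : Approx B f F) :
    Approx B (fun a => Nat.rfind fun n => (fun m => m = 0) <$> f (Nat.pair a n))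
      (fun σ a => Nat.rfind fun n => (F σ (Nat.pair a n)).map fun m => decide (m = 0)) where
  part := by
    refine Partrec.rfind (p := fun (x : List Bool × ℕ) n =>
      (F x.1 (Nat.pair x.2 n)).map fun m => decide (m = 0)) ?_
    refine Partrec.map (f := fun x : (List Bool × ℕ) × ℕ => F x.1.1 (Nat.pair x.1.2 x.2))
      (g := fun _ m => decide (m = 0)) ?_ ?_
    · exact Partrec₂.comp hF.part (Computable.fst.comp Computable.fst)
        (Primrec₂.natPair.to_comp.comp (Computable.snd.comp Computable.fst) Computable.snd)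
    · have : Primrec fun m : ℕ => decide (m = 0) :=
        (Primrec.eq.comp Primrec.id (Primrec.const 0)).decide
      exact this.to_comp.comp Computable.snd
  mono := by
    intro σ τ a y hst hy
    obtain ⟨⟨z, hz, hb⟩, h2⟩ := mem_rfind_iff.1 hy
    refine mem_rfind_iff.2 ⟨⟨z, hF.mono _ _ _ _ hst hz, hb⟩, fun m hm => ?_⟩
    obtain ⟨z, hz, hb⟩ := h2 m hm
    exact ⟨z, hF.mono _ _ _ _ hst hz, hb⟩
  lim := by
    intro a y
    refine Iff.trans (mem_rfind_iff (g := f)) ?_
    constructor
    · rintro ⟨⟨z, hz, hb⟩, h2⟩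
      obtain ⟨i, hi⟩ := (hF.lim _ _).1 hz
      have h3 : ∀ k ≤ y, ∃ j, ∀ m < k,
          ∃ z ∈ F (pre B j) (Nat.pair a m), decide (z = 0) = false := by
        intro k
        induction k with
        | zero => intro _; exact ⟨0, fun m hm => absurd hm (Nat.not_lt_zero m)⟩
        | succ k ih =>
          intro hk
          obtain ⟨j, hj⟩ := ih (by omega)
          obtain ⟨z', hz', hb'⟩ := h2 k (by omega)
          obtain ⟨i', hi'⟩ := (hF.lim _ _).1 hz'
          refine ⟨max j i', fun m hm => ?_⟩
          rcases Nat.lt_succ_iff_lt_or_eq.1 hm with hm | rfl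
          · obtain ⟨z'', hz'', hb''⟩ := hj m hm
            exact ⟨z'', hF.mono' (le_max_left _ _) hz'', hb''⟩
          · exact ⟨z', hF.mono' (le_max_right _ _) hi', hb'⟩
      obtain ⟨j, hj⟩ := h3 y le_rfl
      refine ⟨max i j, mem_rfind_iff.2 ⟨⟨z, hF.mono' (le_max_left _ _) hi, hb⟩,
        fun m hm => ?_⟩⟩
      obtain ⟨z'', hz'', hb''⟩ := hj m hm
      exact ⟨z'', hF.mono' (le_max_right _ _) hz'', hb''⟩
    · rintro ⟨j, hj⟩
      obtain ⟨⟨z, hz, hb⟩, h2⟩ := mem_rfind_iff.1 hj
      refine ⟨⟨z, (hF.lim _ _).2 ⟨j, hz⟩, hb⟩, fun m hm => ?_⟩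
      obtain ⟨z, hz, hb⟩ := h2 m hm
      exact ⟨z, (hF.lim _ _).2 ⟨j, hz⟩, hb⟩

theorem exists_approx {B : Cantor} {f : ℕ →. ℕ} (h : Nat.RecursiveIn {chi B} f) :
    ∃ F, Approx B f F := by
  induction h with
  | zero => exact ⟨_, approx_total (f := fun _ => 0) (Computable.const 0)⟩
  | succ => exact ⟨_, approx_total Computable.succ⟩
  | left => exact ⟨_, approx_total (Computable.fst.comp Computable.unpair)⟩
  | right => exact ⟨_, approx_total (Computable.snd.comp Computable.unpair)⟩
  | oracle g hg =>
    rw [Set.mem_singleton_iff] at hg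
    subst hg
    exact ⟨_, approx_oracle B⟩
  | pair _ _ ih1 ih2 =>
    obtain ⟨F, hF⟩ := ih1
    obtain ⟨H, hH⟩ := ih2
    exact ⟨_, approx_pair hF hH⟩
  | comp _ _ ih1 ih2 =>
    obtain ⟨F, hF⟩ := ih1
    obtain ⟨H, hH⟩ := ih2
    exact ⟨_, approx_comp hF hH⟩
  | prec _ _ ih1 ih2 =>
    obtain ⟨F, hF⟩ := ih1
    obtain ⟨H, hH⟩ := ih2
    exact ⟨_, approx_prec hF hH⟩
  | rfind _ ih =>
    obtain ⟨F, hF⟩ := ih
    exact ⟨_, approx_rfind hF⟩

/-! ### Functions computable in an oracle -/

theorem recIn_total {O : Set (ℕ →. ℕ)} {u : ℕ → ℕ} (hu : Computable u) :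
    Nat.RecursiveIn O (fun n => Part.some (u n)) :=
  Nat.Partrec.recursiveIn (Partrec.nat_iff.1 hu.partrec)

/-- Total functions computable in an oracle. -/
def CIn (O : Set (ℕ →. ℕ)) (u : ℕ → ℕ) : Prop := Nat.RecursiveIn O (fun n => Part.some (u n))

theorem CIn.of_computable {O : Set (ℕ →. ℕ)} {u : ℕ → ℕ} (hu : Computable u) : CIn O u :=
  recIn_total hu

theorem CIn.comp {O : Set (ℕ →. ℕ)} {u v : ℕ → ℕ} (hu : CIn O u) (hv : CIn O v) :
    CIn O (fun n => u (v n)) := by
  refine Nat.RecursiveIn.of_eq (Nat.RecursiveIn.comp hu hv) (fun n => ?_)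
  exact Part.bind_some _ _

theorem CIn.pair {O : Set (ℕ →. ℕ)} {u v : ℕ → ℕ} (hu : CIn O u) (hv : CIn O v) :
    CIn O (fun n => Nat.pair (u n) (v n)) := by
  refine Nat.RecursiveIn.of_eq (Nat.RecursiveIn.pair hu hv) (fun n => ?_)
  simp [Seq.seq]

theorem red_iff_cin (A B : Cantor) : Red A B ↔ CIn {chi B} (fun n => (A n).toNat) := by
  unfold Red TuringReducible
  exact RecursiveIn.iff_nat

theorem cin_oracle (B : Cantor) : CIn {chi B} (fun n => (B n).toNat) :=
  Nat.RecursiveIn.oracle _ (Set.mem_singleton _)

/-- The initial segments of the oracle are computable in the oracle. -/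
theorem cin_pre (B : Cantor) : CIn {chi B} (fun j => Encodable.encode (pre B j)) := by
  -- appending one bit
  let c : ℕ → ℕ := fun x => Encodable.encode
    (((Encodable.decode (α := List Bool) x.unpair.1).getD []) ++ [decide (x.unpair.2 = 1)])
  have hc : Computable c := by
    refine Computable.encode.comp ?_
    have h1 : Computable fun x : ℕ => (Encodable.decode (α := List Bool) x.unpair.1).getD [] :=
      Computable.option_getD (Computable.decode.comp (Computable.fst.comp Computable.unpair))
        (Computable.const [])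
    have h2 : Primrec fun x : ℕ => decide (x = 1) :=
      (Primrec.eq.comp Primrec.id (Primrec.const 1)).decide
    have h3 : Computable fun x : ℕ => decide (x.unpair.2 = 1) :=
      h2.to_comp.comp (Computable.snd.comp Computable.unpair)
    exact Computable.list_concat.comp h1 h3
  -- one step
  have hstep : CIn {chi B} (fun x : ℕ => c (Nat.pair x.unpair.2.unpair.2
      (B x.unpair.2.unpair.1).toNat)) := by
    refine (CIn.of_computable hc).comp (CIn.pair ?_ ?_)
    · exact CIn.of_computable (Computable.snd.comp (Computable.unpair.comp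
        (Computable.snd.comp Computable.unpair)))
    · refine (cin_oracle B).comp (CIn.of_computable ?_)
      exact Computable.fst.comp (Computable.unpair.comp (Computable.snd.comp Computable.unpair))
  have hrec := Nat.RecursiveIn.prec
    (CIn.of_computable (O := {chi B}) (Computable.const (Encodable.encode ([] : List Bool)))) hstep
  have hfin := Nat.RecursiveIn.comp hrec
    (CIn.of_computable (O := {chi B}) (u := fun n => Nat.pair 0 n)
      (Primrec₂.natPair.to_comp.comp (Computable.const 0) Computable.id))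
  refine Nat.RecursiveIn.of_eq hfin (fun n => ?_)
  have e1 : (Part.some (Nat.pair 0 n) : Part ℕ) = Part.some (Nat.pair 0 n) := rfl
  refine Eq.trans (Part.bind_some _ _) ?_
  simp only [Nat.unpair_pair]
  induction n with
  | zero => rfl
  | succ n ih =>
    refine Eq.trans (congrArg (fun z : Part ℕ => z.bind _) (ih rfl)) ?_
    refine Eq.trans (Part.bind_some _ _) ?_
    have : pre B (n + 1) = pre B n ++ [B n] := by
      unfold pre
      rw [List.range_succ, List.map_append]
      rfl
    rw [this]
    simp only [Nat.unpair_pair, c, Encodable.encodek, Option.getD_some]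
    congr 4
    cases B n <;> rfl

/-- Search through the initial segments of the oracle. -/
theorem cin_search {B : Cantor} (t : ℕ → ℕ → List Bool → Option ℕ)
    (ht : Computable fun x : ℕ × ℕ × List Bool => t x.1 x.2.1 x.2.2) (v : ℕ → ℕ)
    (h1 : ∀ n, ∃ k x, t n k (pre B k) = some x)
    (h2 : ∀ n k x, t n k (pre B k) = some x → x = v n) : CIn {chi B} v := by
  -- `x` codes `((n, k), z)`
  let T : ℕ → Option ℕ := fun x =>
    t x.unpair.1.unpair.1 x.unpair.1.unpair.2
      ((Encodable.decode (α := List Bool) x.unpair.2).getD [])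
  have hT : Computable T := by
    have c1 : Computable fun x : ℕ => x.unpair.1.unpair :=
      Computable.unpair.comp (Computable.fst.comp Computable.unpair)
    have c2 : Computable fun x : ℕ => (Encodable.decode (α := List Bool) x.unpair.2).getD [] :=
      Computable.option_getD (Computable.decode.comp (Computable.snd.comp Computable.unpair))
        (Computable.const [])
    exact ht.comp ((Computable.fst.comp c1).pair ((Computable.snd.comp c1).pair c2))
  have hw0 : Computable fun x => (T x).isNone.toNat := by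
    have h5 : Computable Bool.toNat := (Primrec.dom_finite _).to_comp
    have h6 : Computable fun o : Option ℕ => o.isNone := by
      have h7 : Primrec fun o : Option ℕ => !o.isSome := Primrec.not.comp Primrec.option_isSome
      exact h7.to_comp.of_eq (fun o => by cases o <;> rfl)
    exact h5.comp (h6.comp hT)
  have hw1 : Computable fun x => (T x).getD 0 :=
    Computable.option_getD hT (Computable.const 0)
  have hpre : CIn {chi B} (fun p => Nat.pair p (Encodable.encode (pre B p.unpair.2))) :=
    CIn.pair (CIn.of_computable Computable.id)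
      ((cin_pre B).comp (CIn.of_computable (Computable.snd.comp Computable.unpair)))
  have hf0 := (CIn.of_computable (O := {chi B}) hw0).comp hpre
  have hf1 := (CIn.of_computable (O := {chi B}) hw1).comp hpre
  have hpair := Nat.RecursiveIn.pair (CIn.of_computable (O := {chi B}) Computable.id)
    (Nat.RecursiveIn.rfind hf0)
  refine Nat.RecursiveIn.of_eq_tot (Nat.RecursiveIn.comp hf1 hpair) (fun n => ?_)
  have hTval : ∀ k, T (Nat.pair (Nat.pair n k) (Encodable.encode (pre B k)))
      = t n k (pre B k) := by
    intro k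
    simp only [T, Nat.unpair_pair, Encodable.encodek, Option.getD_some]
  obtain ⟨k, x, hkx⟩ := h1 n
  obtain ⟨m, hm, _⟩ := Nat.rfind_min' (p := fun k => (t n k (pre B k)).isSome) (m := k)
    (by rw [hkx]; rfl)
  have hm1 := Nat.rfind_spec hm
  have hm2 : ∀ {l : ℕ}, l < m → false ∈ (Part.some (t n l (pre B l)).isSome : Part Bool) :=
    fun {l} hl => Nat.rfind_min hm hl
  have hm3 : (t n m (pre B m)).isSome = true := (Part.mem_some_iff.1 hm1).symm
  obtain ⟨y, hy⟩ := Option.isSome_iff_exists.1 hm3
  have hyv := h2 n m y hy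
  refine Part.mem_bind_iff.2 ⟨Nat.pair n m, ?_, ?_⟩
  · refine mem_pair_iff.2 ⟨n, Part.mem_some _, m, ?_, rfl⟩
    refine Nat.mem_rfind.2 ⟨?_, fun {l} hl => ?_⟩
    · refine (Part.mem_map_iff _).2 ⟨_, Part.mem_some _, ?_⟩
      simp only [Nat.unpair_pair, hTval, hy]
      rfl
    · refine (Part.mem_map_iff _).2 ⟨_, Part.mem_some _, ?_⟩
      have h3 : (t n l (pre B l)).isSome = false := (Part.mem_some_iff.1 (hm2 hl)).symm
      have h4 : t n l (pre B l) = none := by
        rw [← Option.isNone_iff_eq_none, ← Option.not_isSome, h3]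
        rfl
      simp only [Nat.unpair_pair, hTval, h4]
      rfl
  · have : v n = ((T (Nat.pair (Nat.pair n m) (Encodable.encode (pre B m)))).getD 0) := by
      rw [hTval, hy, ← hyv]
      rfl
    rw [this]
    simp only [Nat.unpair_pair]
    exact Part.mem_some _

theorem take_pre (B : Cantor) {j k : ℕ} (h : j ≤ k) : (pre B k).take j = pre B j := by
  obtain ⟨l, hl⟩ := pre_prefix B h
  rw [← hl, List.take_left']
  exact pre_length B j

/-- Normal form: `A ≤_T B` iff some good set of axioms computes `A` from `B`. -/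
theorem red_iff (A B : Cantor) : Red A B ↔ ∃ W : Fnl, Good W ∧ Computes W B A := by
  constructor
  · intro h
    obtain ⟨F, hF⟩ := exists_approx ((red_iff_cin A B).1 h)
    refine ⟨fun σ n v => v.toNat ∈ F σ n, ⟨?_, ?_⟩, ?_⟩
    · -- recursively enumerable
      have h5 : Computable Bool.toNat := (Primrec.dom_finite _).to_comp
      have h1 : Partrec fun x : List Bool × ℕ × Bool =>
          (F x.1 x.2.1).bind fun z =>
            ((if z = x.2.2.toNat then some () else none : Option Unit) : Part Unit) := by
        refine Partrec.bind (f := fun x : List Bool × ℕ × Bool => F x.1 x.2.1) ?_ ?_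
        · exact Partrec₂.comp hF.part Computable.fst (Computable.fst.comp Computable.snd)
        · have h2 : Computable fun x : (List Bool × ℕ × Bool) × ℕ =>
              (if x.2 = x.1.2.2.toNat then some () else none : Option Unit) := by
            have h3 : Computable fun x : (List Bool × ℕ × Bool) × ℕ =>
                decide (x.2 = x.1.2.2.toNat) := by
              have h4 : Computable₂ fun a b : ℕ => decide (a = b) := Primrec.eq.decide.to_comp
              exact h4.comp Computable.snd (h5.comp (Computable.snd.comp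
                (Computable.snd.comp Computable.fst)))
            refine (Computable.cond h3 (Computable.const (some ()))
              (Computable.const none)).of_eq (fun x => ?_)
            by_cases h : x.2 = x.1.2.2.toNat <;> simp [h]
          exact h2.ofOption
      refine h1.dom_re.of_eq (fun x => ?_)
      constructor
      · intro hd
        obtain ⟨u, hu⟩ := Part.dom_iff_mem.1 hd
        obtain ⟨z, hz, hz2⟩ := Part.mem_bind_iff.1 hu
        by_cases hzx : z = x.2.2.toNat
        · rw [← hzx]; exact hz
        · rw [if_neg hzx] at hz2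
          simp at hz2
      · intro hx
        refine Part.dom_iff_mem.2 ⟨(), Part.mem_bind_iff.2 ⟨_, hx, ?_⟩⟩
        rw [if_pos rfl]
        simp
    · exact fun σ τ n v hst h => hF.mono _ _ _ _ hst h
    · intro n v
      show A n = v ↔ ∃ j, v.toNat ∈ F (pre B j) n
      rw [← hF.lim, Part.mem_some_iff]
      constructor
      · rintro rfl; rfl
      · intro h
        cases hA : A n <;> cases v <;> simp_all
  · rintro ⟨W, hW, hc⟩
    rw [red_iff_cin]
    obtain ⟨f, hf, _, ef⟩ := re_exists_stage hW.re
    refine cin_search (fun n k σ =>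
      if f (σ.take k.unpair.1, n, true) k.unpair.2 = true then some 1
      else if f (σ.take k.unpair.1, n, false) k.unpair.2 = true then some 0 else none) ?_ _ ?_ ?_
    · have c1 : Computable fun x : ℕ × ℕ × List Bool => x.2.1.unpair :=
        Computable.unpair.comp (Computable.fst.comp Computable.snd)
      have c2 : Computable fun x : ℕ × ℕ × List Bool => x.2.2.take x.2.1.unpair.1 :=
        Primrec.list_take.to_comp.comp (Computable.fst.comp c1)
          (Computable.snd.comp Computable.snd)
      have c3 : ∀ b : Bool, Computable fun x : ℕ × ℕ × List Bool =>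
          f (x.2.2.take x.2.1.unpair.1, x.1, b) x.2.1.unpair.2 := fun b =>
        Computable₂.comp hf (c2.pair (Computable.fst.pair (Computable.const b)))
          (Computable.snd.comp c1)
      refine (Computable.cond (c3 true) (Computable.const (some 1))
        (Computable.cond (c3 false) (Computable.const (some 0)) (Computable.const none))).of_eq
        (fun x => ?_)
      simp only [Bool.cond_eq_ite]
    · intro n
      obtain ⟨j, hj⟩ := (hc n (A n)).1 rfl
      obtain ⟨s, hs⟩ := (ef (pre B j, n, A n)).1 hj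
      refine ⟨Nat.pair j s, ?_⟩
      simp only [Nat.unpair_pair, take_pre B (Nat.left_le_pair j s)]
      cases hA : A n with
      | true => rw [hA] at hs; exact ⟨1, if_pos hs⟩
      | false =>
        rw [hA] at hs
        by_cases h1 : f (pre B j, n, true) s = true
        · exact ⟨1, if_pos h1⟩
        · exact ⟨0, by rw [if_neg h1, if_pos hs]⟩
    · intro n k x hx
      rw [take_pre B (Nat.unpair_left_le k)] at hx
      by_cases h1 : f (pre B k.unpair.1, n, true) k.unpair.2 = true
      · rw [if_pos h1] at hx
        have h2 : A n = true := (hc n true).2 ⟨_, (ef (_, _, _)).2 ⟨_, h1⟩⟩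
        rw [h2]
        exact (Option.some_inj.1 hx).symm
      · rw [if_neg h1] at hx
        by_cases h3 : f (pre B k.unpair.1, n, false) k.unpair.2 = true
        · rw [if_pos h3] at hx
          have h2 : A n = false := (hc n false).2 ⟨_, (ef (_, _, _)).2 ⟨_, h3⟩⟩
          rw [h2]
          exact (Option.some_inj.1 hx).symm
        · rw [if_neg h3] at hx
          cases hx

/-- There are only countably many good functionals. -/
theorem countable_good : {W : Fnl | Good W}.Countable := by
  have h1 : {p : List Bool × ℕ × Bool → Prop | REPred p}.Countable := re_countable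
  have h2 : Function.Injective (fun (W : Fnl) (x : List Bool × ℕ × Bool) => W x.1 x.2.1 x.2.2) := by
    intro W W' h
    funext σ n v
    exact congrFun h (σ, n, v)
  exact (h1.preimage h2).mono (fun W hW => hW.re)

/-! ### Basic reducibilities -/

theorem red_bool {A B C : Cantor} (h1 : Red A C) (h2 : Red B C) (F : ℕ → Bool → Bool → Bool)
    (hF : Computable fun x : ℕ × Bool × Bool => F x.1 x.2.1 x.2.2) {g h : ℕ → ℕ}
    (hg : Computable g) (hh : Computable h) : Red (fun n => F n (A (g n)) (B (h n))) C := by
  rw [red_iff_cin] at h1 h2 ⊢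
  have h5 : Computable Bool.toNat := (Primrec.dom_finite _).to_comp
  have hd : Computable fun x : ℕ => decide (x = 1) := by
    have : Primrec fun x : ℕ => decide (x = 1) :=
      (Primrec.eq.comp Primrec.id (Primrec.const 1)).decide
    exact this.to_comp
  have hu : Computable fun x : ℕ => (F x.unpair.1 (decide (x.unpair.2.unpair.1 = 1))
      (decide (x.unpair.2.unpair.2 = 1))).toNat := by
    have c1 : Computable fun x : ℕ => x.unpair.2.unpair :=
      Computable.unpair.comp (Computable.snd.comp Computable.unpair)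
    exact h5.comp (hF.comp ((Computable.fst.comp Computable.unpair).pair
      ((hd.comp (Computable.fst.comp c1)).pair (hd.comp (Computable.snd.comp c1)))))
  have h6 := (CIn.of_computable (O := {chi C}) hu).comp
    (CIn.pair (CIn.of_computable Computable.id)
      (CIn.pair (h1.comp (CIn.of_computable hg)) (h2.comp (CIn.of_computable hh))))
  refine Nat.RecursiveIn.of_eq h6 (fun n => ?_)
  simp only [Nat.unpair_pair, id]
  cases A (g n) <;> cases B (h n) <;> rfl

theorem red_comp {B : Cantor} {g : ℕ → ℕ} (hg : Computable g) : Red (fun n => B (g n)) B :=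
  red_bool (red_refl B) (red_refl B) (fun _ a _ => a) (Computable.fst.comp Computable.snd) hg hg

theorem red_join_left (A B : Cantor) : Red A (join A B) := by
  have h := red_comp (B := join A B) (g := fun n => 2 * n)
    (Primrec.nat_mul.comp (Primrec.const 2) Primrec.id).to_comp
  have e : (fun n => join A B (2 * n)) = A := ev_join A B
  rwa [e] at h

theorem red_join_right (A B : Cantor) : Red B (join A B) := by
  have h := red_comp (B := join A B) (g := fun n => 2 * n + 1)
    (Primrec.succ.comp (Primrec.nat_mul.comp (Primrec.const 2) Primrec.id)).to_comp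
  have e : (fun n => join A B (2 * n + 1)) = B := od_join A B
  rwa [e] at h

theorem computable_select (k : ℕ) : Computable fun x : ℕ × Bool × Bool =>
    (if x.1 % k = 0 then x.2.1 else x.2.2 : Bool) := by
  have h : Primrec fun x : ℕ × Bool × Bool => (if x.1 % k = 0 then x.2.1 else x.2.2 : Bool) :=
    Primrec.ite (Primrec.eq.comp (Primrec.nat_mod.comp Primrec.fst (Primrec.const k))
      (Primrec.const 0)) (Primrec.fst.comp Primrec.snd) (Primrec.snd.comp Primrec.snd)
  exact h.to_comp

theorem computable_div (k : ℕ) : Computable fun n : ℕ => n / k :=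
  (Primrec.nat_div.comp Primrec.id (Primrec.const k)).to_comp

theorem red_join {A B C : Cantor} (h1 : Red A C) (h2 : Red B C) : Red (join A B) C :=
  red_bool h1 h2 (fun n a b => if n % 2 = 0 then a else b) (computable_select 2)
    (computable_div 2) (computable_div 2)

theorem red_xor {A B C : Cantor} (h1 : Red A C) (h2 : Red B C) : Red (xorC A B) C :=
  red_bool h1 h2 (fun _ a b => xor a b)
    ((Primrec.dom_finite (fun x : Bool × Bool => xor x.1 x.2)).to_comp.comp Computable.snd)
    Computable.id Computable.id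

theorem red_and {A B C : Cantor} (h1 : Red A C) (h2 : Red B C) : Red (andC A B) C :=
  red_bool h1 h2 (fun _ a b => a && b)
    ((Primrec.dom_finite (fun x : Bool × Bool => x.1 && x.2)).to_comp.comp Computable.snd)
    Computable.id Computable.id

theorem red_J4 {a : Fin 4 → Cantor} {C : Cantor} (h : ∀ i, Red (a i) C) : Red (J4 a) C := by
  have e : J4 a = join (join (a 0) (a 2)) (join (a 1) (a 3)) := by
    funext n
    unfold J4 join
    obtain ⟨q, r, hr, rfl⟩ : ∃ q r, r < 4 ∧ n = 4 * q + r :=
      ⟨n / 4, n % 4, Nat.mod_lt _ (by norm_num), by omega⟩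
    interval_cases r
    · have e1 : (4 * q + 0) % 2 = 0 := by omega
      have e2 : (4 * q + 0) / 2 % 2 = 0 := by omega
      have e3 : (4 * q + 0) / 2 / 2 = (4 * q + 0) / 4 := by omega
      have e4 : (4 * q + 0) % 4 = 0 := by omega
      simp only [e1, e2, e3, e4, if_true]
      rfl
    · have e1 : (4 * q + 1) % 2 ≠ 0 := by omega
      have e2 : (4 * q + 1) / 2 % 2 = 0 := by omega
      have e3 : (4 * q + 1) / 2 / 2 = (4 * q + 1) / 4 := by omega
      have e4 : (4 * q + 1) % 4 = 1 := by omega
      simp only [if_neg e1, e2, e3, e4, if_true]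
      rfl
    · have e1 : (4 * q + 2) % 2 = 0 := by omega
      have e2 : (4 * q + 2) / 2 % 2 ≠ 0 := by omega
      have e3 : (4 * q + 2) / 2 / 2 = (4 * q + 2) / 4 := by omega
      have e4 : (4 * q + 2) % 4 = 2 := by omega
      simp only [e1, if_neg e2, e3, e4, if_true]
      rfl
    · have e1 : (4 * q + 3) % 2 ≠ 0 := by omega
      have e2 : (4 * q + 3) / 2 % 2 ≠ 0 := by omega
      have e3 : (4 * q + 3) / 2 / 2 = (4 * q + 3) / 4 := by omega
      have e4 : (4 * q + 3) % 4 = 3 := by omega
      simp only [if_neg e1, if_neg e2, e3, e4]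
      rfl
  rw [e]
  exact red_join (red_join (h 0) (h 2)) (red_join (h 1) (h 3))

theorem red_pr (i : Fin 4) (Z : Cantor) : Red (pr i Z) Z :=
  red_comp (Primrec.nat_add.comp (Primrec.nat_mul.comp (Primrec.const 4) Primrec.id)
    (Primrec.const (i : ℕ))).to_comp

theorem red_of_eventually_eq {A B : Cantor} (N : ℕ) (h : ∀ n, N ≤ n → A n = B n) : Red A B := by
  have hc : Computable fun x : ℕ × Bool × Bool =>
      (((List.range N).map A)[x.1]?).getD x.2.1 :=
    Computable.option_getD (Computable.list_getElem?.comp (Computable.const _) Computable.fst)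
      (Computable.fst.comp Computable.snd)
  have h1 := red_bool (red_refl B) (red_refl B)
    (fun n a _ => (((List.range N).map A)[n]?).getD a) hc Computable.id Computable.id
  have e : (fun n => (((List.range N).map A)[n]?).getD (B n)) = A := by
    funext n
    rw [List.getElem?_map]
    by_cases hn : n < N
    · rw [List.getElem?_range hn]; rfl
    · rw [List.getElem?_eq_none (by simpa using hn)]
      exact (h n (not_lt.1 hn)).symm
  rw [← e]
  exact h1

end Vale.Agent.P327
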