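import Vale.Agent.P327.Meas
import Vale.Agent.P327.Oracle
import Vale.Agent.P327.E0

/-! Bernoulli noise with a parameter of a given degree. -/

open MeasureTheory ProbabilityTheory
open scoped ENNReal

namespace Vale.Agent.P327

namespace Bern

theorem pp_exists_lt {α : Type*} [Primcodable α] {f : α → ℕ} (hf : Primrec f) {R : α → ℕ → Prop}
    (hR : PrimrecPred fun p : α × ℕ => R p.1 p.2) : PrimrecPred fun a => ∃ j < f a, R a j := by
  have h1 : PrimrecRel (fun (j : ℕ) (a : α) => R a j) :=
    hR.comp (Primrec.pair Primrec.snd Primrec.fst)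
  have h2 := PrimrecRel.exists_mem_list h1
  refine (h2.comp (Primrec.list_range.comp hf) Primrec.id).of_eq fun a => ?_
  simp

theorem pp_forall_lt {α : Type*} [Primcodable α] {f : α → ℕ} (hf : Primrec f) {R : α → ℕ → Prop}
    (hR : PrimrecPred fun p : α × ℕ => R p.1 p.2) : PrimrecPred fun a => ∀ j < f a, R a j := by
  have h1 : PrimrecRel (fun (j : ℕ) (a : α) => R a j) :=
    hR.comp (Primrec.pair Primrec.snd Primrec.fst)
  have h2 := PrimrecRel.forall_mem_list h1
  refine (h2.comp (Primrec.list_range.comp hf) Primrec.id).of_eq fun a => ?_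
  simp

/-- The binary expansion of the bias: `01` for `A k = false`, `10` for `A k = true`. -/
def bb (A : Cantor) (j : ℕ) : Bool := if j % 2 = 0 then A (j / 2) else !A (j / 2)

/-- Reading `bb A j` from an initial segment of `join A Q`. -/
def bs (σ : List Bool) (j : ℕ) : Bool :=
  if j % 2 = 0 then σ.getD (2 * (j / 2)) false else !(σ.getD (2 * (j / 2)) false)

def qs (σ : List Bool) (n i : ℕ) : Bool := σ.getD (2 * Nat.pair n i + 1) false

def W1 : Fnl := fun σ n v => ∃ j < σ.length, 2 * Nat.pair n j + 1 < σ.length ∧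
  (∀ i < j, qs σ n i = bs σ i) ∧ qs σ n j ≠ bs σ j ∧ bs σ j = v

theorem primrec_bs : Primrec₂ bs := by
  have h : Primrec fun p : List Bool × ℕ => p.1.getD (2 * (p.2 / 2)) false :=
    (Primrec.list_getD false).comp Primrec.fst
      (Primrec.nat_mul.comp (Primrec.const 2) (Primrec.nat_div.comp Primrec.snd (Primrec.const 2)))
  exact Primrec.ite (Primrec.eq.comp (Primrec.nat_mod.comp Primrec.snd (Primrec.const 2))
    (Primrec.const 0)) h (Primrec.not.comp h)

theorem primrec_qs : Primrec fun p : List Bool × ℕ × ℕ => qs p.1 p.2.1 p.2.2 := by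
  refine (Primrec.list_getD false).comp Primrec.fst ?_
  exact Primrec.nat_add.comp (Primrec.nat_mul.comp (Primrec.const 2)
    (Primrec₂.natPair.comp (Primrec.fst.comp Primrec.snd) (Primrec.snd.comp Primrec.snd)))
    (Primrec.const 1)

theorem W1_pp : PrimrecPred fun x : List Bool × ℕ × Bool => W1 x.1 x.2.1 x.2.2 := by
  refine pp_exists_lt (Primrec.list_length.comp Primrec.fst) ?_
  -- context : (List Bool × ℕ × Bool) × ℕ
  have hσ : Primrec fun p : (List Bool × ℕ × Bool) × ℕ => p.1.1 := Primrec.fst.comp Primrec.fst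
  have hn : Primrec fun p : (List Bool × ℕ × Bool) × ℕ => p.1.2.1 :=
    Primrec.fst.comp (Primrec.snd.comp Primrec.fst)
  have hv : Primrec fun p : (List Bool × ℕ × Bool) × ℕ => p.1.2.2 :=
    Primrec.snd.comp (Primrec.snd.comp Primrec.fst)
  have hj : Primrec fun p : (List Bool × ℕ × Bool) × ℕ => p.2 := Primrec.snd
  refine PrimrecPred.and ?_ (PrimrecPred.and ?_ (PrimrecPred.and ?_ ?_))
  · exact Primrec.nat_lt.comp (Primrec.nat_add.comp (Primrec.nat_mul.comp (Primrec.const 2)
      (Primrec₂.natPair.comp hn hj)) (Primrec.const 1)) (Primrec.list_length.comp hσ)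
  · refine pp_forall_lt hj ?_
    exact Primrec.eq.comp
      (primrec_qs.comp (Primrec.pair (hσ.comp Primrec.fst)
        (Primrec.pair (hn.comp Primrec.fst) Primrec.snd)))
      (primrec_bs.comp (hσ.comp Primrec.fst) Primrec.snd)
  · exact PrimrecPred.not (Primrec.eq.comp (primrec_qs.comp (Primrec.pair hσ (Primrec.pair hn hj)))
      (primrec_bs.comp hσ hj))
  · exact Primrec.eq.comp (primrec_bs.comp hσ hj) hv

theorem getD_prefix {σ τ : List Bool} (h : σ <+: τ) {i : ℕ} (hi : i < σ.length) :
    τ.getD i false = σ.getD i false := by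
  obtain ⟨t, rfl⟩ := h
  simp [List.getD, List.getElem?_append_left hi]

theorem W1_good : Good W1 := by
  refine ⟨(W1_pp.computablePred).to_re, ?_⟩
  rintro σ τ n v h ⟨j, hj, h1, h2, h3, h4⟩
  have hpj : ∀ i ≤ j, Nat.pair n i ≤ Nat.pair n j := fun i hi => by
    rcases hi.lt_or_eq with h | rfl
    · exact (Nat.pair_lt_pair_right n h).le
    · exact le_rfl
  have hq : ∀ i ≤ j, qs τ n i = qs σ n i := fun i hi => by
    have := hpj i hi
    exact getD_prefix h (by omega)
  have hb : ∀ i ≤ j, bs τ i = bs σ i := fun i hi => by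
    have h5 : 2 * (i / 2) < σ.length := by omega
    simp only [bs, getD_prefix h h5]
  refine ⟨j, lt_of_lt_of_le hj h.length_le, lt_of_lt_of_le h1 h.length_le, fun i hi => ?_, ?_, ?_⟩
  · rw [hq i hi.le, hb i hi.le]; exact h2 i hi
  · rw [hq j le_rfl, hb j le_rfl]; exact h3
  · rw [hb j le_rfl]; exact h4

open Classical in
/-- The Bernoulli sequence. -/
noncomputable def X (A Q : Cantor) (n : ℕ) : Bool :=
  if h : ∃ j, Q (Nat.pair n j) ≠ bb A j then bb A (Nat.find h) else false

theorem bs_pre (A Q : Cantor) (L i : ℕ) (h : i < L) : bs (pre (join A Q) L) i = bb A i := by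
  have h1 : 2 * (i / 2) < L := by omega
  simp only [bs, bb, pre_getD _ _ _ h1]
  have h2 : join A Q (2 * (i / 2)) = A (i / 2) := by
    have := congrFun (ev_join A Q) (i / 2)
    exact this
  rw [h2]

theorem qs_pre (A Q : Cantor) (L n i : ℕ) (h : 2 * Nat.pair n i + 1 < L) :
    qs (pre (join A Q) L) n i = Q (Nat.pair n i) := by
  simp only [qs, pre_getD _ _ _ h]
  exact congrFun (od_join A Q) (Nat.pair n i)

theorem computes_W1 (A Q : Cantor) (hQ : ∀ n, ∃ j, Q (Nat.pair n j) ≠ bb A j) :
    Computes W1 (join A Q) (X A Q) := by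
  classical
  intro n v
  have hX : X A Q n = bb A (Nat.find (hQ n)) := by rw [X, dif_pos (hQ n)]
  rw [hX]
  have hmono : ∀ j i, i ≤ j → Nat.pair n i ≤ Nat.pair n j := fun j i hi => by
    rcases hi.lt_or_eq with h | rfl
    · exact (Nat.pair_lt_pair_right n h).le
    · exact le_rfl
  constructor
  · intro h
    set j := Nat.find (hQ n) with hj
    refine ⟨2 * Nat.pair n j + 2, j, ?_, ?_, ?_, ?_, ?_⟩
    · have := Nat.right_le_pair n j
      simp; omega
    · simp
    · intro i hi
      have := hmono j i hi.le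
      have h2 := Nat.right_le_pair n i
      rw [qs_pre _ _ _ _ _ (by omega), bs_pre _ _ _ _ (by omega)]
      have := Nat.find_min (hQ n) (hj ▸ hi)
      simpa using this
    · have h2 := Nat.right_le_pair n j
      rw [qs_pre _ _ _ _ _ (by omega), bs_pre _ _ _ _ (by omega)]
      exact Nat.find_spec (hQ n)
    · have h2 := Nat.right_le_pair n j
      rw [bs_pre _ _ _ _ (by omega)]
      exact h
  · rintro ⟨L, j, h1, h2, h3, h4, h5⟩
    simp only [pre_length] at h1 h2
    have hfind : Nat.find (hQ n) = j := by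
      rw [Nat.find_eq_iff]
      rw [qs_pre _ _ _ _ _ h2, bs_pre _ _ _ _ h1] at h4
      refine ⟨h4, fun i hi => ?_⟩
      have h6 := h3 i hi
      have := hmono j i hi.le
      rw [qs_pre _ _ _ _ _ (by omega), bs_pre _ _ _ _ (by omega)] at h6
      simpa using h6
    rw [hfind, ← bs_pre A Q L j h1]
    exact h5

/-- Decoding functional. -/
def W2 : Fnl := fun σ k v => 2 ^ (5 * k + 10) ≤ σ.length ∧
  decide ((((σ.take (2 ^ (5 * k + 10))).filter (· = true)).length / 2 ^ (3 * k + 8)) % 4 = 2) = v

theorem primrec_pow : Primrec₂ ((· ^ ·) : ℕ → ℕ → ℕ) :=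
  Primrec₂.unpaired'.1 Nat.Primrec.pow

theorem W2_pp : PrimrecPred fun x : List Bool × ℕ × Bool => W2 x.1 x.2.1 x.2.2 := by
  have hσ : Primrec fun p : List Bool × ℕ × Bool => p.1 := Primrec.fst
  have hk : Primrec fun p : List Bool × ℕ × Bool => p.2.1 := Primrec.fst.comp Primrec.snd
  have hv : Primrec fun p : List Bool × ℕ × Bool => p.2.2 := Primrec.snd.comp Primrec.snd
  have hN : Primrec fun p : List Bool × ℕ × Bool => 2 ^ (5 * p.2.1 + 10) :=
    primrec_pow.comp (Primrec.const 2) (Primrec.nat_add.comp (Primrec.nat_mul.comp (Primrec.const 5) hk)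
      (Primrec.const 10))
  have hM : Primrec fun p : List Bool × ℕ × Bool => 2 ^ (3 * p.2.1 + 8) :=
    primrec_pow.comp (Primrec.const 2) (Primrec.nat_add.comp (Primrec.nat_mul.comp (Primrec.const 3) hk)
      (Primrec.const 8))
  refine PrimrecPred.and (Primrec.nat_le.comp hN (Primrec.list_length.comp hσ)) ?_
  refine Primrec.eq.comp ?_ hv
  have hc : Primrec fun p : List Bool × ℕ × Bool =>
      ((p.1.take (2 ^ (5 * p.2.1 + 10))).filter (· = true)).length := by
    refine Primrec.list_length.comp ?_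
    exact (Primrec.listFilter (p := fun b : Bool => b = true)
      (Primrec.eq.comp Primrec.id (Primrec.const true))).comp (Primrec.list_take.comp hN hσ)
  exact (Primrec.eq.comp (Primrec.nat_mod.comp (Primrec.nat_div.comp hc hM) (Primrec.const 4))
    (Primrec.const 2)).decide

theorem W2_good : Good W2 := by
  refine ⟨W2_pp.computablePred.to_re, ?_⟩
  rintro σ τ k v h ⟨h1, h2⟩
  refine ⟨h1.trans h.length_le, ?_⟩
  rw [← h2]
  obtain ⟨t, rfl⟩ := h
  rw [List.take_append_of_le_length h1]

/-- number of ones among the first `N` terms -/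
def ones (Y : Cantor) (N : ℕ) : ℕ := ((Finset.range N).filter fun m => Y m = true).card

/-- decoded set -/
def dec (Y : Cantor) : Cantor := fun k =>
  decide ((ones Y (2 ^ (5 * k + 10)) / 2 ^ (3 * k + 8)) % 4 = 2)

theorem filter_pre (Y : Cantor) (N : ℕ) : ((pre Y N).filter (· = true)).length = ones Y N := by
  unfold pre ones
  rw [List.filter_map, List.length_map]
  change _ = Multiset.card ((Multiset.range N).filter fun m => Y m = true)
  rw [Multiset.range, Multiset.filter_coe, Multiset.coe_card]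
  rfl

theorem computes_W2 (Y : Cantor) : Computes W2 Y (dec Y) := by
  intro k v
  constructor
  · intro h
    refine ⟨2 ^ (5 * k + 10), by simp, ?_⟩
    rw [pre_take _ le_rfl, filter_pre]
    exact h
  · rintro ⟨L, h1, h2⟩
    rw [pre_length] at h1
    rw [pre_take _ h1, filter_pre] at h2
    exact h2

def col (n : ℕ) (Q : Cantor) : Cantor := fun j => Q (Nat.pair n j)

open Classical in
noncomputable def gg (A C : Cantor) : Bool :=
  if h : ∃ j, C j ≠ bb A j then bb A (Nat.find h) else false

theorem X_eq (A Q : Cantor) (n : ℕ) : X A Q n = gg A (col n Q) := rfl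

def S (A : Cantor) (j : ℕ) : Set Cantor :=
  {C | ((∀ i < j, C i = bb A i) ∧ C j ≠ bb A j) ∧ bb A j = true}

theorem gg_iff (A C : Cantor) : gg A C = true ↔ ∃ j, C ∈ S A j := by
  classical
  unfold gg S
  constructor
  · intro h
    split_ifs at h with h1
    · refine ⟨Nat.find h1, ⟨fun i hi => ?_, Nat.find_spec h1⟩, h⟩
      simpa using Nat.find_min h1 hi
  · rintro ⟨j, ⟨h1, h2⟩, h3⟩
    have h4 : ∃ j, C j ≠ bb A j := ⟨j, h2⟩
    rw [dif_pos h4]
    have : Nat.find h4 = j := by
      rw [Nat.find_eq_iff]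
      exact ⟨h2, fun i hi => by simpa using h1 i hi⟩
    rw [this, h3]

theorem S_eq (A : Cantor) (j : ℕ) (h : bb A j = true) :
    S A j = {C | E0.hd (j + 1) C = fun i : Fin (j + 1) => if (i : ℕ) < j then bb A i else !bb A i} := by
  ext C
  simp only [S, h, and_true, Set.mem_ofPred_eq]
  constructor
  · rintro ⟨h1, h2⟩
    funext i
    simp only [E0.hd]
    split_ifs with hi
    · exact h1 i hi
    · have : (i : ℕ) = j := by omega
      rw [this, h]
      exact Bool.eq_not.2 h2
  · intro h1
    refine ⟨fun i hi => ?_, ?_⟩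
    · have := congrFun h1 ⟨i, by omega⟩
      simpa [E0.hd, hi] using this
    · have := congrFun h1 ⟨j, by omega⟩
      simp only [E0.hd, lt_irrefl, if_false, h] at this
      exact Bool.eq_not.1 this

theorem S_meas (A : Cantor) (j : ℕ) :
    fairCoin (S A j) = ENNReal.ofReal (if bb A j = true then (1 / 2) ^ (j + 1) else 0) := by
  split_ifs with h
  · rw [S_eq A j h, E0.cyl_meas, ENNReal.ofReal_pow (by norm_num), one_div,
      ENNReal.ofReal_inv_of_pos two_pos, ENNReal.inv_pow]
    simp
  · have : S A j = ∅ := by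
      ext C; simp [S, h]
    rw [this]; simp

theorem measurableSet_S (A : Cantor) (j : ℕ) : MeasurableSet (S A j) := by
  by_cases h : bb A j = true
  · rw [S_eq A j h]; exact E0.measurableSet_cyl _ _
  · have : S A j = ∅ := by
      ext C; simp [S, h]
    rw [this]; exact MeasurableSet.empty

theorem set_gg (A : Cantor) : {C | gg A C = true} = ⋃ j, S A j := by
  ext C; simp [gg_iff]

theorem measurable_gg (A : Cantor) : Measurable (gg A) := by
  apply measurable_to_bool
  have : gg A ⁻¹' {true} = ⋃ j, S A j := by rw [← set_gg]; rfl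
  rw [this]
  exact MeasurableSet.iUnion fun j => measurableSet_S A j

/-- the bias -/
noncomputable def bias (A : Cantor) : ℝ := fairCoin.real {C | gg A C = true}

theorem summable_bias (A : Cantor) :
    Summable fun j => if bb A j = true then ((1 / 2 : ℝ)) ^ (j + 1) else 0 := by
  have h : Summable fun j : ℕ => ((1 / 2 : ℝ)) ^ (j + 1) := by
    have := (summable_geometric_of_lt_one (r := (1/2 : ℝ)) (by norm_num) (by norm_num))
    exact (summable_nat_add_iff 1).2 this
  refine Summable.of_nonneg_of_le (fun j => ?_) (fun j => ?_) h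
  · split_ifs <;> positivity
  · split_ifs
    · exact le_rfl
    · positivity

theorem bias_eq (A : Cantor) :
    bias A = ∑' j, if bb A j = true then ((1 / 2 : ℝ)) ^ (j + 1) else 0 := by
  unfold bias
  rw [set_gg, measureReal_def, measure_iUnion]
  · simp only [S_meas]
    rw [← ENNReal.ofReal_tsum_of_nonneg (fun j => by split_ifs <;> positivity) (summable_bias A),
      ENNReal.toReal_ofReal (tsum_nonneg fun j => by split_ifs <;> positivity)]
  · intro i j hij
    rw [Function.onFun, Set.disjoint_left]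
    rintro C ⟨⟨h1, h2⟩, -⟩ ⟨⟨h3, h4⟩, -⟩
    rcases lt_or_gt_of_ne hij with h | h
    · exact h2 (h3 i h)
    · exact h4 (h1 j h)
  · exact fun j => measurableSet_S A j

theorem bias_rec (A : Cantor) :
    bias A = ((if A 0 = true then 2 else 1) + bias (fun k => A (k + 1))) / 4 := by
  rw [bias_eq, bias_eq, ← (summable_bias A).sum_add_tsum_nat_add 2]
  have h1 : ∀ j, bb A (j + 2) = bb (fun k => A (k + 1)) j := by
    intro j
    unfold bb
    have e1 : (j + 2) % 2 = j % 2 := by omega
    have e2 : (j + 2) / 2 = j / 2 + 1 := by omega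
    rw [e1, e2]
  have h2 : (∑' j, if bb A (j + 2) = true then ((1 / 2 : ℝ)) ^ (j + 2 + 1) else 0) =
      (∑' j, if bb (fun k => A (k + 1)) j = true then ((1 / 2 : ℝ)) ^ (j + 1) else 0) * (1 / 4) := by
    rw [← tsum_mul_right]
    congr 1
    funext j
    rw [h1]
    split_ifs
    · ring
    · simp
  rw [h2, Finset.sum_range_succ, Finset.sum_range_one]
  have e0 : bb A 0 = A 0 := by simp [bb]
  have e1 : bb A 1 = !A 0 := by simp [bb]
  rw [e0, e1]
  cases A 0 <;> simp <;> ring

theorem bias_mem (A : Cantor) : 0 ≤ bias A ∧ bias A ≤ 1 :=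
  ⟨measureReal_nonneg, measureReal_le_one⟩

theorem digits (k : ℕ) : ∀ A : Cantor, ∃ H : ℕ, H % 4 = (if A k = true then 2 else 1) ∧
    (H : ℝ) + 1 / 4 ≤ 4 ^ (k + 1) * bias A ∧ 4 ^ (k + 1) * bias A ≤ (H : ℝ) + 3 / 4 := by
  have hb : ∀ A : Cantor, 1 / 4 ≤ bias A ∧ bias A ≤ 3 / 4 := by
    intro A
    have h1 := bias_mem (fun k => A (k + 1))
    rw [bias_rec A]
    constructor
    · split_ifs <;> linarith
    · split_ifs <;> linarith
  induction k with
  | zero =>
    intro A
    refine ⟨if A 0 = true then 2 else 1, by split_ifs <;> rfl, ?_, ?_⟩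
    · have := hb (fun k => A (k + 1))
      rw [bias_rec A]
      split_ifs <;> push_cast <;> linarith
    · have := hb (fun k => A (k + 1))
      rw [bias_rec A]
      split_ifs <;> push_cast <;> linarith
  | succ k ih =>
    intro A
    obtain ⟨H, h1, h2, h3⟩ := ih (fun k => A (k + 1))
    refine ⟨4 ^ (k + 1) * (if A 0 = true then 2 else 1) + H, ?_, ?_, ?_⟩
    · rw [← h1]
      have e : 4 ^ (k + 1) * (if A 0 = true then 2 else 1) + H =
          4 * (4 ^ k * (if A 0 = true then 2 else 1)) + H := by ring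
      rw [e]
      omega
    · rw [bias_rec A]
      push_cast
      have e : (4:ℝ) ^ (k + 1 + 1) * (((if A 0 = true then 2 else 1) + bias fun k => A (k + 1)) / 4) =
        4 ^ (k + 1) * (if A 0 = true then 2 else 1) + 4 ^ (k + 1) * bias fun k => A (k + 1) := by
        ring
      rw [e]
      have : ((if A 0 = true then (2:ℕ) else 1 : ℕ) : ℝ) = (if A 0 = true then (2:ℝ) else 1) := by
        split_ifs <;> simp
      split_ifs <;> linarith
    · rw [bias_rec A]
      push_cast
      have e : (4:ℝ) ^ (k + 1 + 1) * (((if A 0 = true then 2 else 1) + bias fun k => A (k + 1)) / 4) =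
        4 ^ (k + 1) * (if A 0 = true then 2 else 1) + 4 ^ (k + 1) * bias fun k => A (k + 1) := by
        ring
      rw [e]
      split_ifs <;> linarith

/-- If the count is close to its expectation then the decoding is correct. -/
theorem decode_ok (A : Cantor) (k c : ℕ)
    (h : |(c : ℝ) - 2 ^ (5 * k + 10) * bias A| < 2 ^ (3 * k + 6)) :
    decide ((c / 2 ^ (3 * k + 8)) % 4 = 2) = A k := by
  obtain ⟨H, h1, h2, h3⟩ := digits k A
  have e : (2:ℝ) ^ (5 * k + 10) = 2 ^ (3 * k + 8) * 4 ^ (k + 1) := by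
    have : (4:ℝ) = 2 ^ 2 := by norm_num
    rw [this, ← pow_mul, ← pow_add]; congr 1; ring
  have e2 : (2:ℝ) ^ (3 * k + 8) = 4 * 2 ^ (3 * k + 6) := by
    rw [show 3 * k + 8 = (3 * k + 6) + 2 by ring, pow_add]; ring
  have hp : (0:ℝ) < 2 ^ (3 * k + 6) := by positivity
  rw [e, mul_assoc] at h
  rw [abs_lt] at h
  set t := 4 ^ (k + 1) * bias A with ht
  have hlo : (2:ℝ) ^ (3 * k + 8) * H ≤ c := by
    rw [e2] at h ⊢
    nlinarith
  have hhi : (c:ℝ) < 2 ^ (3 * k + 8) * (H + 1) := by
    rw [e2] at h ⊢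
    nlinarith
  have hdiv : c / 2 ^ (3 * k + 8) = H := by
    rw [Nat.div_eq_iff (by positivity)]
    constructor
    · have : 2 ^ (3 * k + 8) * H ≤ c := by exact_mod_cast hlo
      linarith
    · have : c < 2 ^ (3 * k + 8) * (H + 1) := by exact_mod_cast hhi
      have h5 : 0 < 2 ^ (3 * k + 8) := by positivity
      rw [mul_comm H]
      have h6 : 2 ^ (3 * k + 8) * (H + 1) = 2 ^ (3 * k + 8) * H + 2 ^ (3 * k + 8) := by ring
      omega
  rw [hdiv, h1]
  cases A k <;> simp


theorem law_cols : fairCoin.map (fun Q n => col n Q) = Measure.infinitePi fun _ : ℕ => fairCoin := by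
  have hinj : Function.Injective (fun p : ℕ × ℕ => Nat.pair p.1 p.2) := by
    rintro ⟨a, b⟩ ⟨c, d⟩ h
    simpa using h
  have h1 := Measure.map_infinitePi_infinitePi_of_inj
    (P := fun _ : ℕ => (PMF.uniformOfFintype Bool).toMeasure) hinj
  have h2 := Measure.infinitePi_map_curry (ι := ℕ) (κ := ℕ) (X := Bool)
    (fun _ _ => (PMF.uniformOfFintype Bool).toMeasure)
  rw [← h1, Measure.map_map (by fun_prop) (by fun_prop)] at h2
  exact h2

theorem measurable_col (n : ℕ) : Measurable (col n) := by
  apply measurable_pi_lambda; intro j; exact measurable_pi_apply _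

theorem mp_col (n : ℕ) : MeasurePreserving (col n) fairCoin fairCoin := by
  refine ⟨measurable_col n, ?_⟩
  have hinj : Function.Injective (fun j : ℕ => Nat.pair n j) := fun a b h => by simpa using h
  exact Measure.map_infinitePi_infinitePi_of_inj
    (P := fun _ : ℕ => (PMF.uniformOfFintype Bool).toMeasure) hinj

theorem indep_cols : iIndepFun (fun n Q => col n Q) fairCoin := by
  rw [iIndepFun_iff_map_fun_eq_infinitePi_map measurable_col, law_cols]
  congr 1
  funext n
  exact (mp_col n).map_eq.symm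

/-- indicator of `gg A` as a real function -/
noncomputable def GG (A C : Cantor) : ℝ := if gg A C = true then 1 else 0

theorem measurable_GG (A : Cantor) : Measurable (GG A) :=
  Measurable.ite (by rw [set_gg]; exact MeasurableSet.iUnion fun j => measurableSet_S A j)
    measurable_const measurable_const

theorem GG_mem (A C : Cantor) : GG A C ∈ Set.Icc (0:ℝ) 1 := by
  unfold GG; split_ifs <;> simp

theorem integral_GG (A : Cantor) (n : ℕ) : ∫ Q, GG A (col n Q) ∂fairCoin = bias A := by
  rw [← integral_map (f := GG A) (measurable_col n).aemeasurable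
    (measurable_GG A).aestronglyMeasurable, (mp_col n).map_eq]
  have h : GG A = Set.indicator {C | gg A C = true} (1 : Cantor → ℝ) := by
    funext C
    simp only [GG, Set.indicator, Set.mem_ofPred_eq, Pi.one_apply]
  have hm : MeasurableSet {C | gg A C = true} := by
    rw [set_gg]; exact MeasurableSet.iUnion fun j => measurableSet_S A j
  rw [h, integral_indicator_one hm]
  rfl

theorem memLp_GG (A : Cantor) (n : ℕ) : MemLp (fun Q => GG A (col n Q)) 2 fairCoin := by
  refine MemLp.of_bound ((measurable_GG A).comp (measurable_col n)).aestronglyMeasurable 1 ?_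
  refine Filter.Eventually.of_forall fun Q => ?_
  have := GG_mem A (col n Q)
  rw [Real.norm_eq_abs, abs_of_nonneg this.1]; exact this.2

theorem variance_GG (A : Cantor) (n : ℕ) : variance (fun Q => GG A (col n Q)) fairCoin ≤ 1 / 4 := by
  have := variance_le_sq_of_bounded (μ := fairCoin) (a := 0) (b := 1)
    (X := fun Q => GG A (col n Q)) (Filter.Eventually.of_forall fun Q => GG_mem A (col n Q))
    ((measurable_GG A).comp (measurable_col n)).aemeasurable
  refine this.trans ?_
  norm_num

theorem ones_eq (A Q : Cantor) (i : ℕ → ℕ) (N : ℕ) :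
    (ones (fun m => X A Q (i m)) N : ℝ) = (∑ m ∈ Finset.range N, fun Q => GG A (col (i m) Q)) Q := by
  rw [Finset.sum_apply]
  unfold ones GG
  simp only [X_eq]
  rw [Finset.sum_boole]
  congr 2

theorem cheb (A : Cantor) (i : ℕ → ℕ) (hi : Function.Injective i) (k : ℕ) :
    fairCoin {Q | (2:ℝ) ^ (3 * k + 6) ≤
      |(ones (fun m => X A Q (i m)) (2 ^ (5 * k + 10)) : ℝ) - 2 ^ (5 * k + 10) * bias A|} ≤
      ENNReal.ofReal ((1 / 2) ^ k) := by
  set N := 2 ^ (5 * k + 10) with hN
  set Z : Cantor → ℝ := ∑ m ∈ Finset.range N, fun Q => GG A (col (i m) Q) with hZ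
  have hmem : MemLp Z 2 fairCoin := memLp_finsetSum' _ fun m _ => memLp_GG A (i m)
  have hE : ∫ Q, Z Q ∂fairCoin = 2 ^ (5 * k + 10) * bias A := by
    simp only [hZ, Finset.sum_apply]
    rw [integral_finsetSum _ fun m _ => (memLp_GG A (i m)).integrable (by norm_num)]
    simp only [integral_GG, Finset.sum_const, Finset.card_range, nsmul_eq_mul, hN]
    push_cast
    rfl
  have hV : variance Z fairCoin ≤ 2 ^ (5 * k + 10) * (1 / 4) := by
    rw [hZ, IndepFun.variance_sum (fun m _ => memLp_GG A (i m))]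
    · refine (Finset.sum_le_sum fun m _ => variance_GG A (i m)).trans ?_
      simp [hN]
    · intro m _ m' _ hne
      have h1 := indep_cols.indepFun (hi.ne hne)
      exact h1.comp (measurable_GG A) (measurable_GG A)
  have hc : (0:ℝ) < 2 ^ (3 * k + 6) := by positivity
  have hch := meas_ge_le_variance_div_sq hmem hc
  rw [hE] at hch
  have hset : {Q | (2:ℝ) ^ (3 * k + 6) ≤
      |(ones (fun m => X A Q (i m)) N : ℝ) - 2 ^ (5 * k + 10) * bias A|} =
      {Q | (2:ℝ) ^ (3 * k + 6) ≤ |Z Q - 2 ^ (5 * k + 10) * bias A|} := by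
    ext Q; simp only [ones_eq, hZ]
  rw [hset]
  refine hch.trans (ENNReal.ofReal_le_ofReal ?_)
  rw [div_le_iff₀ (by positivity)]
  refine hV.trans ?_
  have e : ((1:ℝ) / 2) ^ k * (2 ^ (3 * k + 6)) ^ 2 = 2 ^ (5 * k + 12) := by
    rw [← pow_mul, one_div, inv_pow, show (3 * k + 6) * 2 = k + (5 * k + 12) by ring, pow_add,
      ← mul_assoc, inv_mul_cancel₀ (by positivity), one_mul]
  rw [e, show 5 * k + 12 = (5 * k + 10) + 2 by ring, pow_add (2:ℝ) (5 * k + 10) 2]
  have : (0:ℝ) < 2 ^ (5 * k + 10) := by positivity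
  nlinarith

theorem ae_decode (A : Cantor) (i : ℕ → ℕ) (hi : Function.Injective i) :
    ∀ᵐ Q ∂fairCoin, ∃ K, ∀ k, K ≤ k → A k = dec (fun m => X A Q (i m)) k := by
  have hs : ∑' k, fairCoin {Q | (2:ℝ) ^ (3 * k + 6) ≤
      |(ones (fun m => X A Q (i m)) (2 ^ (5 * k + 10)) : ℝ) - 2 ^ (5 * k + 10) * bias A|} ≠ ∞ := by
    refine ne_top_of_le_ne_top ?_ (ENNReal.tsum_le_tsum fun k => cheb A i hi k)
    rw [← ENNReal.ofReal_tsum_of_nonneg (fun k => by positivity)
      (summable_geometric_of_lt_one (by norm_num) (by norm_num))]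
    exact ENNReal.ofReal_ne_top
  filter_upwards [ae_eventually_notMem hs] with Q hQ
  obtain ⟨K, hK⟩ := Filter.eventually_atTop.1 hQ
  refine ⟨K, fun k hk => ?_⟩
  have := hK k hk
  simp only [not_le] at this
  exact (decode_ok A k _ this).symm

theorem ae_hits (A : Cantor) : ∀ᵐ Q ∂fairCoin, ∀ n, ∃ j, Q (Nat.pair n j) ≠ bb A j := by
  rw [ae_all_iff]
  intro n
  have h0 : fairCoin {C : Cantor | ∀ j, C j = bb A j} = 0 := by
    have h1 : ∀ m, fairCoin {C : Cantor | ∀ j, C j = bb A j} ≤ (2⁻¹ : ℝ≥0∞) ^ m := by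
      intro m
      rw [← ENNReal.inv_pow, ← E0.cyl_meas m (fun i => bb A i)]
      refine measure_mono fun C hC => ?_
      funext i
      exact hC i
    have h2 : Filter.Tendsto (fun m : ℕ => (2⁻¹ : ℝ≥0∞) ^ m) Filter.atTop (nhds 0) :=
      ENNReal.tendsto_pow_atTop_nhds_zero_of_lt_one ENNReal.one_half_lt_one
    exact le_antisymm (ge_of_tendsto' h2 h1) bot_le
  have h3 : ∀ᵐ C ∂fairCoin, ∃ j, C j ≠ bb A j := by
    rw [ae_iff]
    convert h0 using 2
    ext C
    simp
  exact (mp_col n).quasiMeasurePreserving.ae h3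

end Bern

/-- For every `A` there is a random set `X(Q)` (independent coin tosses with bias `p_A`),
computable from `A` and the random oracle `Q`, such that `A` can be recovered from almost every
`X(Q)` read along any injective sequence of positions. -/
theorem bern (A : Cantor) : ∃ X : Cantor → Cantor, Measurable X ∧
    (∀ᵐ Q ∂fairCoin, Red (X Q) (join A Q)) ∧
    ∀ i : ℕ → ℕ, Function.Injective i → ∀ᵐ Q ∂fairCoin, Red A (fun m => X Q (i m)) := by
  refine ⟨fun Q n => Bern.X A Q n, ?_, ?_, ?_⟩
  · apply measurable_pi_lambda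
    intro n
    exact (Bern.measurable_gg A).comp (Bern.measurable_col n)
  · filter_upwards [Bern.ae_hits A] with Q hQ
    exact (red_iff _ _).2 ⟨Bern.W1, Bern.W1_good, Bern.computes_W1 A Q hQ⟩
  · intro i hi
    filter_upwards [Bern.ae_decode A i hi] with Q hQ
    obtain ⟨K, hK⟩ := hQ
    refine red_trans (red_of_eventually_eq K hK) ?_
    exact (red_iff _ _).2 ⟨Bern.W2, Bern.W2_good, Bern.computes_W2 _⟩

end Vale.Agent.P327
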