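import Vale.Agent.P327.PutDensity
import Vale.Agent.P327.Meas

/-! Measure theory for the Borel version: clopen approximation, pieces of nonsingular maps. -/

open MeasureTheory Measure
open scoped ENNReal

namespace Vale.Agent.P327

/-- Measurable sets are approximated by clopen sets. -/
theorem approx_clopen (ν : Measure Cantor) [IsFiniteMeasure ν] (E : Set Cantor)
    (hE : MeasurableSet E) (ε : ℝ) (hε : 0 < ε) :
    ∃ (L : ℕ) (D : List (List Bool)), ν.real {Z | ¬ (pre Z L ∈ D ↔ Z ∈ E)} ≤ ε := by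
  classical
  obtain ⟨K, hKE, hK, hKc, hdiff⟩ := hE.exists_isCompact_isClosed_sdiff_lt (measure_ne_top ν E)
    (show ENNReal.ofReal (ε / 2) ≠ 0 by simpa using hε)
  let KN : ℕ → Set Cantor := fun n => {Z | ∃ Z' ∈ K, pre Z n = pre Z' n}
  have hKNm : ∀ n, MeasurableSet (KN n) := fun n => measurableSet_pre n
    (fun σ => ∃ Z' ∈ K, σ = pre Z' n)
  have hanti : Antitone KN := by
    intro m n hmn Z
    rintro ⟨Z', h1, h2⟩
    refine ⟨Z', h1, ?_⟩
    rw [pre_eq_iff] at h2 ⊢
    exact fun k hk => h2 k (lt_of_lt_of_le hk hmn)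
  have hinter : ⋂ n, KN n = K := by
    apply Set.Subset.antisymm
    · intro Z hZ
      rw [Set.mem_iInter] at hZ
      by_contra hcon
      have ho := (PiNat.isTopologicalBasis_cylinders (fun _ : ℕ => Bool)).exists_subset_of_mem_open
        (show Z ∈ Kᶜ from hcon) hKc.isOpen_compl
      obtain ⟨v, ⟨x, n, rfl⟩, hv, hvt⟩ := ho
      obtain ⟨Z', h1, h2⟩ := hZ n
      rw [pre_eq_iff] at h2
      refine hvt ?_ h1
      rw [PiNat.mem_cylinder_iff] at hv ⊢
      intro i hi
      rw [← h2 i hi, hv i hi]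
    · intro Z hZ
      rw [Set.mem_iInter]
      exact fun n => ⟨Z, hZ, rfl⟩
  have htend : Filter.Tendsto (fun n => ν.real (KN n)) Filter.atTop (nhds (ν.real K)) := by
    have h1 := tendsto_measure_iInter_atTop (μ := ν) (s := KN)
      (fun n => (hKNm n).nullMeasurableSet) hanti ⟨0, measure_ne_top _ _⟩
    rw [hinter] at h1
    exact (ENNReal.tendsto_toReal (measure_ne_top _ _)).comp h1
  obtain ⟨n, hn⟩ := (htend.eventually (gt_mem_nhds
    (show ν.real K < ν.real K + ε / 2 by linarith))).exists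
  refine ⟨n, (allStr n).filter fun σ => decide (∃ Z' ∈ K, σ = pre Z' n), ?_⟩
  have hD : ∀ Z : Cantor, pre Z n ∈ ((allStr n).filter fun σ =>
      decide (∃ Z' ∈ K, σ = pre Z' n)) ↔ Z ∈ KN n := by
    intro Z
    rw [List.mem_filter, mem_allStr]
    simp only [pre_length, true_and, decide_eq_true_eq]
    rfl
  have hsub : {Z | ¬ (pre Z n ∈ ((allStr n).filter fun σ =>
      decide (∃ Z' ∈ K, σ = pre Z' n)) ↔ Z ∈ E)} ⊆ (KN n \ K) ∪ (E \ K) := by
    intro Z hZ
    simp only [Set.mem_ofPred_eq, hD] at hZ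
    have hKsub : Z ∈ K → Z ∈ KN n := fun h => ⟨Z, h, rfl⟩
    by_cases h1 : Z ∈ K
    · exact absurd (iff_of_true (hKsub h1) (hKE h1)) hZ
    · by_cases h2 : Z ∈ E
      · exact Or.inr ⟨h2, h1⟩
      · left
        refine ⟨?_, h1⟩
        by_contra h3
        exact hZ (iff_of_false h3 h2)
  have h1 := (measureReal_mono hsub (μ := ν)).trans (measureReal_union_le _ _)
  have h2 : ν.real (KN n \ K) ≤ ε / 2 := by
    have hs : K ⊆ KN n := fun Z h => ⟨Z, h, rfl⟩
    rw [measureReal_sdiff hs hKc.measurableSet]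
    linarith
  have h3 : ν.real (E \ K) ≤ ε / 2 := by
    have := ENNReal.toReal_mono ENNReal.ofReal_ne_top hdiff.le
    rwa [ENNReal.toReal_ofReal (by linarith)] at this
  linarith

/-- Powers of absolutely continuous measures are absolutely continuous. -/
theorem pi_ac (μ ν : Measure Cantor) [SigmaFinite μ] [SigmaFinite ν] (h : ν ≪ μ) (n : ℕ) :
    Measure.pi (fun _ : Fin n => ν) ≪ Measure.pi (fun _ : Fin n => μ) := by
  induction n with
  | zero =>
    rw [Measure.pi_of_empty, Measure.pi_of_empty (μ := fun _ : Fin 0 => μ)]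
  | succ n ih =>
    have h1 := (measurePreserving_piFinSuccAbove (fun _ : Fin (n + 1) => ν) 0)
    have h2 := (measurePreserving_piFinSuccAbove (fun _ : Fin (n + 1) => μ) 0)
    refine AbsolutelyContinuous.mk fun s hs h0 => ?_
    set e := MeasurableEquiv.piFinSuccAbove (fun _ : Fin (n + 1) => Cantor) 0 with he
    have h3 : e ⁻¹' (e.symm ⁻¹' s) = s := by
      ext x; simp
    have hm : MeasurableSet (e.symm ⁻¹' s) := e.symm.measurable hs
    have h4 : (μ.prod (Measure.pi fun _ : Fin n => μ)) (e.symm ⁻¹' s) = 0 := by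
      have := h2.measure_preimage hm.nullMeasurableSet
      rw [h3, h0] at this
      exact this.symm
    have h5 : (ν.prod (Measure.pi fun _ : Fin n => ν)) (e.symm ⁻¹' s) = 0 :=
      (h.prod ih) h4
    have := h1.measure_preimage hm.nullMeasurableSet
    rw [h3] at this
    rw [this]
    exact h5

/-- A nonsingular map remains nonsingular when applied to four columns. -/
theorem qmp_PhiF {F : Cantor → Cantor} {P : Set Cantor} (hP : MeasurableSet P)
    (hF : QuasiMeasurePreserving F (fairCoin.restrict P) fairCoin) :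
    QuasiMeasurePreserving (fun ω => J4 fun i => F (pr i ω))
      (fairCoin.restrict {ω | ∀ i, pr i ω ∈ P}) fairCoin := by
  have hFm : Measurable F := hF.measurable
  set ν := (fairCoin.restrict P).map F with hν
  have hmp : MeasurePreserving F (fairCoin.restrict P) ν := ⟨hFm, rfl⟩
  have : IsFiniteMeasure ν := by rw [hν]; infer_instance
  have hac : ν ≪ fairCoin := hF.absolutelyContinuous
  have h1 : MeasurePreserving (fun Z i => pr i Z) (fairCoin.restrict {ω | ∀ i, pr i ω ∈ P})
      (Measure.pi fun _ : Fin 4 => fairCoin.restrict P) := by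
    have h2 := measurePreserving_unJ4.restrict_preimage
      (MeasurableSet.univ_pi fun _ : Fin 4 => hP)
    rw [restrict_pi_pi] at h2
    have h3 : (fun (Z : Cantor) (i : Fin 4) => pr i Z) ⁻¹' (Set.univ.pi fun _ : Fin 4 => P) =
        {ω | ∀ i, pr i ω ∈ P} := by
      ext ω; simp
    rwa [h3] at h2
  have h4 : MeasurePreserving (fun (a : Fin 4 → Cantor) i => F (a i))
      (Measure.pi fun _ : Fin 4 => fairCoin.restrict P) (Measure.pi fun _ : Fin 4 => ν) :=
    measurePreserving_pi _ _ (fun _ => hmp)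
  have h5 : QuasiMeasurePreserving J4 (Measure.pi fun _ : Fin 4 => ν) fairCoin :=
    measurePreserving_J4.quasiMeasurePreserving.mono_left (pi_ac fairCoin ν hac 4)
  exact h5.comp (h4.quasiMeasurePreserving.comp h1.quasiMeasurePreserving)

section

variable {F : Cantor → Cantor} {P : Set Cantor}

/-- The measure of a part of `P` in terms of its image. -/
theorem measure_image (hFm : Measurable F) (hinj : Set.InjOn F P)
    {E : Set Cantor} (hE : MeasurableSet E) (hEP : E ⊆ P) :
    (fairCoin.restrict P).map F (F '' E) = fairCoin E := by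
  have him : MeasurableSet (F '' E) := hE.image_of_measurable_injOn hFm (hinj.mono hEP)
  rw [Measure.map_apply hFm him, Measure.restrict_apply (hFm him)]
  congr 1
  ext A
  constructor
  · rintro ⟨⟨B, hB, hBA⟩, hA⟩
    rw [← hinj (hEP hB) hA hBA]; exact hB
  · intro hA
    exact ⟨⟨A, hA, rfl⟩, hEP hA⟩

/-- A piece on which a nonsingular injective map nearly has constant density. -/
theorem nice_piece (hP : MeasurableSet P) (hF : QuasiMeasurePreserving F (fairCoin.restrict P)
    fairCoin) (hinj : Set.InjOn F P) (r : ℝ) (hr : 1 < r) {E0 : Set Cantor}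
    (hE0 : MeasurableSet E0) (hE0P : E0 ⊆ P) (hpos : 0 < fairCoin E0) :
    ∃ E1 ⊆ E0, MeasurableSet E1 ∧ 0 < fairCoin E1 ∧ ∃ κ : ℝ, 0 < κ ∧
      ∀ E2 ⊆ E1, MeasurableSet E2 → κ * fairCoin.real (F '' E2) ≤ fairCoin.real E2 ∧
        fairCoin.real E2 ≤ r * κ * fairCoin.real (F '' E2) := by
  have hFm : Measurable F := hF.measurable
  set ν := (fairCoin.restrict P).map F with hν
  have : IsFiniteMeasure ν := by rw [hν]; infer_instance
  have hac : ν ≪ fairCoin := hF.absolutelyContinuous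
  have : ν.HaveLebesgueDecomposition fairCoin := haveLebesgueDecomposition_of_sigmaFinite ν fairCoin
  set ρ := ν.rnDeriv fairCoin with hρ
  have hρm : Measurable ρ := Measure.measurable_rnDeriv _ _
  have hdens : fairCoin.withDensity ρ = ν := withDensity_rnDeriv_eq _ _ hac
  -- the density is positive and finite on the image
  have h0 : ∀ᵐ Z ∂ν, ρ Z ≠ 0 := by
    rw [ae_iff]
    have hm : MeasurableSet {Z | ¬ ρ Z ≠ 0} := (hρm (measurableSet_singleton 0).compl).compl
    rw [← hdens, withDensity_apply _ hm]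
    rw [lintegral_eq_zero_iff hρm]
    refine (ae_restrict_iff' hm).2 (Filter.Eventually.of_forall fun Z hZ => ?_)
    simpa using hZ
  have h1 : ∀ᵐ Z ∂ν, ρ Z ≠ ∞ := hac.ae_le (rnDeriv_ne_top ν fairCoin)
  have h2 : ∀ᵐ A ∂(fairCoin.restrict P), ρ (F A) ≠ 0 ∧ ρ (F A) ≠ ∞ :=
    ae_of_ae_map hFm.aemeasurable (h0.and h1)
  have h3 : ∀ᵐ A ∂fairCoin, A ∈ P → ρ (F A) ≠ 0 ∧ ρ (F A) ≠ ∞ := (ae_restrict_iff' hP).1 h2
  -- levels
  have hr0 : 0 < r := by linarith
  let Lv : ℤ → Set Cantor := fun k =>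
    {A | A ∈ E0 ∧ ENNReal.ofReal (r ^ k) ≤ ρ (F A) ∧ ρ (F A) < ENNReal.ofReal (r ^ (k + 1))}
  have hLm : ∀ k, MeasurableSet (Lv k) := by
    intro k
    have hm1 : MeasurableSet {A | ENNReal.ofReal (r ^ k) ≤ ρ (F A)} :=
      measurableSet_le measurable_const (hρm.comp hFm)
    have hm2 : MeasurableSet {A | ρ (F A) < ENNReal.ofReal (r ^ (k + 1))} :=
      measurableSet_lt (hρm.comp hFm) measurable_const
    exact hE0.inter (hm1.inter hm2)
  obtain ⟨k, hk⟩ : ∃ k, 0 < fairCoin (Lv k) := by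
    by_contra hcon
    push Not at hcon
    have h4 : fairCoin (⋃ k, Lv k) = 0 :=
      measure_iUnion_null fun k => le_antisymm (hcon k) zero_le
    apply hpos.ne'
    refine measure_mono_null (t := (⋃ k, Lv k) ∪ {A | ¬ (A ∈ P → ρ (F A) ≠ 0 ∧ ρ (F A) ≠ ∞)}) ?_
      (measure_union_null h4 (ae_iff.1 h3))
    intro A hA
    by_cases hb : A ∈ P → ρ (F A) ≠ 0 ∧ ρ (F A) ≠ ∞
    · left
      obtain ⟨ha, hb⟩ := hb (hE0P hA)
      have hx : 0 < (ρ (F A)).toReal := ENNReal.toReal_pos ha hb
      obtain ⟨k, hk1, hk2⟩ := exists_mem_Ico_zpow hx hr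
      rw [Set.mem_iUnion]
      refine ⟨k, hA, ?_, ?_⟩
      · rw [ENNReal.ofReal_le_iff_le_toReal hb]; exact hk1
      · rw [ENNReal.lt_ofReal_iff_toReal_lt hb]; exact hk2
    · right; exact hb
  refine ⟨Lv k, fun A hA => hA.1, hLm k, hk, r ^ k, zpow_pos hr0 k, ?_⟩
  intro E2 hE2 hE2m
  have hE2P : E2 ⊆ P := fun A hA => hE0P (hE2 hA).1
  have him : MeasurableSet (F '' E2) := hE2m.image_of_measurable_injOn hFm (hinj.mono hE2P)
  have h5 := measure_image hFm hinj hE2m hE2P
  rw [← hν, ← hdens, withDensity_apply _ him] at h5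
  have hlo : ENNReal.ofReal (r ^ k) * fairCoin (F '' E2) ≤ fairCoin E2 := by
    rw [← h5, ← setLIntegral_const]
    refine setLIntegral_mono hρm fun Z hZ => ?_
    obtain ⟨A, hA, rfl⟩ := hZ
    exact (hE2 hA).2.1
  have hup : fairCoin E2 ≤ ENNReal.ofReal (r ^ (k + 1)) * fairCoin (F '' E2) := by
    rw [← h5, ← setLIntegral_const]
    refine setLIntegral_mono measurable_const fun Z hZ => ?_
    obtain ⟨A, hA, rfl⟩ := hZ
    exact (hE2 hA).2.2.le
  have hk0 : 0 ≤ r ^ k := (zpow_pos hr0 k).le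
  have hk1 : 0 ≤ r ^ (k + 1) := (zpow_pos hr0 (k + 1)).le
  constructor
  · have := ENNReal.toReal_mono (measure_ne_top _ _) hlo
    rwa [ENNReal.toReal_mul, ENNReal.toReal_ofReal hk0] at this
  · have := ENNReal.toReal_mono (ENNReal.mul_ne_top ENNReal.ofReal_ne_top (measure_ne_top _ _)) hup
    rw [ENNReal.toReal_mul, ENNReal.toReal_ofReal hk1] at this
    have e : r ^ (k + 1) = r * r ^ k := by
      rw [zpow_add₀ hr0.ne', zpow_one]; ring
    rwa [e] at this

/-- The two-sided version: after removing a null set, the inverse is nonsingular as well. -/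
theorem two_sided (hP : MeasurableSet P) (hF : QuasiMeasurePreserving F (fairCoin.restrict P)
    fairCoin) (hinj : Set.InjOn F P) (hpos : 0 < fairCoin P) :
    ∃ (P' T : Set Cantor) (G : Cantor → Cantor), P' ⊆ P ∧ MeasurableSet P' ∧ 0 < fairCoin P' ∧
      MeasurableSet T ∧ 0 < fairCoin T ∧ Set.InjOn G T ∧ (∀ A ∈ P', F A ∈ T ∧ G (F A) = A) ∧
      (∀ B ∈ T, G B ∈ P' ∧ F (G B) = B) ∧
      QuasiMeasurePreserving F (fairCoin.restrict P') fairCoin ∧
      QuasiMeasurePreserving G (fairCoin.restrict T) fairCoin := by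
  have hFm : Measurable F := hF.measurable
  obtain ⟨E1, hE1, hE1m, hE1pos, κ, hκ, hest⟩ := nice_piece hP hF hinj 2 (by norm_num) hP
    (le_refl P) hpos
  have hinj1 : Set.InjOn F E1 := hinj.mono hE1
  have hTm : MeasurableSet (F '' E1) := hE1m.image_of_measurable_injOn hFm hinj1
  -- the inverse
  have := hE1m.standardBorel
  have hemb : MeasurableEmbedding (fun x : E1 => F x) := by
    refine (hFm.comp measurable_subtype_coe).measurableEmbedding ?_
    intro x y hxy
    exact Subtype.ext (hinj1 x.2 y.2 hxy)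
  obtain ⟨G, hGm, hG⟩ := hemb.exists_measurable_extend (measurable_subtype_coe (p := (· ∈ E1)))
    (fun _ => ⟨fun _ => false⟩)
  have hGF : ∀ A ∈ E1, G (F A) = A := fun A hA => congrFun hG ⟨A, hA⟩
  have hFG : ∀ B ∈ F '' E1, G B ∈ E1 ∧ F (G B) = B := by
    rintro B ⟨A, hA, rfl⟩
    rw [hGF A hA]
    exact ⟨hA, rfl⟩
  have hTpos : 0 < fairCoin (F '' E1) := by
    rw [pos_iff_ne_zero]
    intro h0
    have h1 := (hest E1 (le_refl E1) hE1m).2
    have h2 : fairCoin.real (F '' E1) = 0 := by unfold Measure.real; rw [h0]; rfl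
    rw [h2, mul_zero] at h1
    have h3 : 0 < fairCoin.real E1 := ENNReal.toReal_pos hE1pos.ne' (measure_ne_top _ _)
    linarith
  refine ⟨E1, F '' E1, G, hE1, hE1m, hE1pos, hTm, hTpos, ?_, ?_, hFG, ?_, ?_⟩
  · rintro B ⟨A, hA, rfl⟩ B' ⟨A', hA', rfl⟩ h
    rw [hGF A hA, hGF A' hA'] at h
    rw [h]
  · exact fun A hA => ⟨⟨A, hA, rfl⟩, hGF A hA⟩
  · exact hF.mono_left (Measure.restrict_mono hE1 le_rfl).absolutelyContinuous
  · refine ⟨hGm, ?_⟩
    refine AbsolutelyContinuous.mk fun E hE h0 => ?_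
    rw [Measure.map_apply hGm hE, Measure.restrict_apply (hGm hE)]
    have h1 : G ⁻¹' E ∩ F '' E1 = F '' (E1 ∩ E) := by
      ext B
      constructor
      · rintro ⟨h2, A, hA, rfl⟩
        have h3 : G (F A) ∈ E := h2
        rw [hGF A hA] at h3
        exact ⟨A, ⟨hA, h3⟩, rfl⟩
      · rintro ⟨A, ⟨hA, hAE⟩, rfl⟩
        refine ⟨?_, A, hA, rfl⟩
        show G (F A) ∈ E
        rw [hGF A hA]; exact hAE
    rw [h1]
    have h2 := (hest (E1 ∩ E) Set.inter_subset_left (hE1m.inter hE)).1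
    have h3 : fairCoin.real (E1 ∩ E) = 0 := by
      unfold Measure.real
      rw [measure_mono_null Set.inter_subset_right h0]; rfl
    rw [h3] at h2
    have h4 : fairCoin.real (F '' (E1 ∩ E)) = 0 := by
      have h5 : 0 ≤ fairCoin.real (F '' (E1 ∩ E)) := measureReal_nonneg
      by_contra hne
      have : 0 < fairCoin.real (F '' (E1 ∩ E)) := lt_of_le_of_ne h5 (Ne.symm hne)
      have := mul_pos hκ this
      linarith
    rwa [measureReal_eq_zero_iff] at h4

end

end Vale.Agent.P327
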