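import Vale.Agent.P327.Bor1
import Vale.Agent.P327.DictD

/-! The tests for a Borel map. -/

open MeasureTheory
open scoped ENNReal

namespace Vale.Agent.P327

theorem thr_nat (S : Set Cantor) (a b : ℕ) (hb : 0 < b) :
    (a : ℝ≥0∞) / (b : ℝ≥0∞) < fairCoin S ↔ (a : ℝ) / b < fairCoin.real S := by
  have hb' : (0 : ℝ) < b := by exact_mod_cast hb
  have h1 : (a : ℝ≥0∞) / (b : ℝ≥0∞) = ENNReal.ofReal ((a : ℝ) / b) := by
    rw [ENNReal.ofReal_div_of_pos hb', ENNReal.ofReal_natCast, ENNReal.ofReal_natCast]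
  rw [h1, ← ofReal_measureReal (μ := fairCoin) (s := S),
    ENNReal.ofReal_lt_ofReal_iff_of_nonneg (by positivity)]

/-- The images of the normalized sum and of the normalized perturbed first column. -/
def OutB (F : Cantor → Cantor) (N0 : ℕ) (z0 ω : Cantor) : Cantor :=
  join (F (put N0 z0 (xorC (pr 0 ω) (pr 1 ω))))
    (F (put N0 z0 (xorC (pr 0 ω) (andC (pr 2 ω) (pr 3 ω)))))

/-- The semantic bits at `ω`. -/
def sYB (F : Cantor → Cantor) (N0 : ℕ) (z0 : Cantor) (a : Par) (ω : Cantor) :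
    Bool × Bool × Bool × Bool × Bool × Bool :=
  sem a (F (pr 0 ω)) (F (pr 1 ω)) (F (put N0 z0 (xorC (pr 0 ω) (pr 1 ω))))
    (F (put N0 z0 (xorC (pr 0 ω) (andC (pr 2 ω) (pr 3 ω)))))

/-- Everything we need to know about the localized situation. -/
structure Ctx (F : Cantor → Cantor) (P : Set Cantor) (W : Fnl) (N0 : ℕ) (z0 : Cantor) (N : ℕ)
    (zz : Cantor) (D : List (List Bool)) (L0 u v : ℕ) (Gd : Set Cantor) : Prop where
  Fm : Measurable F
  Pm : MeasurableSet P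
  Wg : Good W
  N0N : N0 ≤ N
  u0 : 0 < u
  v0 : 0 < v
  Gm : MeasurableSet Gd
  Gη : fairCoin.real Gdᶜ ≤ 1 / 2000
  comp : ∀ Y ∈ Gd, Computes W (PhiF F (put (4 * N) zz Y)) (OutB F N0 z0 (put (4 * N) zz Y))
  inD : ∀ Y ∈ Gd, pre (PhiF F (put (4 * N) zz Y)) L0 ∈ D
  inP : ∀ Y ∈ Gd, ∀ i, pr i (put (4 * N) zz Y) ∈ P
  inP1 : ∀ Y ∈ Gd,
    put N0 z0 (xorC (pr 0 (put (4 * N) zz Y)) (pr 1 (put (4 * N) zz Y))) ∈ P
  inP2 : ∀ Y ∈ Gd, put N0 z0 (xorC (pr 0 (put (4 * N) zz Y))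
    (andC (pr 2 (put (4 * N) zz Y)) (pr 3 (put (4 * N) zz Y)))) ∈ P
  lawA : ∀ S : Set Cantor, MeasurableSet S → (∀ Z ∈ S, pre Z L0 ∈ D) →
    (u : ℝ) / v * fairCoin.real S ≤
      fairCoin.real {Y | Y ∈ Gd ∧ PhiF F (put (4 * N) zz Y) ∈ S} + 1 / 400
  lawB : ∀ S : Set Cantor, MeasurableSet S → (∀ Z ∈ S, pre Z L0 ∈ D) →
    fairCoin.real {Y | Y ∈ Gd ∧ PhiF F (put (4 * N) zz Y) ∈ S} ≤
      (u : ℝ) / v * fairCoin.real S + 1 / 400

/-- Threshold tests. -/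
def TPB (W : Fnl) (D : List (List Bool)) (L0 u v : ℕ)
    (h : Bool × Bool × Bool × Bool × Bool × Bool → Bool) (c : ℕ) (a : Par) : Prop :=
  ((c * v : ℕ) : ℝ≥0∞) / ((100 * u : ℕ) : ℝ≥0∞) < fairCoin {Z | ∃ j, Tst W D L0 h a (pre Z j)}

theorem TPB_re {W : Fnl} (hW : Good W) (D : List (List Bool)) (L0 u v : ℕ) (hu : 0 < u)
    (h : Bool × Bool × Bool × Bool × Bool × Bool → Bool) (c : ℕ) :
    REPred (TPB W D L0 u v h c) :=
  re_measure (fun a σ => Tst W D L0 h a σ) (Tst_re hW D L0 h)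
    (fun a σ τ => Tst_mono hW D L0 h a σ τ) (c * v) (100 * u) (by positivity)

section

variable {F : Cantor → Cantor} {P : Set Cantor} {W : Fnl} {N0 : ℕ} {z0 : Cantor} {N : ℕ}
  {zz : Cantor} {D : List (List Bool)} {L0 u v : ℕ} {Gd : Set Cantor}

theorem TPB_iff (hu : 0 < u) (hv : 0 < v)
    (h : Bool × Bool × Bool × Bool × Bool × Bool → Bool) (c : ℕ) (a : Par) :
    TPB W D L0 u v h c a ↔
      (c : ℝ) / 100 < (u : ℝ) / v * fairCoin.real {Z | ∃ j, Tst W D L0 h a (pre Z j)} := by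
  unfold TPB
  rw [thr_nat _ _ _ (by positivity)]
  have hu' : (0 : ℝ) < u := by exact_mod_cast hu
  have hv' : (0 : ℝ) < v := by exact_mod_cast hv
  push_cast
  rw [div_lt_iff₀ (by positivity), div_lt_iff₀ (by norm_num), div_mul_eq_mul_div,
    div_mul_eq_mul_div, lt_div_iff₀ hv']
  constructor <;> intro h <;> linarith

theorem Tst_semB (hW : Good W)
    (h : Bool × Bool × Bool × Bool × Bool × Bool → Bool) (a : Par) (Y : Cantor)
    (hY : Computes W (PhiF F (put (4 * N) zz Y)) (OutB F N0 z0 (put (4 * N) zz Y)))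
    (hDY : pre (PhiF F (put (4 * N) zz Y)) L0 ∈ D) :
    (∃ j, Tst W D L0 h a (pre (PhiF F (put (4 * N) zz Y)) j)) ↔
      h (sYB F N0 z0 a (put (4 * N) zz Y)) = true := by
  rw [Tst_iff hW D L0 h a hY]
  unfold OutB sYB
  rw [ev_join, od_join]
  simp only [PhiF, pr_J4]
  constructor
  · rintro ⟨-, h2⟩; exact h2
  · intro h2; exact ⟨hDY, h2⟩

theorem TPB_sound (C : Ctx F P W N0 z0 N zz D L0 u v Gd)
    (h : Bool × Bool × Bool × Bool × Bool × Bool → Bool) (c : ℕ) (a : Par)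
    (ht : TPB W D L0 u v h c a) :
    (c : ℝ) / 100 - 1 / 200 < fairCoin.real {Y | h (sYB F N0 z0 a (put (4 * N) zz Y)) = true} := by
  rw [TPB_iff C.u0 C.v0] at ht
  have h1 := C.lawA {Z | ∃ j, Tst W D L0 h a (pre Z j)} (measurableSet_exists_pre _)
    (fun Z hZ => Tst_D hZ)
  have h2 : {Y | Y ∈ Gd ∧ PhiF F (put (4 * N) zz Y) ∈ {Z | ∃ j, Tst W D L0 h a (pre Z j)}} ⊆
      {Y | h (sYB F N0 z0 a (put (4 * N) zz Y)) = true} := by
    rintro Y ⟨hY, hZ⟩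
    exact (Tst_semB C.Wg h a Y (C.comp Y hY) (C.inD Y hY)).1 hZ
  have h3 := measureReal_mono h2 (μ := fairCoin)
  linarith

theorem TPB_complete (C : Ctx F P W N0 z0 N zz D L0 u v Gd)
    (h : Bool × Bool × Bool × Bool × Bool × Bool → Bool) (c : ℕ) (a : Par)
    (ht : (c : ℝ) / 100 + 1 / 100 <
      fairCoin.real {Y | h (sYB F N0 z0 a (put (4 * N) zz Y)) = true}) :
    TPB W D L0 u v h c a := by
  rw [TPB_iff C.u0 C.v0]
  have h1 := C.lawB {Z | ∃ j, Tst W D L0 h a (pre Z j)} (measurableSet_exists_pre _)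
    (fun Z hZ => Tst_D hZ)
  have h2 : {Y | h (sYB F N0 z0 a (put (4 * N) zz Y)) = true} ⊆
      {Y | Y ∈ Gd ∧ PhiF F (put (4 * N) zz Y) ∈ {Z | ∃ j, Tst W D L0 h a (pre Z j)}} ∪ Gdᶜ := by
    intro Y hY
    by_cases hG : Y ∈ Gd
    · exact Or.inl ⟨hG, (Tst_semB C.Wg h a Y (C.comp Y hG) (C.inD Y hG)).2 hY⟩
    · exact Or.inr hG
  have h3 := (measureReal_mono h2 (μ := fairCoin)).trans (measureReal_union_le _ _)
  have h4 := C.Gη
  linarith

/-- The strings of the normalized operations. -/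
def w1 (N0 : ℕ) (z0 zz : Cantor) : Cantor := put N0 z0 (xorC (pr 0 zz) (pr 1 zz))
/-- The strings of the normalized operations. -/
def w2 (N0 : ℕ) (z0 zz : Cantor) : Cantor := put N0 z0 (xorC (pr 0 zz) (andC (pr 2 zz) (pr 3 zz)))

theorem put_put_le {N0 N : ℕ} (h : N0 ≤ N) (z0 z Y : Cantor) :
    put N0 z0 (put N z Y) = put N (put N0 z0 z) Y := by
  funext n
  unfold put
  by_cases h1 : n < N0
  · rw [if_pos h1, if_pos (by omega), if_pos h1]
  · rw [if_neg h1, if_neg h1]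

theorem sYB_put (hN : N0 ≤ N) (F : Cantor → Cantor) (a : Par) (Y : Cantor) :
    sYB F N0 z0 a (put (4 * N) zz Y) =
      (phi F N a.1.1 a.1.2.1 (pr 0 zz) (pr 0 Y), phi F N a.1.1 a.1.2.2.1 (pr 1 zz) (pr 1 Y),
        phi F N a.1.1 a.1.2.2.2.1 (w1 N0 z0 zz) (xorC (pr 0 Y) (pr 1 Y)),
        phi F N a.1.1 a.1.2.2.2.2 (w2 N0 z0 zz) (xorC (pr 0 Y) (andC (pr 2 Y) (pr 3 Y))),
        phi F N a.2.1.1 a.2.1.2.1 (pr 0 zz) (pr 0 Y), a.2.2) := by
  unfold sYB sem phi w1 w2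
  simp only [pr_put, xorC_put, andC_put, put_put_le hN]

theorem measurable_phi (hF : Measurable F) (N k : ℕ) (f : List (List Bool)) (z : Cantor) :
    Measurable (phi F N k f z) :=
  (continuous_val k f).measurable.comp (hF.comp (measurable_put N z))

end

end Vale.Agent.P327
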