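import Vale.Agent.P327.Bor3

/-! Decoding for a Borel map. -/

open MeasureTheory
open scoped ENNReal

namespace Vale.Agent.P327

/-- The decoding functional. -/
def WDB (W : Fnl) (D : List (List Bool)) (L0 u v : ℕ) (f : ℕ → Cand) : Fnl := fun β m b =>
  (v : ℝ≥0∞) / ((2 * u : ℕ) : ℝ≥0∞) < fairCoin {T | ∃ j, pD W D L0 f (β, m, b) (pre T j)}

theorem WDB_good {W : Fnl} (hW : Good W) (D : List (List Bool)) (L0 u v : ℕ) (hu : 0 < u)
    {f : ℕ → Cand} (hf : Computable f) : Good (WDB W D L0 u v f) := by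
  refine ⟨?_, ?_⟩
  · exact re_measure (pD W D L0 f) (pD_re hW D L0 hf)
      (fun a σ τ h => pD_mono hW D L0 f a.2.1 a.2.2 (List.prefix_rfl) h) v (2 * u)
      (by positivity)
  · intro σ τ n b h hσ
    refine lt_of_lt_of_le hσ (measure_mono ?_)
    rintro T ⟨j, hj⟩
    exact ⟨j, pD_mono hW D L0 f n b h (List.prefix_rfl) hj⟩

theorem WDB_iff {W : Fnl} (hW : Good W) (D : List (List Bool)) (L0 u v : ℕ) (f : ℕ → Cand)
    (B : Cantor) (m : ℕ) (b : Bool) :
    (∃ i, WDB W D L0 u v f (pre B i) m b) ↔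
      (v : ℝ≥0∞) / ((2 * u : ℕ) : ℝ≥0∞) <
        fairCoin {T | pre T L0 ∈ D ∧ ∃ j, Tst W D L0 hD (f m, f m, b) (pre (rep B T) j)} := by
  have h1 : {T | pre T L0 ∈ D ∧ ∃ j, Tst W D L0 hD (f m, f m, b) (pre (rep B T) j)} =
      ⋃ i, {T | ∃ j, pD W D L0 f (pre B i, m, b) (pre T j)} := by
    ext T
    rw [Set.mem_iUnion]
    exact (pD_full hW D L0 f B T m b).symm
  have hmono : Monotone fun i => {T | ∃ j, pD W D L0 f (pre B i, m, b) (pre T j)} := by
    intro i i' h T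
    rintro ⟨j, hj⟩
    exact ⟨j, pD_mono hW D L0 f m b (pre_prefix B h) (List.prefix_rfl) hj⟩
  rw [h1, hmono.measure_iUnion, lt_iSup_iff]
  rfl

section

variable {F : Cantor → Cantor} {P : Set Cantor} {W : Fnl} {N0 : ℕ} {z0 : Cantor} {N : ℕ}
  {zz : Cantor} {D : List (List Bool)} {L0 u v : ℕ} {Gd : Set Cantor}

theorem decodeB (C : Ctx F P W N0 z0 N zz D L0 u v Gd)
    (f : ℕ → Cand) (i : ℕ → ℕ) (sp s0 s1 : ℕ → Bool)
    (hd : ∀ m, DataB F N0 z0 N zz (f m) (i m) (sp m) (s0 m) (s1 m)) (Y0 : Cantor)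
    (hY0 : fairCoin.real {Y | rep Y0 Y ∈ Gdᶜ} ≤ 1 / 5) :
    Computes (WDB W D L0 u v f) (F (put N (pr 0 zz) Y0))
      (fun m => xor (Y0 (i m)) (xor (sp m) (s1 m))) := by
  intro m b
  rw [WDB_iff C.Wg, thr_nat _ _ _ (by have := C.u0; positivity)]
  have hu : (0 : ℝ) < u := by exact_mod_cast C.u0
  have hv : (0 : ℝ) < v := by exact_mod_cast C.v0
  set E : Set Cantor := {T | pre T L0 ∈ D ∧ ∃ j, Tst W D L0 hD (f m, f m, b)
    (pre (rep (F (put N (pr 0 zz) Y0)) T) j)} with hE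
  have hrepm : ∀ S : Cantor, Measurable fun T => rep S T := by
    intro S
    refine measurable_pi_lambda _ fun n => ?_
    simp only [rep_apply]
    split_ifs
    · exact measurable_const
    · exact measurable_pi_apply n
  have hEm : MeasurableSet E := by
    refine (measurableSet_pre L0 (fun σ => σ ∈ D)).inter ?_
    exact hrepm _ (measurableSet_exists_pre (fun σ => Tst W D L0 hD (f m, f m, b) σ))
  have hthr : ((v : ℝ) / ((2 * u : ℕ) : ℝ) < fairCoin.real E) ↔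
      (1 / 2 : ℝ) < (u : ℝ) / v * fairCoin.real E := by
    push_cast
    rw [div_lt_iff₀ (by positivity), div_mul_eq_mul_div, lt_div_iff₀ hv]
    constructor <;> intro h <;> linarith
  rw [hthr]
  have lA := C.lawA E hEm (fun Z hZ => hZ.1)
  have lB := C.lawB E hEm (fun Z hZ => hZ.1)
  have hE2 : {Y | Y ∈ Gd ∧ PhiF F (put (4 * N) zz Y) ∈ E} =
      {Y | Y ∈ Gd ∧
        ∃ j, Tst W D L0 hD (f m, f m, b) (pre (PhiF F (put (4 * N) zz (rep Y0 Y))) j)} := by
    ext Y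
    simp only [hE, Set.mem_ofPred_eq, rep_PhiF]
    constructor
    · rintro ⟨h1, -, h2⟩; exact ⟨h1, h2⟩
    · rintro ⟨h1, h2⟩
      exact ⟨h1, C.inD Y h1, h2⟩
  rw [hE2] at lA lB
  -- the bad set
  obtain ⟨hle, hp, -, h1⟩ := hd m
  set c := f m with hc
  set φp := phi F N c.1 c.2.2.2.1 (w1 N0 z0 zz) with hφp
  set φ1 := phi F N c.1 c.2.2.1 (pr 1 zz) with hφ1
  have cp : Measurable φp := measurable_phi C.Fm _ _ _ _
  have c1 : Measurable φ1 := measurable_phi C.Fm _ _ _ _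
  have hm : ∀ s, Measurable fun Y : Cantor => xor s (Y (i m)) := fun s =>
    (measurable_of_countable (fun b : Bool => xor s b)).comp (measurable_pi_apply (i m))
  have mp' : MeasurableSet {Y | φp Y = xor (sp m) (Y (i m))} := measurableSet_eq_fun cp (hm _)
  have m1' : MeasurableSet {Y | φ1 Y = xor (s1 m) (Y (i m))} := measurableSet_eq_fun c1 (hm _)
  have hmr : MeasurePreserving (fun Y => xorC Y0 (pr 1 Y)) fairCoin fairCoin :=
    (measurePreserving_xorC Y0).comp (measurePreserving_pr 1)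
  set B1 : Set Cantor := {Y | rep Y0 Y ∈ Gdᶜ} with hB1
  set B2 : Set Cantor := (fun Y => xorC Y0 (pr 1 Y)) ⁻¹' {Y | φp Y = xor (sp m) (Y (i m))}ᶜ
    with hB2
  set B3 : Set Cantor := (pr 1) ⁻¹' {Y | φ1 Y = xor (s1 m) (Y (i m))}ᶜ with hB3
  have r2 : fairCoin.real B2 ≤ 1 / 20 := by
    rw [hB2, mp_real hmr mp'.compl, probReal_compl_eq_one_sub mp']; linarith
  have r3 : fairCoin.real B3 ≤ 1 / 20 := by
    rw [hB3, mp_real (measurePreserving_pr 1) m1'.compl, probReal_compl_eq_one_sub m1']; linarith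
  have rB : fairCoin.real (B1 ∪ (B2 ∪ B3)) ≤ 3 / 10 := by
    have h5 := measureReal_union_le (μ := fairCoin) B1 (B2 ∪ B3)
    have h6 := measureReal_union_le (μ := fairCoin) B2 B3
    linarith
  have hgood : ∀ Y, Y ∉ B1 ∪ (B2 ∪ B3) →
      ((∃ j, Tst W D L0 hD (c, c, b) (pre (PhiF F (put (4 * N) zz (rep Y0 Y))) j)) ↔
        xor (Y0 (i m)) (xor (sp m) (s1 m)) = b) := by
    intro Y hY
    simp only [Set.mem_union, not_or] at hY
    obtain ⟨y1, y2, y3⟩ := hY
    have y1' : rep Y0 Y ∈ Gd := by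
      by_contra hcon; exact y1 hcon
    have y2' : φp (xorC Y0 (pr 1 Y)) = xor (sp m) ((xorC Y0 (pr 1 Y)) (i m)) := by
      by_contra hcon; exact y2 hcon
    have y3' : φ1 (pr 1 Y) = xor (s1 m) (pr 1 Y (i m)) := by
      by_contra hcon; exact y3 hcon
    rw [Tst_semB C.Wg hD (c, c, b) (rep Y0 Y) (C.comp _ y1') (C.inD _ y1'), sYB_put C.N0N]
    simp only [hD, beq_iff_eq, pr0_rep, pr_rep 1 (by decide)]
    rw [← hφp, ← hφ1, y2', y3']
    unfold xorC
    cases sp m <;> cases s1 m <;> cases Y0 (i m) <;> cases pr 1 Y (i m) <;> cases b <;> simp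
  constructor
  · intro hvv
    have hsub : (Set.univ : Set Cantor) ⊆ {Y | Y ∈ Gd ∧
        ∃ j, Tst W D L0 hD (c, c, b) (pre (PhiF F (put (4 * N) zz (rep Y0 Y))) j)} ∪
        (Gdᶜ ∪ (B1 ∪ (B2 ∪ B3))) := by
      intro Y _
      by_cases y1 : Y ∈ Gd
      · by_cases y2 : Y ∈ B1 ∪ (B2 ∪ B3)
        · exact Or.inr (Or.inr y2)
        · exact Or.inl ⟨y1, (hgood Y y2).2 hvv⟩
      · exact Or.inr (Or.inl y1)
    have h7 := (measureReal_mono hsub (μ := fairCoin)).trans (measureReal_union_le _ _)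
    have h8 := measureReal_union_le (μ := fairCoin) Gdᶜ (B1 ∪ (B2 ∪ B3))
    have h9 := C.Gη
    rw [probReal_univ] at h7
    linarith
  · intro hvv
    by_contra hne
    have hsub : {Y | Y ∈ Gd ∧ ∃ j, Tst W D L0 hD (c, c, b)
        (pre (PhiF F (put (4 * N) zz (rep Y0 Y))) j)} ⊆ B1 ∪ (B2 ∪ B3) := by
      intro Y hY
      by_contra hcon
      exact hne ((hgood Y hcon).1 hY.2)
    have h7 := measureReal_mono hsub (μ := fairCoin)
    linarith

theorem dictOfCtx (C : Ctx F P W N0 z0 N zz D L0 u v Gd) (G : Cantor → Cantor)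
    (hGm : Measurable G) (hG : ∀ A ∈ P, G (F A) = A)
    (hnice : 3 / 4 ≤ fairCoin.real {Y0 | fairCoin.real {Y | rep Y0 Y ∈ Gdᶜ} ≤ 1 / 5}) :
    ∃ (N : ℕ) (z : Cantor) (i : ℕ → ℕ) (s : Cantor), Function.Injective i ∧ (∀ m, N ≤ i m) ∧
      3 / 4 ≤ fairCoin.real
        {Y | put N z Y ∈ P ∧ Red (fun m => xor (put N z Y (i m)) (s m)) (F (put N z Y))} := by
  obtain ⟨f, hf, hacc, hqq⟩ := re_seq (AccB W D L0 u v) (AccB_re C.Wg D L0 u v C.u0)
    (QQB W D L0 u v) (QQB_re C.Wg D L0 u v C.u0) (by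
      intro l hl
      have hch : ∀ y : Cand, ∃ i, AccB W D L0 u v y →
          ∃ sp s0 s1, DataB F N0 z0 N zz y i sp s0 s1 := by
        intro y
        by_cases hy : AccB W D L0 u v y
        · obtain ⟨i, sp, s0, s1, d⟩ := soundB C y hy
          exact ⟨i, fun _ => ⟨sp, s0, s1, d⟩⟩
        · exact ⟨0, fun h => absurd h hy⟩
      choose ι hι using hch
      obtain ⟨i, hi⟩ : ∃ i, ∀ j ∈ l.map ι, j < i := by
        refine ⟨(l.map ι).sum + 1, fun j hj => ?_⟩
        exact Nat.lt_succ_of_le (List.le_sum_of_mem hj)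
      obtain ⟨x, hx, hQ⟩ := completeB C G hGm hG (max i N) (le_max_right _ _)
      refine ⟨x, hx, fun y hy => ?_⟩
      obtain ⟨sp, s0, s1, d⟩ := hι y (hl y hy)
      refine hQ y (ι y) sp s0 s1 d ?_
      have h1 := hi (ι y) (List.mem_map_of_mem hy)
      exact (lt_of_lt_of_le h1 (le_max_left _ _)).ne)
  have hdata : ∀ m, ∃ i sp s0 s1, DataB F N0 z0 N zz (f m) i sp s0 s1 := fun m =>
    soundB C (f m) (hacc m)
  choose i sp s0 s1 hd using hdata
  refine ⟨N, pr 0 zz, i, fun m => xor (sp m) (s1 m), ?_, fun m => (hd m).le, ?_⟩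
  · intro j m hjm
    by_contra hne
    rcases lt_or_gt_of_ne hne with h | h
    · exact distinctB C _ _ (hqq j m h) (hd j) (hd m) hjm
    · exact distinctB C _ _ (hqq m j h) (hd m) (hd j) hjm.symm
  · refine hnice.trans (measureReal_mono ?_)
    intro Y0 hY0
    refine ⟨?_, ?_⟩
    · -- some extension of `Y0` is good
      by_contra hcon
      have h2 : {Y | rep Y0 Y ∈ Gdᶜ} = Set.univ := by
        ext Y
        simp only [Set.mem_ofPred_eq, Set.mem_univ, iff_true]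
        intro hY
        have h3 := C.inP _ hY 0
        rw [pr_put, pr0_rep] at h3
        exact hcon h3
      have h3 : fairCoin.real {Y | rep Y0 Y ∈ Gdᶜ} ≤ 1 / 5 := hY0
      rw [h2, probReal_univ] at h3
      norm_num at h3
    · have h1 := decodeB C f i sp s0 s1 hd Y0 hY0
      show Red _ _
      rw [red_iff]
      refine ⟨_, WDB_good C.Wg D L0 u v C.u0 hf, ?_⟩
      have h2 : (fun m => xor (put N (pr 0 zz) Y0 (i m)) (xor (sp m) (s1 m))) =
          fun m => xor (Y0 (i m)) (xor (sp m) (s1 m)) := by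
        funext m
        unfold put
        rw [if_neg (not_lt.2 (hd m).le)]
      rw [h2]
      exact h1

end

end Vale.Agent.P327
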