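import Vale.Agent.P327.Dict
import Vale.Agent.P327.Bern
import Vale.Agent.P327.E0

/-! Assembly: automorphisms induced by measure preserving homeomorphisms are trivial. -/

open MeasureTheory
open scoped ENNReal

namespace Vale.Agent.P327

theorem join_image (π : SetDegree ≃o SetDegree) {X X' Y Y' Z Z' : Cantor}
    (hX : π (deg X) = deg X') (hY : π (deg Y) = deg Y') (hZ : π (deg Z) = deg Z')
    (h : Red Z (join X Y)) : Red Z' (join X' Y') := by
  obtain ⟨E, hE⟩ := deg_surj (π.symm (deg (join X' Y')))
  have hE' : π (deg E) = deg (join X' Y') := by rw [hE]; simp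
  have h1 : deg X ≤ deg E := by
    rw [← π.le_iff_le, hX, hE', deg_le_deg]; exact red_join_left _ _
  have h2 : deg Y ≤ deg E := by
    rw [← π.le_iff_le, hY, hE', deg_le_deg]; exact red_join_right _ _
  rw [deg_le_deg] at h1 h2
  have h3 : Red Z E := red_trans h (red_join h1 h2)
  rw [← deg_le_deg, ← π.le_iff_le, hZ, hE', deg_le_deg] at h3
  exact h3

theorem J4_image (π : SetDegree ≃o SetDegree) {a a' : Fin 4 → Cantor} {Z Z' : Cantor}
    (ha : ∀ i, π (deg (a i)) = deg (a' i)) (hZ : π (deg Z) = deg Z')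
    (h : Red Z (J4 a)) : Red Z' (J4 a') := by
  obtain ⟨E, hE⟩ := deg_surj (π.symm (deg (J4 a')))
  have hE' : π (deg E) = deg (J4 a') := by rw [hE]; simp
  have h1 : ∀ i, Red (a i) E := by
    intro i
    rw [← deg_le_deg, ← π.le_iff_le, ha i, hE', deg_le_deg]
    have := red_pr i (J4 a')
    rwa [pr_J4] at this
  have h3 : Red Z E := red_trans h (red_J4 h1)
  rw [← deg_le_deg, ← π.le_iff_le, hZ, hE', deg_le_deg] at h3
  exact h3

theorem key (π : SetDegree ≃o SetDegree) (F : Cantor ≃ₜ Cantor)
    (hF : MeasurePreserving F fairCoin fairCoin)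
    (hπ : ∀ᵐ A ∂fairCoin, π (deg A) = deg (F A)) (A : Cantor) :
    π.symm (deg A) ≤ deg A := by
  -- the two operations
  have hpr : ∀ i : Fin 4, ∀ᵐ ω ∂fairCoin, π (deg (pr i ω)) = deg (F (pr i ω)) := fun i =>
    (measurePreserving_pr i).quasiMeasurePreserving.ae hπ
  have hx : ∀ᵐ ω ∂fairCoin, π (deg (xorC (pr 0 ω) (pr 1 ω))) = deg (F (xorC (pr 0 ω) (pr 1 ω))) := by
    have h1 := (measurePreserving_xor_prod fairCoin (fun x : Cantor => x) measurable_id)
    exact (h1.comp measurePreserving_pr01).quasiMeasurePreserving.ae hπ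
  have hxa : ∀ᵐ ω ∂fairCoin, π (deg (xorC (pr 0 ω) (andC (pr 2 ω) (pr 3 ω)))) =
      deg (F (xorC (pr 0 ω) (andC (pr 2 ω) (pr 3 ω)))) := by
    have h1 := (measurePreserving_xor_prod (fairCoin.prod fairCoin)
      (fun x : Cantor × Cantor => andC x.1 x.2) measurable_andC)
    exact (h1.comp measurePreserving_pr023).quasiMeasurePreserving.ae hπ
  have hred : ∀ᵐ ω ∂fairCoin, Red
      (join (F (xorC (pr 0 ω) (pr 1 ω))) (F (xorC (pr 0 ω) (andC (pr 2 ω) (pr 3 ω)))))
      (J4 fun i => F (pr i ω)) := by
    filter_upwards [hpr 0, hpr 1, hpr 2, hpr 3, hx, hxa] with ω h0 h1 h2 h3 hx hxa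
    have hall : ∀ i, π (deg (pr i ω)) = deg (F (pr i ω)) := by
      intro i; fin_cases i
      · exact h0
      · exact h1
      · exact h2
      · exact h3
    have hp : ∀ i, Red (pr i ω) (J4 fun i => pr i ω) := by
      intro i; rw [J4_pr]; exact red_pr i ω
    refine red_join ?_ ?_
    · exact J4_image π hall hx (red_xor (hp 0) (hp 1))
    · exact J4_image π hall hxa (red_xor (hp 0) (red_and (hp 2) (hp 3)))
  obtain ⟨N, z, i, s, hi, hiN, hgood⟩ := dict F hF hred
  obtain ⟨X, hXm, hXred, hXdec⟩ := bern A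
  obtain ⟨A'', hA''⟩ := deg_surj (π.symm (deg A))
  have hA''' : π.symm (deg A) = deg A'' := hA''.symm
  -- the good set
  set Gd : Set Cantor := {Y | Red (fun m => xor (put N z Y (i m)) (s m)) (F (put N z Y))} with hGd
  have hGdm : MeasurableSet Gd := by
    apply measurableSet_red
    · refine measurable_pi_lambda _ fun m => ?_
      have h1 : Measurable fun Y : Cantor => put N z Y (i m) :=
        (measurable_pi_apply (i m)).comp (measurable_put N z)
      exact (measurable_of_countable (fun b : Bool => xor b (s m))).comp h1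
    · exact F.continuous.measurable.comp (measurable_put N z)
  have hT : MeasurePreserving (fun p : Cantor × Cantor => xorC p.1 (X p.2))
      (fairCoin.prod fairCoin) fairCoin := measurePreserving_xor_prod fairCoin X hXm
  have hfst : MeasurePreserving (Prod.fst : Cantor × Cantor → Cantor)
      (fairCoin.prod fairCoin) fairCoin := measurePreserving_fst
  have hsnd : MeasurePreserving (Prod.snd : Cantor × Cantor → Cantor)
      (fairCoin.prod fairCoin) fairCoin := measurePreserving_snd
  -- almost sure events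
  have e1 : ∀ᵐ p ∂(fairCoin.prod fairCoin), π (deg (put N z p.1)) = deg (F (put N z p.1)) :=
    hfst.quasiMeasurePreserving.ae (fairCoin_put_null N z hπ)
  have e2 : ∀ᵐ p ∂(fairCoin.prod fairCoin), π (deg (put N z (xorC p.1 (X p.2)))) =
      deg (F (put N z (xorC p.1 (X p.2)))) :=
    hT.quasiMeasurePreserving.ae (fairCoin_put_null N z hπ)
  have e3 : ∀ᵐ p ∂(fairCoin.prod fairCoin), Red (X p.2) (join A p.2) :=
    hsnd.quasiMeasurePreserving.ae hXred
  have e4 : ∀ᵐ p ∂(fairCoin.prod fairCoin), Red A (fun m => X p.2 (i m)) :=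
    hsnd.quasiMeasurePreserving.ae (hXdec i hi)
  -- positivity
  have hpos : (fairCoin.prod fairCoin) {p | p.1 ∈ Gd ∧ xorC p.1 (X p.2) ∈ Gd} ≠ 0 := by
    intro h0
    have hc : fairCoin Gdᶜ ≤ ENNReal.ofReal (1 / 4) := by
      have h2 : fairCoin.real Gdᶜ = 1 - fairCoin.real Gd := probReal_compl_eq_one_sub hGdm
      have h3 : fairCoin.real Gdᶜ ≤ 1 / 4 := by rw [h2]; linarith
      rw [← ofReal_measureReal (μ := fairCoin) (s := Gdᶜ)]
      exact ENNReal.ofReal_le_ofReal h3
    have h1 : (fairCoin.prod fairCoin) {p | p.1 ∈ Gdᶜ} ≤ ENNReal.ofReal (1 / 4) := by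
      have := hfst.measure_preimage hGdm.compl.nullMeasurableSet
      rw [← this] at hc
      exact hc
    have h2 : (fairCoin.prod fairCoin) {p | xorC p.1 (X p.2) ∈ Gdᶜ} ≤ ENNReal.ofReal (1 / 4) := by
      have := hT.measure_preimage hGdm.compl.nullMeasurableSet
      rw [← this] at hc
      exact hc
    have hcov : (Set.univ : Set (Cantor × Cantor)) ⊆ {p | p.1 ∈ Gd ∧ xorC p.1 (X p.2) ∈ Gd} ∪
        ({p | p.1 ∈ Gdᶜ} ∪ {p | xorC p.1 (X p.2) ∈ Gdᶜ}) := by
      intro p _
      by_cases h : p.1 ∈ Gd
      · by_cases h' : xorC p.1 (X p.2) ∈ Gd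
        · exact Or.inl ⟨h, h'⟩
        · exact Or.inr (Or.inr h')
      · exact Or.inr (Or.inl h)
    have h3 : (1 : ℝ≥0∞) ≤ ENNReal.ofReal (1 / 4) + ENNReal.ofReal (1 / 4) := by
      calc (1 : ℝ≥0∞) = (fairCoin.prod fairCoin) Set.univ := measure_univ.symm
        _ ≤ _ := measure_mono hcov
        _ ≤ 0 + ((fairCoin.prod fairCoin) {p | p.1 ∈ Gdᶜ} +
            (fairCoin.prod fairCoin) {p | xorC p.1 (X p.2) ∈ Gdᶜ}) := by
              refine (measure_union_le _ _).trans ?_
              rw [h0]
              gcongr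
              exact measure_union_le _ _
        _ ≤ _ := by rw [zero_add]; gcongr
    rw [← ENNReal.ofReal_add (by norm_num) (by norm_num)] at h3
    have h4 : (1 : ℝ≥0∞) = ENNReal.ofReal 1 := by simp
    rw [h4, ENNReal.ofReal_le_ofReal_iff (by norm_num)] at h3
    norm_num at h3
  -- main inclusion
  have hsub : ∀ᵐ p ∂(fairCoin.prod fairCoin), (p.1 ∈ Gd ∧ xorC p.1 (X p.2) ∈ Gd) →
      Red A'' (join A (join p.1 p.2)) := by
    filter_upwards [e1, e2, e3, e4] with p h1 h2 h3 h4 hp
    obtain ⟨hg1, hg2⟩ := hp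
    rw [hGd, Set.mem_setOf_eq] at hg1 hg2
    set R := put N z p.1 with hR
    set R' := put N z (xorC p.1 (X p.2)) with hR'
    have hB : Red (fun m => X p.2 (i m)) (join (F R) (F R')) := by
      have hb1 : Red (fun m => xor (R (i m)) (s m)) (join (F R) (F R')) :=
        red_trans hg1 (red_join_left _ _)
      have hb2 : Red (fun m => xor (R' (i m)) (s m)) (join (F R) (F R')) :=
        red_trans hg2 (red_join_right _ _)
      have hb3 := red_xor hb1 hb2
      have : xorC (fun m => xor (R (i m)) (s m)) (fun m => xor (R' (i m)) (s m)) =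
          fun m => X p.2 (i m) := by
        funext m
        have hm : ¬ i m < N := not_lt.mpr (hiN m)
        simp only [xorC, hR, hR', put, if_neg hm]
        cases p.1 (i m) <;> cases X p.2 (i m) <;> cases s m <;> rfl
      rwa [this] at hb3
    have hA : Red A (join (F R) (F R')) := red_trans h4 hB
    have hA2 : Red A'' (join R R') := by
      refine join_image π.symm (X := F R) (Y := F R') (Z := A) ?_ ?_ hA''' hA
      · rw [← h1]; simp
      · rw [← h2]; simp
    refine red_trans hA2 ?_
    have hYred : Red p.1 (join A (join p.1 p.2)) :=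
      red_trans (red_join_left _ _) (red_join_right _ _)
    have hQred : Red p.2 (join A (join p.1 p.2)) :=
      red_trans (red_join_right _ _) (red_join_right _ _)
    have hXred' : Red (X p.2) (join A (join p.1 p.2)) :=
      red_trans h3 (red_join (red_join_left _ _) hQred)
    have hput : ∀ B : Cantor, Red (put N z B) B := fun B =>
      red_of_eventually_eq N (fun n hn => by simp [put, not_lt.mpr hn])
    exact red_join (red_trans (hput _) hYred) (red_trans (hput _) (red_xor hYred hXred'))
  -- Sacks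
  have hs : 0 < fairCoin {U | Red A'' (join A U)} := by
    rw [pos_iff_ne_zero]
    intro h0
    apply hpos
    have hm : MeasurableSet {U : Cantor | Red A'' (join A U)} := by
      apply measurableSet_red measurable_const
      refine measurable_pi_lambda _ fun n => ?_
      unfold join
      split_ifs
      · exact measurable_const
      · exact measurable_pi_apply _
    have h5 := measurePreserving_join.measure_preimage hm.nullMeasurableSet
    rw [h0] at h5
    have h6 : ∀ᵐ p ∂(fairCoin.prod fairCoin), ¬ Red A'' (join A (join p.1 p.2)) := by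
      rw [ae_iff]; simpa using h5
    have h7 : ∀ᵐ p ∂(fairCoin.prod fairCoin), ¬ (p.1 ∈ Gd ∧ xorC p.1 (X p.2) ∈ Gd) := by
      filter_upwards [h6, hsub] with p ha hb hc
      exact ha (hb hc)
    rw [ae_iff] at h7
    simpa using h7
  rw [hA''', deg_le_deg]
  exact sacks A A'' hs

theorem main_mp (π : SetDegree ≃o SetDegree) (F : Cantor ≃ₜ Cantor)
    (hF : MeasurePreserving F fairCoin fairCoin)
    (hπ : ∀ᵐ A ∂fairCoin, π (deg A) = deg (F A)) (d : SetDegree) : π d = d := by
  have hFs : MeasurePreserving F.symm fairCoin fairCoin :=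
    MeasurePreserving.symm F.toMeasurableEquiv hF
  have hπs : ∀ᵐ B ∂fairCoin, π.symm (deg B) = deg (F.symm B) := by
    have := hFs.quasiMeasurePreserving.ae hπ
    filter_upwards [this] with B hB
    rw [F.apply_symm_apply] at hB
    rw [← hB]; simp
  apply le_antisymm
  · obtain ⟨A, rfl⟩ := deg_surj d
    have := key π.symm F.symm hFs hπs A
    simpa using this
  · obtain ⟨A, rfl⟩ := deg_surj d
    have := key π F hF hπ A
    rw [← π.le_iff_le] at this
    simpa using this

end Vale.Agent.P327
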