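import Vale.Agent.P327.Bor5
import Vale.Agent.P327.Main

/-! Automorphisms induced by nonsingular injective Borel maps are trivial. -/

open MeasureTheory
open scoped ENNReal

namespace Vale.Agent.P327

theorem red_put (N : ℕ) (z B : Cantor) : Red (put N z B) B :=
  red_of_eventually_eq N (fun n hn => by simp [put, not_lt.2 hn])

theorem keyB (π : SetDegree ≃o SetDegree) {F : Cantor → Cantor} {P : Set Cantor}
    (hP : MeasurableSet P)
    (hF : Measure.QuasiMeasurePreserving F (fairCoin.restrict P) fairCoin)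
    (hinj : Set.InjOn F P) (hpos : 0 < fairCoin P) (G : Cantor → Cantor) (hGm : Measurable G)
    (hG : ∀ A ∈ P, G (F A) = A)
    (hπ : ∀ᵐ A ∂fairCoin, A ∈ P → π (deg A) = deg (F A)) (A : Cantor) :
    π.symm (deg A) ≤ deg A := by
  have hFm : Measurable F := hF.measurable
  have hred : ∀ N0 z0, ∀ᵐ ω ∂fairCoin, Six P N0 z0 ω → Red (OutB F N0 z0 ω) (PhiF F ω) := by
    intro N0 z0
    have hpr : ∀ i : Fin 4, ∀ᵐ ω ∂fairCoin, pr i ω ∈ P → π (deg (pr i ω)) = deg (F (pr i ω)) :=
      fun i => (measurePreserving_pr i).quasiMeasurePreserving.ae hπ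
    have hx := mp_op1.quasiMeasurePreserving.ae (fairCoin_put_null N0 z0 hπ)
    have hxa := mp_op2.quasiMeasurePreserving.ae (fairCoin_put_null N0 z0 hπ)
    filter_upwards [hpr 0, hpr 1, hpr 2, hpr 3, hx, hxa] with ω h0 h1 h2 h3 hx hxa h6
    obtain ⟨s1, s2, s3⟩ := h6
    have hall : ∀ i, π (deg (pr i ω)) = deg (F (pr i ω)) := by
      intro i; fin_cases i
      · exact h0 (s1 0)
      · exact h1 (s1 1)
      · exact h2 (s1 2)
      · exact h3 (s1 3)
    have hp : ∀ i, Red (pr i ω) (J4 fun i => pr i ω) := by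
      intro i; rw [J4_pr]; exact red_pr i ω
    refine red_join ?_ ?_
    · exact J4_image π hall (hx s2) (red_trans (red_put _ _ _) (red_xor (hp 0) (hp 1)))
    · exact J4_image π hall (hxa s3) (red_trans (red_put _ _ _)
        (red_xor (hp 0) (red_and (hp 2) (hp 3))))
  obtain ⟨W, N0, z0, N', zz, D, L0, u, v, Gd', C, hnice⟩ := exists_ctx hP hF hinj hpos hred
  obtain ⟨N, z, i, s, hi, hiN, hgood⟩ := dictOfCtx C G hGm hG hnice
  obtain ⟨X, hXm, hXred, hXdec⟩ := bern A
  obtain ⟨A'', hA''⟩ := deg_surj (π.symm (deg A))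
  have hA''' : π.symm (deg A) = deg A'' := hA''.symm
  -- the good set
  set Gd : Set Cantor := {Y | put N z Y ∈ P ∧
    Red (fun m => xor (put N z Y (i m)) (s m)) (F (put N z Y))} with hGd
  have hGdm : MeasurableSet Gd := by
    refine MeasurableSet.inter (measurable_put N z hP) ?_
    apply measurableSet_red
    · refine measurable_pi_lambda _ fun m => ?_
      have h1 : Measurable fun Y : Cantor => put N z Y (i m) :=
        (measurable_pi_apply (i m)).comp (measurable_put N z)
      exact (measurable_of_countable (fun b : Bool => xor b (s m))).comp h1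
    · exact hFm.comp (measurable_put N z)
  have hT : MeasurePreserving (fun p : Cantor × Cantor => xorC p.1 (X p.2))
      (fairCoin.prod fairCoin) fairCoin := measurePreserving_xor_prod fairCoin X hXm
  have hfst : MeasurePreserving (Prod.fst : Cantor × Cantor → Cantor)
      (fairCoin.prod fairCoin) fairCoin := measurePreserving_fst
  have hsnd : MeasurePreserving (Prod.snd : Cantor × Cantor → Cantor)
      (fairCoin.prod fairCoin) fairCoin := measurePreserving_snd
  -- almost sure events
  have e1 : ∀ᵐ p ∂(fairCoin.prod fairCoin), put N z p.1 ∈ P →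
      π (deg (put N z p.1)) = deg (F (put N z p.1)) :=
    hfst.quasiMeasurePreserving.ae (fairCoin_put_null N z hπ)
  have e2 : ∀ᵐ p ∂(fairCoin.prod fairCoin), put N z (xorC p.1 (X p.2)) ∈ P →
      π (deg (put N z (xorC p.1 (X p.2)))) = deg (F (put N z (xorC p.1 (X p.2)))) :=
    hT.quasiMeasurePreserving.ae (fairCoin_put_null N z hπ)
  have e3 : ∀ᵐ p ∂(fairCoin.prod fairCoin), Red (X p.2) (join A p.2) :=
    hsnd.quasiMeasurePreserving.ae hXred
  have e4 : ∀ᵐ p ∂(fairCoin.prod fairCoin), Red A (fun m => X p.2 (i m)) :=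
    hsnd.quasiMeasurePreserving.ae (hXdec i hi)
  -- positivity
  have hpos2 : (fairCoin.prod fairCoin) {p | p.1 ∈ Gd ∧ xorC p.1 (X p.2) ∈ Gd} ≠ 0 := by
    intro h0
    have hc : fairCoin.real Gdᶜ ≤ 1 / 4 := by
      rw [probReal_compl_eq_one_sub hGdm]; linarith
    have hcov : (Set.univ : Set (Cantor × Cantor)) ⊆ {p | p.1 ∈ Gd ∧ xorC p.1 (X p.2) ∈ Gd} ∪
        (Prod.fst ⁻¹' Gdᶜ ∪ (fun p : Cantor × Cantor => xorC p.1 (X p.2)) ⁻¹' Gdᶜ) := by
      intro p _
      by_cases h : p.1 ∈ Gd
      · by_cases h' : xorC p.1 (X p.2) ∈ Gd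
        · exact Or.inl ⟨h, h'⟩
        · exact Or.inr (Or.inr h')
      · exact Or.inr (Or.inl h)
    have t1 := (measureReal_mono hcov (μ := fairCoin.prod fairCoin)).trans
      (measureReal_union_le _ _)
    have t2 := measureReal_union_le (μ := fairCoin.prod fairCoin)
      (Prod.fst ⁻¹' Gdᶜ) ((fun p : Cantor × Cantor => xorC p.1 (X p.2)) ⁻¹' Gdᶜ)
    rw [mp_real hfst hGdm.compl, mp_real hT hGdm.compl] at t2
    have t3 : (fairCoin.prod fairCoin).real {p | p.1 ∈ Gd ∧ xorC p.1 (X p.2) ∈ Gd} = 0 := by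
      unfold Measure.real; rw [h0]; rfl
    rw [t3, probReal_univ] at t1
    linarith
  -- main inclusion
  have hsub : ∀ᵐ p ∂(fairCoin.prod fairCoin), (p.1 ∈ Gd ∧ xorC p.1 (X p.2) ∈ Gd) →
      Red A'' (join A (join p.1 p.2)) := by
    filter_upwards [e1, e2, e3, e4] with p h1 h2 h3 h4 hp
    obtain ⟨⟨hq1, hg1⟩, ⟨hq2, hg2⟩⟩ := hp
    have h1 := h1 hq1
    have h2 := h2 hq2
    set R := put N z p.1 with hR
    set R' := put N z (xorC p.1 (X p.2)) with hR'
    have hB : Red (fun m => X p.2 (i m)) (join (F R) (F R')) := by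
      have hb1 : Red (fun m => xor (R (i m)) (s m)) (join (F R) (F R')) :=
        red_trans hg1 (red_join_left _ _)
      have hb2 : Red (fun m => xor (R' (i m)) (s m)) (join (F R) (F R')) :=
        red_trans hg2 (red_join_right _ _)
      have hb3 := red_xor hb1 hb2
      have : xorC (fun m => xor (R (i m)) (s m)) (fun m => xor (R' (i m)) (s m)) =
          fun m => X p.2 (i m) := by
        funext m
        have hm : ¬ i m < N := not_lt.mpr (hiN m)
        simp only [xorC, hR, hR', put, if_neg hm]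
        cases p.1 (i m) <;> cases X p.2 (i m) <;> cases s m <;> rfl
      rwa [this] at hb3
    have hA : Red A (join (F R) (F R')) := red_trans h4 hB
    have hA2 : Red A'' (join R R') := by
      refine join_image π.symm (X := F R) (Y := F R') (Z := A) ?_ ?_ hA''' hA
      · rw [← h1]; simp
      · rw [← h2]; simp
    refine red_trans hA2 ?_
    have hYred : Red p.1 (join A (join p.1 p.2)) :=
      red_trans (red_join_left _ _) (red_join_right _ _)
    have hQred : Red p.2 (join A (join p.1 p.2)) :=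
      red_trans (red_join_right _ _) (red_join_right _ _)
    have hXred' : Red (X p.2) (join A (join p.1 p.2)) :=
      red_trans h3 (red_join (red_join_left _ _) hQred)
    exact red_join (red_trans (red_put _ _ _) hYred)
      (red_trans (red_put _ _ _) (red_xor hYred hXred'))
  -- Sacks
  have hs : 0 < fairCoin {U | Red A'' (join A U)} := by
    rw [pos_iff_ne_zero]
    intro h0
    apply hpos2
    have hm : MeasurableSet {U : Cantor | Red A'' (join A U)} := by
      apply measurableSet_red measurable_const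
      refine measurable_pi_lambda _ fun n => ?_
      unfold join
      split_ifs
      · exact measurable_const
      · exact measurable_pi_apply _
    have h5 := measurePreserving_join.measure_preimage hm.nullMeasurableSet
    rw [h0] at h5
    have h6 : ∀ᵐ p ∂(fairCoin.prod fairCoin), ¬ Red A'' (join A (join p.1 p.2)) := by
      rw [ae_iff]; simpa using h5
    have h7 : ∀ᵐ p ∂(fairCoin.prod fairCoin), ¬ (p.1 ∈ Gd ∧ xorC p.1 (X p.2) ∈ Gd) := by
      filter_upwards [h6, hsub] with p ha hb hc
      exact ha (hb hc)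
    rw [ae_iff] at h7
    simpa using h7
  rw [hA''', deg_le_deg]
  exact sacks A A'' hs

/-- Rigidity for automorphisms that are induced on a set of positive measure by an injective
nonsingular Borel map. -/
theorem main_inj (π : SetDegree ≃o SetDegree) {F : Cantor → Cantor} {P : Set Cantor}
    (hP : MeasurableSet P)
    (hF : Measure.QuasiMeasurePreserving F (fairCoin.restrict P) fairCoin)
    (hinj : Set.InjOn F P) (hpos : 0 < fairCoin P)
    (hπ : ∀ᵐ A ∂fairCoin, A ∈ P → π (deg A) = deg (F A)) (d : SetDegree) : π d = d := by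
  obtain ⟨P', T, G, hPP, hPm, hPpos, hTm, hTpos, hGinj, hFG, hGF, hF', hG'⟩ :=
    two_sided hP hF hinj hpos
  have hFm : Measurable F := hF.measurable
  have hπ1 : ∀ᵐ A ∂fairCoin, A ∈ P' → π (deg A) = deg (F A) := by
    filter_upwards [hπ] with A hA hA'
    exact hA (hPP hA')
  have hπ2 : ∀ᵐ B ∂fairCoin, B ∈ T → π.symm (deg B) = deg (G B) := by
    have h1 : ∀ᵐ B ∂(fairCoin.restrict T), G B ∈ P' → π (deg (G B)) = deg (F (G B)) :=
      hG'.ae hπ1
    have h2 := (ae_restrict_iff' hTm).1 h1
    filter_upwards [h2] with B hB hBT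
    have h3 := hB hBT (hGF B hBT).1
    rw [(hGF B hBT).2] at h3
    rw [← h3]; simp
  have hk1 := keyB π hPm hF' (hinj.mono hPP) hPpos G hG'.measurable (fun A hA => (hFG A hA).2) hπ1
  have hk2 := keyB π.symm hTm hG' hGinj hTpos F hFm (fun B hB => (hGF B hB).2) hπ2
  apply le_antisymm
  · obtain ⟨A, rfl⟩ := deg_surj d
    have := hk2 A
    simpa using this
  · obtain ⟨A, rfl⟩ := deg_surj d
    have := hk1 A
    rw [← π.le_iff_le] at this
    simpa using this

end Vale.Agent.P327
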