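import Vale.Agent.P327.Bor6

/-! Removing the injectivity assumption, and weakening nonsingularity. -/

open MeasureTheory ProbabilityTheory
open scoped ENNReal

namespace Vale.Agent.P327

/-- There are only countably many sets of a given degree. -/
theorem countable_degree (d : SetDegree) : {B : Cantor | deg B = d}.Countable := by
  obtain ⟨A0, rfl⟩ := deg_surj d
  have h1 : {B : Cantor | deg B = deg A0} ⊆
      ⋃ W ∈ {W : Fnl | Good W}, {B : Cantor | Computes W A0 B} := by
    intro B hB
    have h2 : Red B A0 := ((deg_eq_deg B A0).1 hB).1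
    obtain ⟨W, hW, hc⟩ := (red_iff _ _).1 h2
    simp only [Set.mem_iUnion]
    exact ⟨W, hW, hc⟩
  refine Set.Countable.mono h1 (Set.Countable.biUnion countable_good fun W _ => ?_)
  refine Set.Subsingleton.countable ?_
  intro B hB B' hB'
  funext n
  exact (hB n (B' n)).2 ((hB' n (B' n)).1 rfl)

/-- A measurable map with countable fibres is injective on a set of positive measure. -/
theorem inj_piece {F : Cantor → Cantor} {P : Set Cantor} (hP : MeasurableSet P)
    (hFm : Measurable F) (hpos : 0 < fairCoin P)
    (hcount : ∀ S, {B | B ∈ P ∧ F B = S}.Countable) :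
    ∃ Q ⊆ P, MeasurableSet Q ∧ 0 < fairCoin Q ∧ Set.InjOn F Q := by
  set μ : Measure Cantor := fairCoin.restrict P with hμ
  have hgm : Measurable fun A : Cantor => (F A, A) := hFm.prodMk measurable_id
  set ρ : Measure (Cantor × Cantor) := μ.map fun A => (F A, A) with hρ
  have : IsFiniteMeasure ρ := by rw [hρ]; infer_instance
  set κ : Kernel Cantor Cantor := ρ.condKernel with hκ
  have hdis : ρ.fst ⊗ₘ κ = ρ := ρ.disintegrate _
  -- the kernel is concentrated on the fibres
  have hconc : ∀ᵐ S ∂ρ.fst, κ S {A | ¬ (A ∈ P ∧ F A = S)} = 0 := by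
    have hm : MeasurableSet {p : Cantor × Cantor | ¬ (p.2 ∈ P ∧ F p.2 = p.1)} := by
      refine MeasurableSet.compl (MeasurableSet.inter (measurable_snd hP) ?_)
      exact measurableSet_eq_fun (hFm.comp measurable_snd) measurable_fst
    have h0 : ρ {p : Cantor × Cantor | ¬ (p.2 ∈ P ∧ F p.2 = p.1)} = 0 := by
      rw [hρ, Measure.map_apply hgm hm]
      have h1 : (fun A : Cantor => (F A, A)) ⁻¹'
          {p : Cantor × Cantor | ¬ (p.2 ∈ P ∧ F p.2 = p.1)} = Pᶜ := by
        ext A; simp
      rw [h1, hμ, Measure.restrict_apply hP.compl]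
      simp
    rw [← hdis, Measure.compProd_apply hm,
      lintegral_eq_zero_iff (Kernel.measurable_kernel_prodMk_left hm)] at h0
    filter_upwards [h0] with S hS
    exact hS
  -- the diagonal
  have hdiag : MeasurableSet {q : (Cantor × Cantor) × Cantor | q.2 = q.1.2} :=
    measurableSet_eq_fun measurable_snd (measurable_snd.comp measurable_fst)
  have hmN : Measurable fun p : Cantor × Cantor => κ p.1 {p.2} := by
    set κ' : Kernel (Cantor × Cantor) Cantor := κ.comap Prod.fst measurable_fst with hκ'
    have h1 := Kernel.measurable_kernel_prodMk_left (κ := κ') hdiag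
    have h2 : (fun p : Cantor × Cantor => κ' p
        (Prod.mk p ⁻¹' {q : (Cantor × Cantor) × Cantor | q.2 = q.1.2})) =
        fun p : Cantor × Cantor => κ p.1 {p.2} := by
      funext p
      rw [hκ', Kernel.comap_apply]
      congr 1
    rwa [h2] at h1
  -- almost every point is an atom
  have hatom : ∀ᵐ A ∂μ, κ (F A) {A} ≠ 0 := by
    have hm : MeasurableSet {p : Cantor × Cantor | κ p.1 {p.2} = 0} :=
      hmN (measurableSet_singleton 0)
    have h0 : ρ {p : Cantor × Cantor | κ p.1 {p.2} = 0} = 0 := by
      rw [← hdis, Measure.compProd_apply hm,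
        lintegral_eq_zero_iff (Kernel.measurable_kernel_prodMk_left hm)]
      filter_upwards [hconc] with S hS
      have h1 : Prod.mk S ⁻¹' {p : Cantor × Cantor | κ p.1 {p.2} = 0} ⊆
          {A | ¬ (A ∈ P ∧ F A = S)} ∪ ⋃ A ∈ {B | B ∈ P ∧ F B = S}, {B | B = A ∧ κ S {A} = 0} := by
        intro A hA
        by_cases h2 : A ∈ P ∧ F A = S
        · right
          simp only [Set.mem_iUnion]
          exact ⟨A, h2, rfl, hA⟩
        · left; exact h2
      refine measure_mono_null h1 (measure_union_null hS ?_)
      rw [measure_biUnion_null_iff (hcount S)]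
      intro A _
      by_cases h3 : κ S {A} = 0
      · refine measure_mono_null ?_ h3
        rintro B ⟨rfl, -⟩; rfl
      · have : {B | B = A ∧ κ S {A} = 0} = ∅ := by
          ext B; simp [h3]
        rw [this, measure_empty]
    rw [hρ, Measure.map_apply hgm hm] at h0
    rw [ae_iff]
    simpa using h0
  have hatom' : ∀ᵐ A ∂fairCoin, A ∈ P → κ (F A) {A} ≠ 0 := (ae_restrict_iff' hP).1 hatom
  -- the pieces
  let U : ℕ × List Bool → Set Cantor := fun x =>
    {A | A ∈ P ∧ pre A x.1 = x.2 ∧ κ (F A) {B | pre B x.1 = x.2} < 2 * κ (F A) {A}}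
  have hUm : ∀ x, MeasurableSet (U x) := by
    intro x
    have hc : MeasurableSet {B : Cantor | pre B x.1 = x.2} :=
      measurableSet_pre x.1 (fun σ => σ = x.2)
    have m1 : Measurable fun A => κ (F A) {B | pre B x.1 = x.2} :=
      (κ.measurable_coe hc).comp hFm
    have m2 : Measurable fun A => κ (F A) {A} := hmN.comp hgm
    exact hP.inter (hc.inter (measurableSet_lt m1 (measurable_const.mul m2)))
  obtain ⟨x, hx⟩ : ∃ x, 0 < fairCoin (U x) := by
    by_contra hcon
    push Not at hcon
    have h4 : fairCoin (⋃ x, U x) = 0 :=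
      measure_iUnion_null fun x => le_antisymm (hcon x) zero_le
    apply hpos.ne'
    refine measure_mono_null (t := (⋃ x, U x) ∪ {A | ¬ (A ∈ P → κ (F A) {A} ≠ 0)}) ?_
      (measure_union_null h4 (ae_iff.1 hatom'))
    intro A hA
    by_cases hb : A ∈ P → κ (F A) {A} ≠ 0
    · left
      have ha := hb hA
      -- the cylinders shrink to the point
      have hinter : ⋂ n, {B : Cantor | pre B n = pre A n} = {A} := by
        ext B
        simp only [Set.mem_iInter, Set.mem_ofPred_eq, Set.mem_singleton_iff]
        constructor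
        · intro h
          funext n
          exact (pre_eq_iff.1 (h (n + 1))) n (by omega)
        · rintro rfl n; rfl
      have hanti : Antitone fun n => {B : Cantor | pre B n = pre A n} := by
        intro m n hmn B hB
        simp only [Set.mem_ofPred_eq, pre_eq_iff] at hB ⊢
        exact fun k hk => hB k (lt_of_lt_of_le hk hmn)
      have htend := tendsto_measure_iInter_atTop (μ := κ (F A))
        (s := fun n => {B : Cantor | pre B n = pre A n})
        (fun n => (measurableSet_pre n (fun σ => σ = pre A n)).nullMeasurableSet) hanti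
        ⟨0, measure_ne_top _ _⟩
      rw [hinter] at htend
      have hlt : κ (F A) {A} < 2 * κ (F A) {A} := by
        rw [two_mul]
        exact ENNReal.lt_add_right (measure_ne_top _ _) ha
      obtain ⟨n, hn⟩ := (htend.eventually (gt_mem_nhds hlt)).exists
      rw [Set.mem_iUnion]
      exact ⟨(n, pre A n), hA, rfl, hn⟩
    · right; exact hb
  refine ⟨U x, fun A hA => hA.1, hUm x, hx, ?_⟩
  intro A hA B hB hAB
  by_contra hne
  obtain ⟨-, hA1, hA2⟩ := hA
  obtain ⟨-, hB1, hB2⟩ := hB
  rw [← hAB] at hB2
  have h1 : κ (F A) ({A} ∪ {B}) ≤ κ (F A) {B | pre B x.1 = x.2} := by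
    refine measure_mono ?_
    rintro C (rfl | rfl)
    · exact hA1
    · exact hB1
  rw [measure_union (Set.disjoint_singleton.2 hne) (measurableSet_singleton B)] at h1
  have h2 := ENNReal.add_lt_add hA2 hB2
  have h3 : κ (F A) {B | pre B x.1 = x.2} + κ (F A) {B | pre B x.1 = x.2} <
      κ (F A) {B | pre B x.1 = x.2} + κ (F A) {B | pre B x.1 = x.2} := by
    refine lt_of_lt_of_le h2 ?_
    calc 2 * κ (F A) {A} + 2 * κ (F A) {B}
        = (κ (F A) {A} + κ (F A) {B}) + (κ (F A) {A} + κ (F A) {B}) := by ring
      _ ≤ _ := add_le_add h1 h1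
  exact lt_irrefl _ h3

/-- Rigidity for automorphisms represented on a measurable set by a measurable map whose image
measure is not singular. -/
theorem main_borel (π : SetDegree ≃o SetDegree) {F : Cantor → Cantor} (hFm : Measurable F)
    {P : Set Cantor} (hP : MeasurableSet P)
    (hns : ¬ (((fairCoin.restrict P).map F) ⟂ₘ fairCoin))
    (hπ : ∀ᵐ A ∂fairCoin, A ∈ P → π (deg A) = deg (F A)) (d : SetDegree) : π d = d := by
  -- remove a null set
  set N := toMeasurable fairCoin {A | ¬ (A ∈ P → π (deg A) = deg (F A))} with hN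
  have hNm : MeasurableSet N := measurableSet_toMeasurable _ _
  have hN0 : fairCoin N = 0 := by rw [hN, measure_toMeasurable]; exact ae_iff.1 hπ
  set P1 := P \ N with hP1
  have hP1m : MeasurableSet P1 := hP.diff hNm
  have hres : fairCoin.restrict P1 = fairCoin.restrict P := by
    apply Measure.restrict_congr_set
    exact diff_null_ae_eq_self hN0
  rw [← hres] at hns
  have hπ1 : ∀ A ∈ P1, π (deg A) = deg (F A) := by
    rintro A ⟨hA, hAN⟩
    by_contra hcon
    exact hAN (subset_toMeasurable _ _ (fun h => hcon (h hA)))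
  -- remove the singular part
  set ν := (fairCoin.restrict P1).map F with hν
  have : IsFiniteMeasure ν := by rw [hν]; infer_instance
  have hLD : ν.HaveLebesgueDecomposition fairCoin :=
    Measure.haveLebesgueDecomposition_of_sigmaFinite ν fairCoin
  obtain ⟨s, hs, hs1, hs2⟩ := Measure.mutuallySingular_singularPart ν fairCoin
  have hdec := Measure.haveLebesgueDecomposition_add ν fairCoin
  have hac : ∀ E : Set Cantor, MeasurableSet E → fairCoin E = 0 → ν (s ∩ E) = 0 := by
    intro E hE h0
    rw [hdec, Measure.add_apply]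
    have h1 : (ν.singularPart fairCoin) (s ∩ E) = 0 := measure_mono_null Set.inter_subset_left hs1
    have h2 : (fairCoin.withDensity (ν.rnDeriv fairCoin)) (s ∩ E) = 0 :=
      (withDensity_absolutelyContinuous _ _) (measure_mono_null Set.inter_subset_right h0)
    rw [h1, h2, add_zero]
  set P2 := P1 ∩ F ⁻¹' s with hP2
  have hP2m : MeasurableSet P2 := hP1m.inter (hFm hs)
  have hνE : ∀ E : Set Cantor, MeasurableSet E → ν (s ∩ E) = fairCoin (P2 ∩ F ⁻¹' E) := by
    intro E hE
    rw [hν, Measure.map_apply hFm (hs.inter hE), Measure.restrict_apply (hFm (hs.inter hE))]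
    congr 1
    ext A
    simp only [hP2, Set.mem_inter_iff, Set.mem_preimage]
    tauto
  have hP2pos : 0 < fairCoin P2 := by
    rw [pos_iff_ne_zero]
    intro h0
    apply hns
    refine ⟨s, hs, ?_, hs2⟩
    have := hνE Set.univ MeasurableSet.univ
    rw [Set.inter_univ, Set.preimage_univ, Set.inter_univ, h0] at this
    exact this
  have hcount : ∀ S, {B | B ∈ P2 ∧ F B = S}.Countable := by
    intro S
    refine (countable_degree (π.symm (deg S))).mono ?_
    rintro B ⟨hB, rfl⟩
    show deg B = _
    rw [← hπ1 B hB.1]; simp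
  obtain ⟨Q, hQP, hQm, hQpos, hQinj⟩ := inj_piece hP2m hFm hP2pos hcount
  have hQF : Measure.QuasiMeasurePreserving F (fairCoin.restrict Q) fairCoin := by
    refine ⟨hFm, Measure.AbsolutelyContinuous.mk fun E hE h0 => ?_⟩
    rw [Measure.map_apply hFm hE, Measure.restrict_apply (hFm hE)]
    have h1 := hac E hE h0
    rw [hνE E hE] at h1
    refine measure_mono_null ?_ h1
    rintro A ⟨ha, hb⟩
    exact ⟨hQP hb, ha⟩
  exact main_inj π hQm hQF hQinj hQpos
    (Filter.Eventually.of_forall fun A hA => hπ1 A (hQP hA).1) d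

end Vale.Agent.P327
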