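import Vale.Agent.P327.Bor7

/-! The dichotomy: an automorphism with a Borel representation is trivial or carries almost every
degree into a fixed null set. -/

open MeasureTheory
open scoped ENNReal

namespace Vale.Agent.P327

open Classical in
/-- The set computed by the functional `W` from `F A`. -/
noncomputable def FW (W : Fnl) (F : Cantor → Cantor) (A : Cantor) : Cantor := fun n =>
  decide (∃ j, W (pre (F A) j) n true)

theorem measurable_FW (W : Fnl) {F : Cantor → Cantor} (hF : Measurable F) :
    Measurable (FW W F) := by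
  refine measurable_pi_lambda _ fun n => ?_
  refine measurable_to_countable' fun b => ?_
  have h1 : MeasurableSet {A | ∃ j, W (pre (F A) j) n true} :=
    hF (measurableSet_exists_pre (fun σ => W σ n true))
  cases b
  · have : (fun A => FW W F A n) ⁻¹' {false} = {A | ∃ j, W (pre (F A) j) n true}ᶜ := by
      ext A; simp [FW]
    rw [this]; exact h1.compl
  · have : (fun A => FW W F A n) ⁻¹' {true} = {A | ∃ j, W (pre (F A) j) n true} := by
      ext A; simp [FW]
    rw [this]; exact h1

theorem FW_eq {W : Fnl} {F : Cantor → Cantor} {A B : Cantor} (h : Computes W (F A) B) :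
    FW W F A = B := by
  funext n
  unfold FW
  have h1 := h n true
  cases hB : B n
  · simp only [decide_eq_false_iff_not]
    rw [← h1, hB]; simp
  · simp only [decide_eq_true_eq]
    rw [← h1, hB]

theorem dichotomy (π : SetDegree ≃o SetDegree) {F : Cantor → Cantor} (hF : Measurable F)
    {P : Set Cantor} (hP : MeasurableSet P) (hπ : ∀ A ∈ P, π (deg A) = deg (F A)) :
    (∀ d : SetDegree, π d = d) ∨ ∃ N : Set Cantor, fairCoin N = 0 ∧
      ∀ᵐ A ∂fairCoin, A ∈ P → ∀ B, deg B = π (deg A) → B ∈ N := by
  by_cases hid : ∀ d : SetDegree, π d = d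
  · exact Or.inl hid
  right
  -- the pieces
  let PW : Fnl → Set Cantor := fun W =>
    P ∩ ({A | Computes W (F A) (FW W F A)} ∩ {A | Red (F A) (FW W F A)})
  have hPWm : ∀ W, MeasurableSet (PW W) := fun W =>
    hP.inter ((measurableSet_computes W (measurable_FW W hF) hF).inter
      (measurableSet_red hF (measurable_FW W hF)))
  have hsing : ∀ W, ∃ N : Set Cantor, Good W → fairCoin N = 0 ∧
      ∀ᵐ A ∂fairCoin, A ∈ PW W → FW W F A ∈ N := by
    intro W
    by_cases hg : Good W
    · have hms : Measure.MutuallySingular ((fairCoin.restrict (PW W)).map (FW W F)) fairCoin := by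
        by_contra hns
        apply hid
        refine fun d => main_borel π (measurable_FW W hF) (hPWm W) hns
          (Filter.Eventually.of_forall ?_) d
        rintro A ⟨hA, h1, h2⟩
        rw [hπ A hA, deg_eq_deg]
        exact ⟨h2, (red_iff _ _).2 ⟨W, hg, h1⟩⟩
      obtain ⟨s, hs, hs1, hs2⟩ := hms
      refine ⟨sᶜ, fun _ => ⟨hs2, ?_⟩⟩
      rw [Measure.map_apply (measurable_FW W hF) hs,
        Measure.restrict_apply (measurable_FW W hF hs)] at hs1
      rw [ae_iff]
      refine measure_mono_null ?_ hs1
      intro A hA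
      simp only [Set.mem_ofPred_eq, Classical.not_imp, Set.mem_compl_iff, not_not] at hA
      exact ⟨hA.2, hA.1⟩
    · exact ⟨∅, fun h => absurd h hg⟩
  choose NW hNW using hsing
  refine ⟨⋃ W ∈ {W : Fnl | Good W}, NW W, ?_, ?_⟩
  · rw [measure_biUnion_null_iff countable_good]
    exact fun W hW => (hNW W hW).1
  · have hall : ∀ᵐ A ∂fairCoin, ∀ W ∈ {W : Fnl | Good W}, A ∈ PW W → FW W F A ∈ NW W :=
      (ae_ball_iff countable_good).2 fun W hW => (hNW W hW).2
    filter_upwards [hall] with A hA hAP B hB
    rw [hπ A hAP, deg_eq_deg] at hB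
    obtain ⟨W, hW, hc⟩ := (red_iff _ _).1 hB.1
    have hFW := FW_eq hc
    have h3 : A ∈ PW W := by
      refine ⟨hAP, ?_, ?_⟩
      · show Computes W (F A) (FW W F A)
        rw [hFW]; exact hc
      · show Red (F A) (FW W F A)
        rw [hFW]; exact hB.2
    have h4 := hA W hW h3
    rw [hFW] at h4
    simp only [Set.mem_iUnion]
    exact ⟨W, hW, h4⟩

end Vale.Agent.P327
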