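import Vale.Agent.P327.Basic

/-! Clopen sets of Cantor space are determined by finitely many bits. -/

open MeasureTheory

namespace Vale.Agent.P327

theorem pre_eq_iff {A B : Cantor} {j : ℕ} : pre A j = pre B j ↔ ∀ n < j, A n = B n := by
  unfold pre
  rw [List.map_inj_left]
  simp

@[simp] theorem pre_getD (A : Cantor) (j n : ℕ) (h : n < j) : (pre A j).getD n false = A n := by
  simp [pre, List.getD, h]

theorem pre_take (A : Cantor) {i j : ℕ} (h : i ≤ j) : (pre A j).take i = pre A i := by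
  obtain ⟨t, ht⟩ := pre_prefix A h
  rw [← ht]
  rw [List.take_append_of_le_length (by simp)]
  rw [List.take_of_length_le (by simp)]

/-- Extend a string by zeros. -/
def ext0 (σ : List Bool) : Cantor := fun n => σ.getD n false

theorem pre_ext0 (σ : List Bool) : pre (ext0 σ) σ.length = σ := by
  apply List.ext_getElem
  · simp
  · intro n h1 h2
    simp [pre, ext0, List.getD, h2]

theorem ext0_pre (A : Cantor) (j n : ℕ) (h : n < j) : ext0 (pre A j) n = A n :=
  pre_getD A j n h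

theorem exists_pre_of_clopen {s : Set Cantor} (hs : IsClopen s) :
    ∃ L, ∀ Z Z' : Cantor, pre Z L = pre Z' L → (Z ∈ s ↔ Z' ∈ s) := by
  have key : ∀ t : Set Cantor, IsOpen t → ∀ Z ∈ t, ∃ n, ∀ Z', (∀ k < n, Z' k = Z k) → Z' ∈ t := by
    intro t ht Z hZ
    have h1 := (PiNat.isTopologicalBasis_cylinders (fun _ : ℕ => Bool)).exists_subset_of_mem_open
      hZ ht
    obtain ⟨v, ⟨x, n, rfl⟩, hv, hvt⟩ := h1
    refine ⟨n, fun Z' hZ' => hvt ?_⟩
    rw [PiNat.mem_cylinder_iff] at hv ⊢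
    intro i hi
    rw [hZ' i hi, hv i hi]
  have h2 : ∀ Z : Cantor, ∃ n, ∀ Z', (∀ k < n, Z' k = Z k) → (Z' ∈ s ↔ Z ∈ s) := by
    intro Z
    by_cases hZ : Z ∈ s
    · obtain ⟨n, hn⟩ := key s hs.isOpen Z hZ
      exact ⟨n, fun Z' h => ⟨fun _ => hZ, fun _ => hn Z' h⟩⟩
    · obtain ⟨n, hn⟩ := key sᶜ hs.compl.isOpen Z hZ
      exact ⟨n, fun Z' h => ⟨fun h' => absurd h' (hn Z' h), fun h' => absurd h' hZ⟩⟩
  choose n hn using h2
  obtain ⟨T, hT⟩ := (isCompact_univ : IsCompact (Set.univ : Set Cantor)).elim_nhds_subcover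
    (fun Z => PiNat.cylinder Z (n Z))
    (fun Z _ => (PiNat.isOpen_cylinder _ Z (n Z)).mem_nhds (PiNat.self_mem_cylinder Z _))
  refine ⟨T.sup n, fun Z Z' h => ?_⟩
  rw [pre_eq_iff] at h
  have := hT.2 (Set.mem_univ Z)
  simp only [Set.mem_iUnion] at this
  obtain ⟨x, hx, hZ⟩ := this
  rw [PiNat.mem_cylinder_iff] at hZ
  have hle : n x ≤ T.sup n := Finset.le_sup hx
  rw [hn x Z hZ, hn x Z' fun k hk => by rw [← h k (lt_of_lt_of_le hk hle)]; exact hZ k hk]

/-- All binary strings of length `L`. -/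
def allStr : ℕ → List (List Bool)
  | 0 => [[]]
  | L + 1 => (allStr L).flatMap fun σ => [σ ++ [false], σ ++ [true]]

theorem mem_allStr {L : ℕ} {σ : List Bool} : σ ∈ allStr L ↔ σ.length = L := by
  induction L generalizing σ with
  | zero => simp [allStr]
  | succ L ih =>
    simp only [allStr, List.mem_flatMap, ih, List.mem_cons, List.not_mem_nil, or_false]
    constructor
    · rintro ⟨a, rfl, rfl | rfl⟩ <;> simp
    · intro h
      rcases List.eq_nil_or_concat σ with rfl | ⟨τ, b, rfl⟩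
      · simp at h
      · refine ⟨τ, by simpa using h, ?_⟩
        cases b <;> simp

theorem exists_list_of_clopen {s : Set Cantor} (hs : IsClopen s) :
    ∃ (L : ℕ) (D : List (List Bool)), ∀ Z, pre Z L ∈ D ↔ Z ∈ s := by
  classical
  obtain ⟨L, hL⟩ := exists_pre_of_clopen hs
  refine ⟨L, (allStr L).filter fun σ => decide (ext0 σ ∈ s), fun Z => ?_⟩
  rw [List.mem_filter, mem_allStr]
  simp only [pre_length, decide_eq_true_eq, true_and]
  apply hL
  rw [pre_eq_iff]
  intro n hn
  exact ext0_pre Z L n hn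

end Vale.Agent.P327
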