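import Mathlib

open MeasureTheory

namespace Vale.Agent.P327

/-- Cantor space. A set of natural numbers is identified with its characteristic function. -/
abbrev Cantor : Type := ℕ → Bool

/-- The characteristic function of a set, as a total function with values in the naturals. -/
def chi (A : Cantor) : ℕ →. ℕ := fun n => Part.some (A n).toNat

/-- Turing reducibility between sets (Mathlib's `TuringReducible`). -/
def Red (A B : Cantor) : Prop := TuringReducible (chi A) (chi B)

/-- The Turing degree (in the sense of Mathlib). -/
def degT (f : ℕ →. ℕ) : TuringDegree := toAntisymmetrization TuringReducible f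

/-- The Turing degrees of sets of natural numbers, ordered as in Mathlib. -/
def SetDegree : Type := {d : TuringDegree // ∃ A : Cantor, degT (chi A) = d}

instance : PartialOrder SetDegree :=
  inferInstanceAs (PartialOrder {d : TuringDegree // ∃ A : Cantor, degT (chi A) = d})

/-- The degree of a set. -/
def deg (A : Cantor) : SetDegree := ⟨degT (chi A), A, rfl⟩

/-- The fair coin measure on Cantor space. -/
noncomputable def fairCoin : Measure Cantor :=
  Measure.infinitePi fun _ : ℕ => (PMF.uniformOfFintype Bool).toMeasure

/-- A map of Cantor space is uniformly `E₀`-invariant if for every `n` there is `m` such that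
sequences which agree from `n` on are mapped to sequences which agree from `m` on. -/
def UniformlyE0Invariant (F : Cantor → Cantor) : Prop :=
  ∀ n : ℕ, ∃ m : ℕ, ∀ A B : Cantor, (∀ k, n ≤ k → A k = B k) → ∀ k, m ≤ k → F A k = F B k

theorem deg_le_deg (A B : Cantor) : deg A ≤ deg B ↔ Red A B := by
  show degT (chi A) ≤ degT (chi B) ↔ _
  exact Iff.rfl

theorem deg_surj (d : SetDegree) : ∃ A, deg A = d := by
  obtain ⟨d, A, rfl⟩ := d
  exact ⟨A, rfl⟩

theorem deg_eq_deg (A B : Cantor) : deg A = deg B ↔ Red A B ∧ Red B A := by
  rw [le_antisymm_iff, deg_le_deg, deg_le_deg]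

instance : IsProbabilityMeasure fairCoin := by
  unfold fairCoin; infer_instance

end Vale.Agent.P327
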