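import Vale.Agent.P327.RE
import Vale.Agent.P327.Clopen

/-! String level tests. -/

open MeasureTheory

namespace Vale.Agent.P327

/-- Candidates: a length and four lists of strings (standing for Boolean functions). -/
abbrev Cand : Type :=
  ℕ × List (List Bool) × List (List Bool) × List (List Bool) × List (List Bool)

/-- Boolean function of the first `k` bits given by a list of strings. -/
def val (k : ℕ) (f : List (List Bool)) (A : Cantor) : Bool := decide (pre A k ∈ f)

/-- A generic test about the oracle string `σ` and the output of the functional `W`. -/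
def TS {α : Type*} (W : Fnl) (K L : α → ℕ) (g : α × List Bool × List Bool → Bool) (a : α)
    (σ : List Bool) : Prop :=
  L a ≤ σ.length ∧ ∃ u : List Bool, u.length = K a ∧
    (∀ n ∈ List.range (K a), W σ n (u.getD n false)) ∧ g (a, u, σ.take (L a)) = true

section
variable {α : Type*} [Primcodable α] {W : Fnl} {K L : α → ℕ}
  {g : α × List Bool × List Bool → Bool}

theorem TS_re (hW : Good W) (hK : Computable K) (hL : Computable L) (hg : Computable g) :
    REPred fun x : α × List Bool => TS W K L g x.1 x.2 := by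
  unfold TS
  refine re_and ?_ (re_exists (p := fun (x : α × List Bool) (u : List Bool) =>
    u.length = K x.1 ∧ (∀ n ∈ List.range (K x.1), W x.2 n (u.getD n false)) ∧
      g (x.1, u, x.2.take (L x.1)) = true) (re_and ?_ (re_and ?_ ?_)))
  · have h1 : ComputablePred fun x : α × List Bool => L x.1 ≤ x.2.length := by
      refine Computable.computablePred ?_
      exact (Primrec.nat_le.decide.to_comp).comp (hL.comp Computable.fst)
        (Computable.list_length.comp Computable.snd)
    exact h1.to_re
  · have h1 : ComputablePred fun x : (α × List Bool) × List Bool => x.2.length = K x.1.1 := by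
      refine Computable.computablePred ?_
      exact (Primrec.eq.decide.to_comp).comp (Computable.list_length.comp Computable.snd)
        (hK.comp (Computable.fst.comp Computable.fst))
    exact h1.to_re
  · refine re_forall_mem (p := fun (x : (α × List Bool) × List Bool) (n : ℕ) =>
      W x.1.2 n (x.2.getD n false)) ?_ ?_
    · refine re_comp hW.re (f := fun x : ((α × List Bool) × List Bool) × ℕ =>
        (x.1.1.2, x.2, x.1.2.getD x.2 false)) ?_
      refine (Computable.snd.comp (Computable.fst.comp Computable.fst)).pair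
        (Computable.snd.pair ?_)
      exact (Primrec.list_getD false).to_comp.comp (Computable.snd.comp Computable.fst)
        Computable.snd
    · exact (Primrec.list_range.to_comp).comp (hK.comp (Computable.fst.comp Computable.fst))
  · apply re_of_computable
    refine hg.comp ((Computable.fst.comp Computable.fst).pair (Computable.snd.pair ?_))
    exact (Primrec.list_take.to_comp).comp (hL.comp (Computable.fst.comp Computable.fst))
      (Computable.snd.comp Computable.fst)

theorem TS_mono (hW : Good W) (a : α) (σ τ : List Bool) (h : σ <+: τ)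
    (hσ : TS W K L g a σ) : TS W K L g a τ := by
  obtain ⟨h1, u, h2, h3, h4⟩ := hσ
  refine ⟨h1.trans h.length_le, u, h2, fun n hn => hW.mono _ _ _ _ h (h3 n hn), ?_⟩
  obtain ⟨t, rfl⟩ := h
  rwa [List.take_append_of_le_length h1]

theorem TS_iff (hW : Good W) (a : α) {Z O : Cantor} (hO : Computes W Z O) :
    (∃ j, TS W K L g a (pre Z j)) ↔ g (a, pre O (K a), pre Z (L a)) = true := by
  constructor
  · rintro ⟨j, h1, u, h2, h3, h4⟩
    have hu : u = pre O (K a) := by
      apply List.ext_getElem
      · simp [h2]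
      · intro n hn1 hn2
        have := h3 n (by simpa [h2] using hn1)
        have h5 := (hO n (u.getD n false)).2 ⟨j, this⟩
        simp only [pre, List.getElem_map, List.getElem_range]
        rw [h5]
        simp [List.getD, hn1]
    rw [pre_length] at h1
    rw [pre_take _ h1, hu] at h4
    exact h4
  · intro h
    have : ∀ n, ∃ j, W (pre Z j) n (O n) := fun n => (hO n (O n)).1 rfl
    choose J hJ using this
    refine ⟨max (L a) ((Finset.range (K a)).sup J), ?_, pre O (K a), by simp, ?_, ?_⟩
    · simp
    · intro n hn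
      have hn' : n < K a := by simpa using hn
      rw [pre_getD _ _ _ hn']
      refine hW.mono _ _ _ _ (pre_prefix Z ?_) (hJ n)
      exact le_max_of_le_right (Finset.le_sup (f := J) (Finset.mem_range.2 hn'))
    · rwa [pre_take _ (le_max_left _ _)]

theorem TS_take (a : α) (j : ℕ) (Z : Cantor) (h : TS W K L g a (pre Z j)) :
    ∃ u, g (a, u, pre Z (L a)) = true := by
  obtain ⟨h1, u, -, -, h4⟩ := h
  rw [pre_length] at h1
  rw [pre_take _ h1] at h4
  exact ⟨u, h4⟩

end

/-- Column `i` of four. -/
def colw (i k : ℕ) (w : List Bool) : List Bool :=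
  (List.range k).map fun n => w.getD (4 * n + i) false

/-- Column `e` of two. -/
def colu (e k : ℕ) (w : List Bool) : List Bool :=
  (List.range k).map fun n => w.getD (2 * n + e) false

/-- The parameters of tests. -/
abbrev Par : Type := Cand × Cand × Bool

/-- The bits on which our tests depend. -/
def bits (x : Par × List Bool × List Bool) : Bool × Bool × Bool × Bool × Bool × Bool :=
  (decide (colw 0 x.1.1.1 x.2.2 ∈ x.1.1.2.1),
   decide (colw 1 x.1.1.1 x.2.2 ∈ x.1.1.2.2.1),
   decide (colu 0 x.1.1.1 x.2.1 ∈ x.1.1.2.2.2.1),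
   decide (colu 1 x.1.1.1 x.2.1 ∈ x.1.1.2.2.2.2),
   decide (colw 0 x.1.2.1.1 x.2.2 ∈ x.1.2.1.2.1),
   x.1.2.2)

/-- The semantic version of `bits`. -/
def sem (a : Par) (P0 P1 Px Pa : Cantor) : Bool × Bool × Bool × Bool × Bool × Bool :=
  (val a.1.1 a.1.2.1 P0, val a.1.1 a.1.2.2.1 P1, val a.1.1 a.1.2.2.2.1 Px,
    val a.1.1 a.1.2.2.2.2 Pa, val a.2.1.1 a.2.1.2.1 P0, a.2.2)

/-- Number of output bits used. -/
def KK (a : Par) : ℕ := 2 * a.1.1
/-- Number of input bits used. -/
def LL (L0 : ℕ) (a : Par) : ℕ := L0 + 4 * (a.1.1 + a.2.1.1)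

/-- The Boolean test function. -/
def gg (D : List (List Bool)) (L0 : ℕ) (h : Bool × Bool × Bool × Bool × Bool × Bool → Bool)
    (x : Par × List Bool × List Bool) : Bool :=
  decide (x.2.2.take L0 ∈ D) && h (bits x)

theorem colw_pre (i : Fin 4) (k l : ℕ) (Z : Cantor) (h : 4 * k ≤ l) :
    colw i k (pre Z l) = pre (pr i Z) k := by
  unfold colw
  show _ = (List.range k).map (pr i Z)
  apply List.map_congr_left
  intro n hn
  have hn' : n < k := by simpa using hn
  have hi := i.2
  rw [pre_getD _ _ _ (by omega)]
  rfl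

theorem colu_pre0 (k l : ℕ) (Z : Cantor) (h : 2 * k ≤ l) :
    colu 0 k (pre Z l) = pre (ev Z) k := by
  unfold colu
  show _ = (List.range k).map (ev Z)
  apply List.map_congr_left
  intro n hn
  have hn' : n < k := by simpa using hn
  rw [pre_getD _ _ _ (by omega)]
  rfl

theorem colu_pre1 (k l : ℕ) (Z : Cantor) (h : 2 * k ≤ l) :
    colu 1 k (pre Z l) = pre (od Z) k := by
  unfold colu
  show _ = (List.range k).map (od Z)
  apply List.map_congr_left
  intro n hn
  have hn' : n < k := by simpa using hn
  rw [pre_getD _ _ _ (by omega)]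
  rfl

theorem bits_eq (a : Par) (L0 : ℕ) (Z O : Cantor) :
    bits (a, pre O (KK a), pre Z (LL L0 a)) = sem a (pr 0 Z) (pr 1 Z) (ev O) (od O) := by
  unfold bits sem val
  have h0 := colw_pre 0 a.1.1 (LL L0 a) Z (by unfold LL; omega)
  have h1 := colw_pre 1 a.1.1 (LL L0 a) Z (by unfold LL; omega)
  have h0' := colw_pre 0 a.2.1.1 (LL L0 a) Z (by unfold LL; omega)
  have h2 := colu_pre0 a.1.1 (KK a) O (by unfold KK; omega)
  have h3 := colu_pre1 a.1.1 (KK a) O (by unfold KK; omega)
  simp only [Fin.val_zero, Fin.val_one] at h0 h1 h0'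
  simp only [h0, h1, h0', h2, h3]

section prim

theorem prim_mem : Primrec₂ fun (x : List Bool) (l : List (List Bool)) => decide (x ∈ l) := by
  have h := (PrimrecRel.exists_mem_list (Primrec.eq (α := List Bool))).decide
  refine Primrec.of_eq (h.comp Primrec.snd Primrec.fst) ?_
  rintro ⟨x, l⟩
  simp

theorem prim_colw (i : ℕ) : Primrec₂ (colw i) := by
  unfold colw
  refine Primrec.list_map (Primrec.list_range.comp Primrec.fst) ?_
  refine (Primrec.list_getD false).comp (Primrec.snd.comp Primrec.fst) ?_
  exact Primrec.nat_add.comp (Primrec.nat_mul.comp (Primrec.const 4) Primrec.snd)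
    (Primrec.const i)

theorem prim_colu (e : ℕ) : Primrec₂ (colu e) := by
  unfold colu
  refine Primrec.list_map (Primrec.list_range.comp Primrec.fst) ?_
  refine (Primrec.list_getD false).comp (Primrec.snd.comp Primrec.fst) ?_
  exact Primrec.nat_add.comp (Primrec.nat_mul.comp (Primrec.const 2) Primrec.snd)
    (Primrec.const e)

theorem prim_bits : Primrec bits := by
  unfold bits
  have p11 : Primrec fun x : Par × List Bool × List Bool => x.1.1 :=
    Primrec.fst.comp Primrec.fst
  have p12 : Primrec fun x : Par × List Bool × List Bool => x.1.2.1 :=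
    Primrec.fst.comp (Primrec.snd.comp Primrec.fst)
  have pu : Primrec fun x : Par × List Bool × List Bool => x.2.1 :=
    Primrec.fst.comp Primrec.snd
  have pw : Primrec fun x : Par × List Bool × List Bool => x.2.2 :=
    Primrec.snd.comp Primrec.snd
  have k1 : Primrec fun x : Par × List Bool × List Bool => x.1.1.1 := Primrec.fst.comp p11
  have k2 : Primrec fun x : Par × List Bool × List Bool => x.1.2.1.1 := Primrec.fst.comp p12
  refine Primrec.pair (prim_mem.comp ((prim_colw 0).comp k1 pw)
    (Primrec.fst.comp (Primrec.snd.comp p11))) ?_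
  refine Primrec.pair (prim_mem.comp ((prim_colw 1).comp k1 pw)
    (Primrec.fst.comp (Primrec.snd.comp (Primrec.snd.comp p11)))) ?_
  refine Primrec.pair (prim_mem.comp ((prim_colu 0).comp k1 pu)
    (Primrec.fst.comp (Primrec.snd.comp (Primrec.snd.comp (Primrec.snd.comp p11))))) ?_
  refine Primrec.pair (prim_mem.comp ((prim_colu 1).comp k1 pu)
    (Primrec.snd.comp (Primrec.snd.comp (Primrec.snd.comp (Primrec.snd.comp p11))))) ?_
  refine Primrec.pair (prim_mem.comp ((prim_colw 0).comp k2 pw)
    (Primrec.fst.comp (Primrec.snd.comp p12))) ?_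
  exact Primrec.snd.comp (Primrec.snd.comp Primrec.fst)

theorem prim_gg (D : List (List Bool)) (L0 : ℕ)
    (h : Bool × Bool × Bool × Bool × Bool × Bool → Bool) : Primrec (gg D L0 h) := by
  unfold gg
  refine Primrec.and.comp (prim_mem.comp ?_ (Primrec.const D)) ?_
  · exact Primrec.list_take.comp (Primrec.const L0) (Primrec.snd.comp Primrec.snd)
  · exact (Primrec.dom_finite h).comp prim_bits

theorem prim_KK : Primrec KK := by
  unfold KK
  exact Primrec.nat_mul.comp (Primrec.const 2) (Primrec.fst.comp Primrec.fst)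

theorem prim_LL (L0 : ℕ) : Primrec (LL L0) := by
  unfold LL
  refine Primrec.nat_add.comp (Primrec.const L0) (Primrec.nat_mul.comp (Primrec.const 4)
    (Primrec.nat_add.comp (Primrec.fst.comp Primrec.fst) ?_))
  exact Primrec.fst.comp (Primrec.fst.comp Primrec.snd)

end prim

/-- The test predicates used in the proof. -/
def Tst (W : Fnl) (D : List (List Bool)) (L0 : ℕ)
    (h : Bool × Bool × Bool × Bool × Bool × Bool → Bool) (a : Par) (σ : List Bool) : Prop :=
  TS W KK (LL L0) (gg D L0 h) a σ

theorem Tst_re {W : Fnl} (hW : Good W) (D : List (List Bool)) (L0 : ℕ)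
    (h : Bool × Bool × Bool × Bool × Bool × Bool → Bool) :
    REPred fun x : Par × List Bool => Tst W D L0 h x.1 x.2 :=
  TS_re hW prim_KK.to_comp (prim_LL L0).to_comp (prim_gg D L0 h).to_comp

theorem Tst_mono {W : Fnl} (hW : Good W) (D : List (List Bool)) (L0 : ℕ)
    (h : Bool × Bool × Bool × Bool × Bool × Bool → Bool) (a : Par) (σ τ : List Bool)
    (hστ : σ <+: τ) (hσ : Tst W D L0 h a σ) : Tst W D L0 h a τ :=
  TS_mono hW a σ τ hστ hσ

theorem Tst_iff {W : Fnl} (hW : Good W) (D : List (List Bool)) (L0 : ℕ)
    (h : Bool × Bool × Bool × Bool × Bool × Bool → Bool) (a : Par) {Z O : Cantor}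
    (hO : Computes W Z O) :
    (∃ j, Tst W D L0 h a (pre Z j)) ↔
      pre Z L0 ∈ D ∧ h (sem a (pr 0 Z) (pr 1 Z) (ev O) (od O)) = true := by
  unfold Tst
  rw [TS_iff hW a hO]
  unfold gg
  rw [bits_eq]
  simp only [Bool.and_eq_true, decide_eq_true_eq]
  rw [pre_take _ (by unfold LL; omega)]

theorem Tst_D {W : Fnl} {D : List (List Bool)} {L0 : ℕ}
    {h : Bool × Bool × Bool × Bool × Bool × Bool → Bool} {a : Par} {Z : Cantor}
    (hj : ∃ j, Tst W D L0 h a (pre Z j)) : pre Z L0 ∈ D := by
  obtain ⟨j, hj⟩ := hj
  obtain ⟨u, hu⟩ := TS_take a j Z hj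
  unfold gg at hu
  simp only [Bool.and_eq_true, decide_eq_true_eq] at hu
  rw [pre_take _ (by unfold LL; omega)] at hu
  exact hu.1

end Vale.Agent.P327
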