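import Vale.Agent.P327.LSC
import Vale.Agent.P327.Oracle

/-! Sacks' theorem: a set computable from `A` together with positively many oracles is
computable from `A`. Also measurability of Turing reducibility. -/

open MeasureTheory
open scoped ENNReal

namespace Vale.Agent.P327

theorem measurableSet_computes {Ω : Type*} [MeasurableSpace Ω] (W : Fnl) {g h : Ω → Cantor}
    (hg : Measurable g) (hh : Measurable h) : MeasurableSet {ω | Computes W (h ω) (g ω)} := by
  have h1 : {ω | Computes W (h ω) (g ω)} =
      ⋂ (n : ℕ) (v : Bool), {ω | g ω n = v ↔ ∃ j, W (pre (h ω) j) n v} := by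
    ext ω
    simp only [Computes, Set.mem_ofPred_eq, Set.mem_iInter]
  rw [h1]
  refine MeasurableSet.iInter fun n => MeasurableSet.iInter fun v => ?_
  have m1 : MeasurableSet {ω | g ω n = v} :=
    measurableSet_eq_fun ((measurable_pi_apply n).comp hg) measurable_const
  have m2 : MeasurableSet {ω | ∃ j, W (pre (h ω) j) n v} :=
    hh (measurableSet_exists_pre (fun σ => W σ n v))
  have h2 : {ω | g ω n = v ↔ ∃ j, W (pre (h ω) j) n v} =
      ({ω | g ω n = v} ∩ {ω | ∃ j, W (pre (h ω) j) n v}) ∪
      ({ω | g ω n = v}ᶜ ∩ {ω | ∃ j, W (pre (h ω) j) n v}ᶜ) := by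
    ext ω
    simp only [Set.mem_ofPred_eq, Set.mem_union, Set.mem_inter_iff, Set.mem_compl_iff]
    tauto
  rw [h2]
  exact (m1.inter m2).union (m1.compl.inter m2.compl)

theorem measurableSet_red {Ω : Type*} [MeasurableSpace Ω] {g h : Ω → Cantor} (hg : Measurable g)
    (hh : Measurable h) : MeasurableSet {ω | Red (g ω) (h ω)} := by
  have h1 : {ω | Red (g ω) (h ω)} =
      ⋃ W ∈ {W : Fnl | Good W}, {ω | Computes W (h ω) (g ω)} := by
    ext ω
    simp only [Set.mem_ofPred_eq, Set.mem_iUnion, red_iff, exists_prop]
  rw [h1]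
  exact MeasurableSet.biUnion countable_good fun W _ => measurableSet_computes W hg hh

/-- The string version of `join`. -/
def joinS (σ τ : List Bool) : List Bool :=
  (List.range (min σ.length τ.length)).map fun n =>
    if n % 2 = 0 then σ.getD (n / 2) false else τ.getD (n / 2) false

theorem joinS_pre (A B : Cantor) (i j : ℕ) :
    joinS (pre A i) (pre B j) = pre (join A B) (min i j) := by
  unfold joinS
  rw [pre_length, pre_length]
  show _ = (List.range (min i j)).map (join A B)
  apply List.map_congr_left
  intro n hn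
  have hn' : n < i ∧ n < j := by simpa using hn
  unfold join
  split_ifs with h
  · rw [pre_getD _ _ _ (by omega)]
  · rw [pre_getD _ _ _ (by omega)]

theorem getD_pref {σ τ : List Bool} (h : σ <+: τ) (n : ℕ) (hn : n < σ.length) :
    τ.getD n false = σ.getD n false := by
  obtain ⟨t, rfl⟩ := h
  simp [List.getD, List.getElem?_append_left hn]

theorem joinS_mono {β β' τ τ' : List Bool} (h : β <+: β') (h' : τ <+: τ') :
    joinS β τ <+: joinS β' τ' := by
  have hl := h.length_le
  have hl' := h'.length_le
  have hm : min β.length τ.length ≤ min β'.length τ'.length := by omega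
  unfold joinS
  obtain ⟨k, hk⟩ := Nat.exists_eq_add_of_le hm
  rw [hk, List.range_add, List.map_append]
  have : (List.range (min β.length τ.length)).map (fun n =>
      if n % 2 = 0 then β'.getD (n / 2) false else τ'.getD (n / 2) false) =
      (List.range (min β.length τ.length)).map (fun n =>
      if n % 2 = 0 then β.getD (n / 2) false else τ.getD (n / 2) false) := by
    apply List.map_congr_left
    intro n hn
    have hn' : n < β.length ∧ n < τ.length := by simpa using hn
    rw [getD_pref h _ (by omega), getD_pref h' _ (by omega)]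
  rw [this]
  exact List.prefix_append _ _

theorem prim_joinS : Primrec₂ joinS := by
  unfold joinS
  refine Primrec.list_map (Primrec.list_range.comp (Primrec.nat_min.comp
    (Primrec.list_length.comp Primrec.fst) (Primrec.list_length.comp Primrec.snd))) ?_
  refine Primrec.ite ?_ ?_ ?_
  · exact Primrec.eq.comp (Primrec.nat_mod.comp Primrec.snd (Primrec.const 2)) (Primrec.const 0)
  · exact (Primrec.list_getD false).comp (Primrec.fst.comp Primrec.fst)
      (Primrec.nat_div.comp Primrec.snd (Primrec.const 2))
  · exact (Primrec.list_getD false).comp (Primrec.snd.comp Primrec.fst)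
      (Primrec.nat_div.comp Primrec.snd (Primrec.const 2))

/-- Replace the first `N` bits of a string by those of `z`. -/
def putS (N : ℕ) (zs : List Bool) (τ : List Bool) : List Bool :=
  (List.range τ.length).map fun n => if n < N then zs.getD n false else τ.getD n false

theorem putS_pre (N : ℕ) (z Y : Cantor) (j : ℕ) :
    putS N (pre z N) (pre Y j) = pre (put N z Y) j := by
  unfold putS
  rw [pre_length]
  show _ = (List.range j).map (put N z Y)
  apply List.map_congr_left
  intro n hn
  have hn' : n < j := by simpa using hn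
  unfold put
  split_ifs with h
  · rw [pre_getD _ _ _ h]
  · rw [pre_getD _ _ _ hn']

theorem putS_mono {N : ℕ} {zs τ τ' : List Bool} (h' : τ <+: τ') : putS N zs τ <+: putS N zs τ' := by
  have hl' := h'.length_le
  unfold putS
  obtain ⟨k, hk⟩ := Nat.exists_eq_add_of_le hl'
  rw [hk, List.range_add, List.map_append]
  have : (List.range τ.length).map (fun n =>
      if n < N then zs.getD n false else τ'.getD n false) =
      (List.range τ.length).map (fun n =>
      if n < N then zs.getD n false else τ.getD n false) := by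
    apply List.map_congr_left
    intro n hn
    have hn' : n < τ.length := by simpa using hn
    rw [getD_pref h' _ hn']
  rw [this]
  exact List.prefix_append _ _

theorem prim_putS (N : ℕ) (zs : List Bool) : Primrec (putS N zs) := by
  unfold putS
  refine Primrec.list_map (Primrec.list_range.comp Primrec.list_length) ?_
  refine Primrec.ite ?_ ?_ ?_
  · exact Primrec.nat_lt.comp Primrec.snd (Primrec.const N)
  · exact (Primrec.list_getD false).comp (Primrec.const zs) Primrec.snd
  · exact (Primrec.list_getD false).comp Primrec.fst Primrec.snd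

theorem sacks (A Z : Cantor) (h : 0 < fairCoin {R | Red Z (join A R)}) : Red Z A := by
  have hjm : Measurable fun R => join A R := by
    refine measurable_pi_lambda _ fun n => ?_
    unfold join
    split_ifs
    · exact measurable_const
    · exact measurable_pi_apply _
  -- a single functional
  obtain ⟨W, hW, hpos⟩ : ∃ W : Fnl, Good W ∧ 0 < fairCoin {R | Computes W (join A R) Z} := by
    by_contra hcon
    push Not at hcon
    have h1 : fairCoin (⋃ W ∈ {W : Fnl | Good W}, {R | Computes W (join A R) Z}) = 0 := by
      rw [measure_biUnion_null_iff countable_good]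
      intro W hW
      exact le_antisymm (hcon W hW) zero_le
    have h2 : {R | Red Z (join A R)} ⊆
        ⋃ W ∈ {W : Fnl | Good W}, {R | Computes W (join A R) Z} := by
      intro R hR
      obtain ⟨W, hW, hc⟩ := (red_iff _ _).1 hR
      simp only [Set.mem_iUnion]
      exact ⟨W, hW, hc⟩
    exact h.ne' (measure_mono_null h2 h1)
  have hEm : MeasurableSet {R | Computes W (join A R) Z} :=
    measurableSet_computes W measurable_const hjm
  obtain ⟨N, z, hN⟩ := density _ hEm hpos (1 / 4) (by norm_num)
  set E : Set Cantor := {Y | put (4 * N) z Y ∈ {R | Computes W (join A R) Z}} with hE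
  have hEm' : MeasurableSet E := measurable_put _ _ hEm
  -- the new functional
  let p : (List Bool × ℕ × Bool) → List Bool → Prop := fun x τ =>
    W (joinS x.1 (putS (4 * N) (pre z (4 * N)) τ)) x.2.1 x.2.2
  have hp : REPred fun x : (List Bool × ℕ × Bool) × List Bool => p x.1 x.2 := by
    refine re_comp hW.re (f := fun x : (List Bool × ℕ × Bool) × List Bool =>
      (joinS x.1.1 (putS (4 * N) (pre z (4 * N)) x.2), x.1.2.1, x.1.2.2)) ?_
    refine Computable.pair ?_ (Computable.pair ?_ ?_)
    · exact prim_joinS.to_comp.comp (Computable.fst.comp Computable.fst)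
        ((prim_putS _ _).to_comp.comp Computable.snd)
    · exact Computable.fst.comp (Computable.snd.comp Computable.fst)
    · exact Computable.snd.comp (Computable.snd.comp Computable.fst)
  have hpm : ∀ β β' n v τ τ', β <+: β' → τ <+: τ' → p (β, n, v) τ → p (β', n, v) τ' :=
    fun β β' n v τ τ' h1 h2 h3 => hW.mono _ _ _ _ (joinS_mono h1 (putS_mono h2)) h3
  let W' : Fnl := fun β n v =>
    ((1 : ℕ) : ℝ≥0∞) / ((2 : ℕ) : ℝ≥0∞) < fairCoin {T | ∃ j, p (β, n, v) (pre T j)}
  have hW' : Good W' := by
    refine ⟨?_, ?_⟩
    · exact re_measure p hp (fun a σ τ h => hpm a.1 a.1 a.2.1 a.2.2 σ τ List.prefix_rfl h) 1 2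
        (by norm_num)
    · intro σ τ n v h hσ
      refine lt_of_lt_of_le hσ (measure_mono ?_)
      rintro T ⟨j, hj⟩
      exact ⟨j, hpm _ _ _ _ _ _ h List.prefix_rfl hj⟩
  rw [red_iff]
  refine ⟨W', hW', ?_⟩
  intro n v
  have h1 : (∃ i, W' (pre A i) n v) ↔ ((1 : ℕ) : ℝ≥0∞) / ((2 : ℕ) : ℝ≥0∞) <
      fairCoin {Y | ∃ j, W (pre (join A (put (4 * N) z Y)) j) n v} := by
    have h2 : {Y | ∃ j, W (pre (join A (put (4 * N) z Y)) j) n v} =
        ⋃ i, {T | ∃ j, p (pre A i, n, v) (pre T j)} := by
      ext Y
      rw [Set.mem_iUnion]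
      simp only [Set.mem_ofPred_eq, p, putS_pre, joinS_pre]
      constructor
      · rintro ⟨j, hj⟩; exact ⟨j, j, by rwa [min_self]⟩
      · rintro ⟨i, j, hj⟩; exact ⟨_, hj⟩
    have hmono : Monotone fun i => {T | ∃ j, p (pre A i, n, v) (pre T j)} := by
      intro i i' h T
      rintro ⟨j, hj⟩
      exact ⟨j, hpm _ _ _ _ _ _ (pre_prefix A h) List.prefix_rfl hj⟩
    rw [h2, hmono.measure_iUnion, lt_iSup_iff]
  rw [h1]
  have h3 : ((1 : ℕ) : ℝ≥0∞) / ((2 : ℕ) : ℝ≥0∞) = ENNReal.ofReal (1 / 2) := by
    rw [ENNReal.ofReal_div_of_pos (by norm_num)]; simp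
  rw [h3, ← ofReal_measureReal (μ := fairCoin)
    (s := {Y | ∃ j, W (pre (join A (put (4 * N) z Y)) j) n v}),
    ENNReal.ofReal_lt_ofReal_iff_of_nonneg (by norm_num)]
  have hN' : 3 / 4 ≤ fairCoin.real E := by
    have : 1 - 1 / 4 ≤ fairCoin.real E := hN
    linarith
  have hgood : ∀ Y ∈ E, ((∃ j, W (pre (join A (put (4 * N) z Y)) j) n v) ↔ Z n = v) :=
    fun Y hY => (hY n v).symm
  constructor
  · intro hv
    have hsub : E ⊆ {Y | ∃ j, W (pre (join A (put (4 * N) z Y)) j) n v} :=
      fun Y hY => (hgood Y hY).2 hv
    have := measureReal_mono hsub (μ := fairCoin)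
    linarith
  · intro hv
    by_contra hne
    have hsub : {Y | ∃ j, W (pre (join A (put (4 * N) z Y)) j) n v} ⊆ Eᶜ := by
      intro Y hY hYE
      exact hne ((hgood Y hYE).1 hY)
    have := measureReal_mono hsub (μ := fairCoin)
    rw [probReal_compl_eq_one_sub hEm'] at this
    linarith

end Vale.Agent.P327
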