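import Vale.Agent.P327.DictA
import Vale.Agent.P327.Sacks
import Vale.Agent.P327.BLR

/-! Measure theoretic part of the structure theorem. -/

open MeasureTheory
open scoped ENNReal

namespace Vale.Agent.P327

/-- The map `F` applied to four columns. -/
def PhiF (F : Cantor → Cantor) (ω : Cantor) : Cantor := J4 fun i => F (pr i ω)

/-- The images of the sum and of the perturbed first column. -/
def OutF (F : Cantor → Cantor) (ω : Cantor) : Cantor :=
  join (F (xorC (pr 0 ω) (pr 1 ω))) (F (xorC (pr 0 ω) (andC (pr 2 ω) (pr 3 ω))))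

theorem mp_real {Ω Ω' : Type*} [MeasurableSpace Ω] [MeasurableSpace Ω'] {μ : Measure Ω}
    {ν : Measure Ω'} {f : Ω → Ω'} (hf : MeasurePreserving f μ ν) {s : Set Ω'}
    (hs : MeasurableSet s) : μ.real (f ⁻¹' s) = ν.real s := by
  unfold Measure.real; rw [hf.measure_preimage hs.nullMeasurableSet]

theorem mp_PhiF {F : Cantor → Cantor} (hF : MeasurePreserving F fairCoin fairCoin) :
    MeasurePreserving (PhiF F) fairCoin fairCoin :=
  measurePreserving_J4.comp
    ((measurePreserving_pi (fun _ : Fin 4 => fairCoin) (fun _ => fairCoin) (fun _ => hF)).comp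
      measurePreserving_unJ4)

theorem pre_four (N : ℕ) (ω zz : Cantor) :
    pre ω (4 * N) = pre zz (4 * N) ↔ ∀ i : Fin 4, pre (pr i ω) N = pre (pr i zz) N := by
  simp only [pre_eq_iff, pr]
  constructor
  · intro h i n hn
    have := i.2
    exact h _ (by omega)
  · intro h n hn
    have h1 := h ⟨n % 4, Nat.mod_lt _ (by norm_num)⟩ (n / 4) (by omega)
    have h2 : 4 * (n / 4) + n % 4 = n := by omega
    simpa only [h2] using h1

section

variable {F : Cantor ≃ₜ Cantor} {N : ℕ} {zz : Cantor} {D : List (List Bool)} {L0 : ℕ}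

theorem law (hF : MeasurePreserving F fairCoin fairCoin)
    (hD : ∀ Z, pre Z L0 ∈ D ↔ ∀ i, pre (F.symm (pr i Z)) N = pre (pr i zz) N)
    (E : Set Cantor) (hE : MeasurableSet E) (hED : ∀ Z ∈ E, pre Z L0 ∈ D) :
    fairCoin {Y | PhiF F (put (4 * N) zz Y) ∈ E} = 2 ^ (4 * N) * fairCoin E := by
  have h1 := fairCoin_put (4 * N) zz (PhiF F ⁻¹' E) ((mp_PhiF hF).measurable hE)
  have h2 : PhiF F ⁻¹' E ∩ {Y | pre Y (4 * N) = pre zz (4 * N)} = PhiF F ⁻¹' E := by
    rw [Set.inter_eq_left]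
    intro ω hω
    have h3 := (hD _).1 (hED _ hω)
    show pre ω (4 * N) = pre zz (4 * N)
    rw [pre_four]
    intro i
    have h4 := h3 i
    rwa [PhiF, pr_J4, F.symm_apply_apply] at h4
  rw [h2, (mp_PhiF hF).measure_preimage hE.nullMeasurableSet] at h1
  exact h1

theorem law_real (hF : MeasurePreserving F fairCoin fairCoin)
    (hD : ∀ Z, pre Z L0 ∈ D ↔ ∀ i, pre (F.symm (pr i Z)) N = pre (pr i zz) N)
    (E : Set Cantor) (hE : MeasurableSet E) (hED : ∀ Z ∈ E, pre Z L0 ∈ D) :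
    fairCoin.real {Y | PhiF F (put (4 * N) zz Y) ∈ E} = 2 ^ (4 * N) * fairCoin.real E := by
  unfold Measure.real
  rw [law hF hD E hE hED, ENNReal.toReal_mul]
  simp

theorem thr_iff (hF : MeasurePreserving F fairCoin fairCoin)
    (hD : ∀ Z, pre Z L0 ∈ D ↔ ∀ i, pre (F.symm (pr i Z)) N = pre (pr i zz) N)
    (E : Set Cantor) (hE : MeasurableSet E) (hED : ∀ Z ∈ E, pre Z L0 ∈ D) (c d : ℕ)
    (hd : 0 < d) :
    (c : ℝ≥0∞) / ((d * 2 ^ (4 * N) : ℕ) : ℝ≥0∞) < fairCoin E ↔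
      (c : ℝ) / d < fairCoin.real {Y | PhiF F (put (4 * N) zz Y) ∈ E} := by
  rw [law_real hF hD E hE hED]
  have hpos : (0 : ℝ) < 2 ^ (4 * N) := by positivity
  have hd' : (0 : ℝ) < d := by exact_mod_cast hd
  have h1 : (c : ℝ≥0∞) / ((d * 2 ^ (4 * N) : ℕ) : ℝ≥0∞) =
      ENNReal.ofReal ((c : ℝ) / (d * 2 ^ (4 * N))) := by
    rw [ENNReal.ofReal_div_of_pos (by positivity), ENNReal.ofReal_natCast]
    congr 1
    have : (d : ℝ) * 2 ^ (4 * N) = ((d * 2 ^ (4 * N) : ℕ) : ℝ) := by push_cast; ring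
    rw [this, ENNReal.ofReal_natCast]
  rw [h1, ← ofReal_measureReal (μ := fairCoin) (s := E),
    ENNReal.ofReal_lt_ofReal_iff_of_nonneg (by positivity), div_lt_iff₀ (by positivity),
    div_lt_iff₀ hd']
  constructor <;> intro h <;> linarith

/-- Threshold tests. -/
def TP (W : Fnl) (D : List (List Bool)) (L0 N : ℕ)
    (h : Bool × Bool × Bool × Bool × Bool × Bool → Bool) (c : ℕ) (a : Par) : Prop :=
  (c : ℝ≥0∞) / ((100 * 2 ^ (4 * N) : ℕ) : ℝ≥0∞) < fairCoin {Z | ∃ j, Tst W D L0 h a (pre Z j)}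

theorem TP_re {W : Fnl} (hW : Good W) (D : List (List Bool)) (L0 N : ℕ)
    (h : Bool × Bool × Bool × Bool × Bool × Bool → Bool) (c : ℕ) :
    REPred (TP W D L0 N h c) :=
  re_measure (fun a σ => Tst W D L0 h a σ) (Tst_re hW D L0 h)
    (fun a σ τ => Tst_mono hW D L0 h a σ τ) c (100 * 2 ^ (4 * N)) (by positivity)

/-- The semantic bits at `ω`. -/
def sY (F : Cantor → Cantor) (a : Par) (ω : Cantor) : Bool × Bool × Bool × Bool × Bool × Bool :=
  sem a (F (pr 0 ω)) (F (pr 1 ω)) (F (xorC (pr 0 ω) (pr 1 ω)))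
    (F (xorC (pr 0 ω) (andC (pr 2 ω) (pr 3 ω))))

theorem Tst_sem {W : Fnl} (hW : Good W)
    (hD : ∀ Z, pre Z L0 ∈ D ↔ ∀ i, pre (F.symm (pr i Z)) N = pre (pr i zz) N)
    (h : Bool × Bool × Bool × Bool × Bool × Bool → Bool) (a : Par) (Y : Cantor)
    (hY : Computes W (PhiF F (put (4 * N) zz Y)) (OutF F (put (4 * N) zz Y))) :
    (∃ j, Tst W D L0 h a (pre (PhiF F (put (4 * N) zz Y)) j)) ↔
      h (sY F a (put (4 * N) zz Y)) = true := by
  rw [Tst_iff hW D L0 h a hY]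
  have h1 : pre (PhiF F (put (4 * N) zz Y)) L0 ∈ D := by
    rw [hD]
    intro i
    rw [PhiF, pr_J4, F.symm_apply_apply, pr_put, pre_eq_iff]
    intro n hn
    simp [put, hn]
  unfold OutF sY
  rw [ev_join, od_join]
  simp only [PhiF, pr_J4]
  constructor
  · rintro ⟨-, h2⟩; exact h2
  · intro h2; exact ⟨h1, h2⟩

theorem TP_sound (hF : MeasurePreserving F fairCoin fairCoin) {W : Fnl} (hW : Good W)
    (hD : ∀ Z, pre Z L0 ∈ D ↔ ∀ i, pre (F.symm (pr i Z)) N = pre (pr i zz) N)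
    (h : Bool × Bool × Bool × Bool × Bool × Bool → Bool) (c : ℕ) (a : Par) (η : ℝ)
    (hη : fairCoin.real
      {Y | Computes W (PhiF F (put (4 * N) zz Y)) (OutF F (put (4 * N) zz Y))}ᶜ ≤ η)
    (ht : TP W D L0 N h c a) :
    (c : ℝ) / 100 - η < fairCoin.real {Y | h (sY F a (put (4 * N) zz Y)) = true} := by
  unfold TP at ht
  rw [thr_iff hF hD _ (measurableSet_exists_pre _) (fun Z hZ => Tst_D hZ) c 100
    (by norm_num)] at ht
  push_cast at ht
  have h2 : {Y | PhiF F (put (4 * N) zz Y) ∈ {Z | ∃ j, Tst W D L0 h a (pre Z j)}} ⊆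
      {Y | h (sY F a (put (4 * N) zz Y)) = true} ∪
      {Y | Computes W (PhiF F (put (4 * N) zz Y)) (OutF F (put (4 * N) zz Y))}ᶜ := by
    intro Y hY
    by_cases hg : Computes W (PhiF F (put (4 * N) zz Y)) (OutF F (put (4 * N) zz Y))
    · left
      exact (Tst_sem hW hD h a Y hg).1 hY
    · right; exact hg
  have h3 := (measureReal_mono h2 (μ := fairCoin)).trans (measureReal_union_le _ _)
  linarith

theorem TP_complete (hF : MeasurePreserving F fairCoin fairCoin) {W : Fnl} (hW : Good W)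
    (hD : ∀ Z, pre Z L0 ∈ D ↔ ∀ i, pre (F.symm (pr i Z)) N = pre (pr i zz) N)
    (h : Bool × Bool × Bool × Bool × Bool × Bool → Bool) (c : ℕ) (a : Par) (η : ℝ)
    (hη : fairCoin.real
      {Y | Computes W (PhiF F (put (4 * N) zz Y)) (OutF F (put (4 * N) zz Y))}ᶜ ≤ η)
    (ht : (c : ℝ) / 100 + η < fairCoin.real {Y | h (sY F a (put (4 * N) zz Y)) = true}) :
    TP W D L0 N h c a := by
  unfold TP
  rw [thr_iff hF hD _ (measurableSet_exists_pre _) (fun Z hZ => Tst_D hZ) c 100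
    (by norm_num)]
  push_cast
  have h2 : {Y | h (sY F a (put (4 * N) zz Y)) = true} ⊆
      {Y | PhiF F (put (4 * N) zz Y) ∈ {Z | ∃ j, Tst W D L0 h a (pre Z j)}} ∪
      {Y | Computes W (PhiF F (put (4 * N) zz Y)) (OutF F (put (4 * N) zz Y))}ᶜ := by
    intro Y hY
    by_cases hg : Computes W (PhiF F (put (4 * N) zz Y)) (OutF F (put (4 * N) zz Y))
    · left
      exact (Tst_sem hW hD h a Y hg).2 hY
    · right; exact hg
  have h3 := (measureReal_mono h2 (μ := fairCoin)).trans (measureReal_union_le _ _)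
  linarith

end

end Vale.Agent.P327
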