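import Vale.Agent.P327.E0

/-! `E₀`-invariant homeomorphisms (not necessarily uniformly) preserve the fair coin measure. -/

open MeasureTheory
open scoped ENNReal

namespace Vale.Agent.P327

/-- A map of Cantor space is `E₀`-invariant if sequences which agree at all but finitely many
positions are mapped to sequences which agree at all but finitely many positions. -/
def E0Invariant (F : Cantor → Cantor) : Prop :=
  ∀ A B : Cantor, (∃ n, ∀ k, n ≤ k → A k = B k) → ∃ m, ∀ k, m ≤ k → F A k = F B k

namespace E0

theorem ow_ow (n : ℕ) (z z' : Fin n → Bool) (x : Cantor) : ow n z' (ow n z x) = ow n z' x := by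
  funext i; simp only [ow]; split_ifs <;> rfl

/-- The translation by a finite pattern. -/
def tr (m : ℕ) (w : Fin m → Bool) (y : Cantor) : Cantor := xorC (ow m w fun _ => false) y

theorem tr_inj (m : ℕ) (y : Cantor) : Function.Injective fun w : Fin m → Bool => tr m w y := by
  intro w w' h
  funext i
  have h1 := congrFun h (i : ℕ)
  simp only [tr, xorC, ow, i.2, dif_pos] at h1
  revert h1
  cases w i <;> cases w' i <;> cases y i <;> simp

theorem mem_tr (m : ℕ) (y x : Cantor) : (∃ w, tr m w y = x) ↔ ∀ k, m ≤ k → x k = y k := by
  constructor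
  · rintro ⟨w, rfl⟩ k hk
    simp [tr, xorC, ow, not_lt.2 hk]
  · intro h
    refine ⟨fun i => xor (x i) (y i), ?_⟩
    funext i
    by_cases hi : i < m
    · simp only [tr, xorC, ow, hi, dif_pos]
      cases x i <;> cases y i <;> rfl
    · simp only [tr, xorC, ow, hi, dif_neg, not_false_iff]
      rw [h i (not_lt.1 hi)]
      simp

end E0

open E0 Classical in
theorem measurePreserving_of_E0Invariant (F : Cantor ≃ₜ Cantor)
    (hF : E0Invariant F) : MeasurePreserving F fairCoin fairCoin := by
  have key : ∀ C : Set Cantor, IsClopen C → fairCoin (F ⁻¹' C) = fairCoin C := by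
    intro C hC
    obtain ⟨L, hL⟩ := det_of_clopen hC
    obtain ⟨n, hn⟩ := det_of_clopen (hC.preimage F.continuous)
    -- the bad sets
    let B : ℕ → Set Cantor := fun m =>
      {y | ∃ z : Fin n → Bool, ∃ k, m ≤ k ∧ F (ow n z (F.symm y)) k ≠ y k}
    have hBm : ∀ m, MeasurableSet (B m) := by
      intro m
      have hB : B m = ⋃ z : Fin n → Bool, ⋃ k : ℕ,
          {y | m ≤ k ∧ F (ow n z (F.symm y)) k ≠ y k} := by
        ext y; simp [B]
      rw [hB]
      refine MeasurableSet.iUnion fun z => MeasurableSet.iUnion fun k => ?_
      by_cases hk : m ≤ k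
      · simp only [hk, true_and]
        have h1 : Measurable fun y => F (ow n z (F.symm y)) k := by
          refine (measurable_pi_apply k).comp (F.continuous.measurable.comp ?_)
          have h2 : Measurable (ow n z) := by
            refine measurable_pi_lambda _ fun i => ?_
            unfold ow
            split_ifs
            · exact measurable_const
            · exact measurable_pi_apply i
          exact h2.comp F.symm.continuous.measurable
        exact (measurableSet_eq_fun h1 (measurable_pi_apply k)).compl
      · simp [hk]
    have hBanti : Antitone B := by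
      intro m m' hmm y
      rintro ⟨z, k, hk, h⟩
      exact ⟨z, k, hmm.trans hk, h⟩
    have hBinter : ⋂ m, B m = ∅ := by
      ext y
      simp only [Set.mem_iInter, Set.mem_empty_iff_false, iff_false]
      intro hall
      have h1 : ∀ z : Fin n → Bool, ∃ m, ∀ k, m ≤ k → F (ow n z (F.symm y)) k = y k := by
        intro z
        have h2 := hF (ow n z (F.symm y)) (F.symm y) ⟨n, fun k hk => by simp [ow, not_lt.2 hk]⟩
        simpa using h2
      choose M hM using h1
      obtain ⟨z, k, hk, h⟩ := hall (Finset.univ.sup M)
      exact h (hM z k (le_trans (Finset.le_sup (Finset.mem_univ z)) hk))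
    have htend : Filter.Tendsto (fun m => fairCoin.real (B m)) Filter.atTop (nhds 0) := by
      have h1 := tendsto_measure_iInter_atTop (μ := fairCoin) (s := B)
        (fun m => (hBm m).nullMeasurableSet) hBanti ⟨0, measure_ne_top _ _⟩
      rw [hBinter, measure_empty] at h1
      exact (ENNReal.tendsto_toReal ENNReal.zero_ne_top).comp h1
    -- the estimate
    have hest : ∀ β : ℝ, 0 < β →
        |fairCoin.real C - fairCoin.real (F ⁻¹' C)| ≤ β := by
      intro β hβ
      obtain ⟨m₀, hm₀⟩ := Filter.eventually_atTop.1 (htend.eventually (gt_mem_nhds hβ))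
      set m := max L m₀ with hm
      have hβm : fairCoin.real (B m) < β := hm₀ m (le_max_right _ _)
      have hC' := hL.mono (le_max_left L m₀)
      rw [← hm] at hC'
      -- choose a good class
      obtain ⟨y, hy⟩ : ∃ y : Cantor,
          ((Finset.univ.filter fun w : Fin m → Bool => tr m w y ∈ B m).card : ℝ) ≤
            2 ^ m * β := by
        have hmeas : ∀ w : Fin m → Bool, MeasurableSet {y | tr m w y ∈ B m} := fun w =>
          (measurePreserving_xorC _).measurable (hBm m)
        have hint : ∫⁻ y, ∑ w : Fin m → Bool, {y | tr m w y ∈ B m}.indicator 1 y ∂fairCoin =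
            2 ^ m * fairCoin (B m) := by
          rw [lintegral_finsetSum _ (fun w _ => measurable_one.indicator (hmeas w))]
          have : ∀ w : Fin m → Bool,
              ∫⁻ y, {y | tr m w y ∈ B m}.indicator 1 y ∂fairCoin = fairCoin (B m) := by
            intro w
            rw [lintegral_indicator_one (hmeas w)]
            exact (measurePreserving_xorC _).measure_preimage (hBm m).nullMeasurableSet
          simp [this]
        obtain ⟨y, hy⟩ := exists_le_lintegral (μ := fairCoin)
          (f := fun y => ∑ w : Fin m → Bool, {y | tr m w y ∈ B m}.indicator 1 y)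
          ((Finset.measurable_fun_sum _
            (fun w _ => measurable_one.indicator (hmeas w))).aemeasurable)
        refine ⟨y, ?_⟩
        rw [hint] at hy
        have h3 : ∑ w : Fin m → Bool, {y | tr m w y ∈ B m}.indicator (1 : Cantor → ℝ≥0∞) y =
            ((Finset.univ.filter fun w : Fin m → Bool => tr m w y ∈ B m).card : ℝ≥0∞) := by
          rw [Finset.card_filter]
          push_cast
          refine Finset.sum_congr rfl fun w _ => ?_
          simp [Set.indicator_apply]
        rw [h3] at hy
        have h4 := ENNReal.toReal_mono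
          (ENNReal.mul_ne_top (by finiteness) (measure_ne_top _ _)) hy
        rw [ENNReal.toReal_mul, ENNReal.toReal_natCast] at h4
        simp only [ENNReal.toReal_pow, ENNReal.toReal_ofNat] at h4
        refine h4.trans ?_
        have : (fairCoin (B m)).toReal ≤ β := hβm.le
        gcongr
      let T : Finset Cantor := Finset.univ.image fun w : Fin m → Bool => tr m w y
      have hinj := tr_inj m y
      have hmemT : ∀ x, x ∈ T ↔ ∀ k, m ≤ k → x k = y k := by
        intro x
        rw [← mem_tr]
        simp [T]
      let P : Finset Cantor := T.image F.symm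
      have hPT : P.card = 2 ^ m := by
        rw [Finset.card_image_of_injective _ F.symm.injective,
          Finset.card_image_of_injective _ hinj]
        simp
      have hmemP : ∀ x, x ∈ P ↔ F x ∈ T := by
        intro x
        simp only [P, Finset.mem_image]
        constructor
        · rintro ⟨t, ht, rfl⟩; simpa using ht
        · intro h; exact ⟨F x, h, by simp⟩
      set PG : Finset Cantor := P.filter fun x => F x ∉ B m with hPG
      have hgood : ∀ x, F x ∉ B m → ∀ z : Fin n → Bool, ∀ k, m ≤ k → F (ow n z x) k = F x k := by
        intro x hx z k hk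
        by_contra hne
        exact hx ⟨z, k, hk, by simpa using hne⟩
      have hPsat : ∀ x ∈ PG, ∀ z : Fin n → Bool, ow n z x ∈ PG := by
        intro x hx z
        rw [hPG, Finset.mem_filter, hmemP, hmemT] at hx ⊢
        obtain ⟨hx1, hx2⟩ := hx
        refine ⟨fun k hk => ?_, ?_⟩
        · rw [hgood x hx2 z k hk]; exact hx1 k hk
        · rintro ⟨z', k, hk, h⟩
          apply h
          rw [F.symm_apply_apply, ow_ow, hgood x hx2 z' k hk, hgood x hx2 z k hk]
      have hcount := count_sat hn PG hPsat y
      have hbadcard : ((P.filter fun x => F x ∈ B m).card : ℝ) ≤ 2 ^ m * β := by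
        have e1 : (P.filter fun x => F x ∈ B m) =
            (Finset.univ.filter fun w : Fin m → Bool => tr m w y ∈ B m).image
              fun w => F.symm (tr m w y) := by
          ext x
          simp only [P, T, Finset.mem_filter, Finset.mem_image, Finset.mem_univ, true_and]
          constructor
          · rintro ⟨⟨t, ⟨w, rfl⟩, rfl⟩, h⟩
            exact ⟨w, by simpa using h, rfl⟩
          · rintro ⟨w, h, rfl⟩
            exact ⟨⟨_, ⟨w, rfl⟩, rfl⟩, by simpa using h⟩
        rw [e1]
        refine le_trans ?_ hy
        exact_mod_cast Finset.card_image_le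
      have hPsplit : (P.filter fun x => F x ∈ B m).card + PG.card = P.card := by
        rw [hPG]
        exact Finset.card_filter_add_card_filter_not _
      have hbij : (P.filter (· ∈ F ⁻¹' C)).card =
          (Finset.univ.filter fun w : Fin m → Bool => ow m w y ∈ C).card := by
        have e1 : (P.filter (· ∈ F ⁻¹' C)) = (T.filter (· ∈ C)).image F.symm := by
          ext x
          simp only [Finset.mem_filter, hmemP, Set.mem_preimage, Finset.mem_image]
          constructor
          · rintro ⟨h1, h2⟩; exact ⟨F x, ⟨h1, h2⟩, by simp⟩
          · rintro ⟨t, ⟨h1, h2⟩, rfl⟩; simpa using ⟨h1, h2⟩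
        have e2 : T.filter (· ∈ C) =
            (Finset.univ.filter fun w : Fin m → Bool => ow m w y ∈ C).image
              fun w => ow m w y := by
          ext x
          simp only [Finset.mem_filter, Finset.mem_image, Finset.mem_univ, true_and, hmemT]
          constructor
          · rintro ⟨h1, h2⟩
            have h3 : ow m (hd m x) y = x := by
              funext i
              by_cases hi : i < m
              · simp [ow, hd, hi]
              · simp [ow, hi, h1 i (not_lt.1 hi)]
            exact ⟨hd m x, by rwa [h3], h3⟩
          · rintro ⟨w, h, rfl⟩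
            exact ⟨fun k hk => by simp [ow, not_lt.2 hk], h⟩
        have hinj2 : Function.Injective fun w : Fin m → Bool => ow m w y := fun w w' h => by
          have := congrArg (hd m) h
          simpa using this
        rw [e1, Finset.card_image_of_injective _ F.symm.injective, e2,
          Finset.card_image_of_injective _ hinj2]
      -- real arithmetic
      have hμD : fairCoin.real (F ⁻¹' C) =
          ((Finset.univ.filter fun z : Fin n → Bool => ow n z y ∈ F ⁻¹' C).card : ℝ) *
            (2 ^ n)⁻¹ := by
        unfold Measure.real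
        rw [det_meas hn y]
        simp
      have hμC : fairCoin.real C =
          ((Finset.univ.filter fun w : Fin m → Bool => ow m w y ∈ C).card : ℝ) * (2 ^ m)⁻¹ := by
        unfold Measure.real
        rw [det_meas hC' y]
        simp
      have hPGD : (PG.card : ℝ) * fairCoin.real (F ⁻¹' C) =
          ((PG.filter (· ∈ F ⁻¹' C)).card : ℝ) := by
        rw [hμD, ← mul_assoc]
        have h5 : (PG.card : ℝ) *
            ((Finset.univ.filter fun z : Fin n → Bool => ow n z y ∈ F ⁻¹' C).card : ℝ) =
            2 ^ n * ((PG.filter (· ∈ F ⁻¹' C)).card : ℝ) := by exact_mod_cast hcount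
        rw [h5]
        field_simp
      have hD1 : fairCoin.real (F ⁻¹' C) ≤ 1 := measureReal_le_one
      have hD0 : 0 ≤ fairCoin.real (F ⁻¹' C) := measureReal_nonneg
      have hle1 : ((PG.filter (· ∈ F ⁻¹' C)).card : ℝ) ≤
          ((P.filter (· ∈ F ⁻¹' C)).card : ℝ) := by
        have : PG.filter (· ∈ F ⁻¹' C) ⊆ P.filter (· ∈ F ⁻¹' C) := by
          rw [hPG]
          exact Finset.filter_subset_filter _ (Finset.filter_subset _ _)
        exact_mod_cast Finset.card_le_card this
      have hle2 : ((P.filter (· ∈ F ⁻¹' C)).card : ℝ) ≤
          ((PG.filter (· ∈ F ⁻¹' C)).card : ℝ) + ((P.filter fun x => F x ∈ B m).card : ℝ) := by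
        have : P.filter (· ∈ F ⁻¹' C) ⊆
            (PG.filter (· ∈ F ⁻¹' C)) ∪ (P.filter fun x => F x ∈ B m) := by
          intro x hx
          simp only [hPG, Finset.mem_filter, Finset.mem_union] at hx ⊢
          by_cases h : F x ∈ B m
          · exact Or.inr ⟨hx.1, h⟩
          · exact Or.inl ⟨⟨hx.1, h⟩, hx.2⟩
        exact_mod_cast (Finset.card_le_card this).trans (Finset.card_union_le _ _)
      have hsplit : ((P.filter fun x => F x ∈ B m).card : ℝ) + (PG.card : ℝ) = 2 ^ m := by
        have : ((P.filter fun x => F x ∈ B m).card : ℝ) + (PG.card : ℝ) = (P.card : ℝ) := by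
          exact_mod_cast hPsplit
        rw [this, hPT]; push_cast; ring
      have hpos : (0 : ℝ) < 2 ^ m := by positivity
      have hCeq : 2 ^ m * fairCoin.real C = ((P.filter (· ∈ F ⁻¹' C)).card : ℝ) := by
        rw [hμC, hbij]
        field_simp
      have hPGle : (PG.card : ℝ) ≤ 2 ^ m := by
        have : (0 : ℝ) ≤ ((P.filter fun x => F x ∈ B m).card : ℝ) := Nat.cast_nonneg _
        linarith
      have up : 2 ^ m * fairCoin.real C ≤ 2 ^ m * (fairCoin.real (F ⁻¹' C) + β) := by
        rw [hCeq]
        have : (PG.card : ℝ) * fairCoin.real (F ⁻¹' C) ≤ 2 ^ m * fairCoin.real (F ⁻¹' C) := by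
          gcongr
        nlinarith
      have lo : 2 ^ m * (fairCoin.real (F ⁻¹' C) - β) ≤ 2 ^ m * fairCoin.real C := by
        rw [hCeq]
        have h6 : (2 ^ m - 2 ^ m * β) * fairCoin.real (F ⁻¹' C) ≤
            (PG.card : ℝ) * fairCoin.real (F ⁻¹' C) := by
          apply mul_le_mul_of_nonneg_right _ hD0
          linarith
        have h7 : 2 ^ m * β * fairCoin.real (F ⁻¹' C) ≤ 2 ^ m * β * 1 := by
          gcongr
        nlinarith
      rw [abs_le]
      constructor
      · have := le_of_mul_le_mul_left lo hpos
        linarith
      · have := le_of_mul_le_mul_left up hpos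
        linarith
    have heq : fairCoin.real C = fairCoin.real (F ⁻¹' C) := by
      by_contra hne
      have h8 : 0 < |fairCoin.real C - fairCoin.real (F ⁻¹' C)| :=
        abs_pos.2 (sub_ne_zero.2 hne)
      have := hest (|fairCoin.real C - fairCoin.real (F ⁻¹' C)| / 2) (by linarith)
      linarith
    have h9 := congrArg ENNReal.ofReal heq
    rw [ofReal_measureReal, ofReal_measureReal] at h9
    exact h9.symm
  refine ⟨F.continuous.measurable, ?_⟩
  rw [fairCoin]
  apply Measure.eq_infinitePi
  intro s t ht
  rw [Measure.map_apply F.continuous.measurable (MeasurableSet.pi s.countable_toSet fun i _ => ht i)]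
  have hclopen : IsClopen (Set.pi (s : Set ℕ) t) := by
    constructor
    · exact isClosed_set_pi fun i _ => isClosed_discrete _
    · exact isOpen_set_pi s.finite_toSet fun i _ => isOpen_discrete _
  change fairCoin (F ⁻¹' Set.pi (s : Set ℕ) t) = _
  rw [key _ hclopen, fairCoin, Measure.infinitePi_pi _ (fun i _ => ht i)]

theorem E0Invariant_of_uniformly {F : Cantor → Cantor} (h : UniformlyE0Invariant F) :
    E0Invariant F := by
  rintro A B ⟨n, hn⟩
  obtain ⟨m, hm⟩ := h n
  exact ⟨m, hm A B hn⟩

end Vale.Agent.P327
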