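import Vale.Agent.P327.RE
import Vale.Agent.P327.Meas

/-! The measure of an r.e. open set is lower semicomputable. -/

open MeasureTheory
open scoped ENNReal

namespace Vale.Agent.P327

variable {α : Type*} [Primcodable α]

theorem computable_pow2 : Computable fun j : ℕ => 2 ^ j := by
  have h := Computable.list_length.comp primrec_allStr.to_comp
  exact h.of_eq fun j => length_allStr j

open Classical in
theorem re_measure (p : α → List Bool → Prop) (hp : REPred fun x : α × List Bool => p x.1 x.2)
    (hm : ∀ a σ τ, σ <+: τ → p a σ → p a τ) (c d : ℕ) (hd : 0 < d) :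
    REPred fun x => (c : ℝ≥0∞) / d < fairCoin {Z | ∃ j, p x (pre Z j)} := by
  have h1 : ∀ x, ((c : ℝ≥0∞) / d < fairCoin {Z | ∃ j, p x (pre Z j)}) ↔
      ∃ j : ℕ, (c * 2 ^ j) / d < (allStr j).countP (fun σ => decide (p x σ)) := by
    intro x
    have h2 : {Z : Cantor | ∃ j, p x (pre Z j)} = ⋃ j, {Z | p x (pre Z j)} := by
      ext Z; simp
    have hmono : Monotone fun j => {Z : Cantor | p x (pre Z j)} := by
      intro i j hij Z hZ
      exact hm x _ _ (pre_prefix Z hij) hZ
    rw [h2, hmono.measure_iUnion, lt_iSup_iff]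
    refine exists_congr fun j => ?_
    rw [fairCoin_pre_mem j (p x)]
    set k := (allStr j).countP (fun σ => decide (p x σ)) with hk
    rw [Nat.div_lt_iff_lt_mul hd]
    have hd' : (0 : ℝ) < d := by exact_mod_cast hd
    have e1 : (c : ℝ≥0∞) / d = ENNReal.ofReal ((c : ℝ) / d) := by
      rw [ENNReal.ofReal_div_of_pos hd', ENNReal.ofReal_natCast, ENNReal.ofReal_natCast]
    have e2 : (k : ℝ≥0∞) / 2 ^ j = ENNReal.ofReal ((k : ℝ) / 2 ^ j) := by
      rw [ENNReal.ofReal_div_of_pos (by positivity), ENNReal.ofReal_natCast]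
      congr 1
      rw [ENNReal.ofReal_pow (by norm_num)]
      norm_num
    rw [e1, e2, ENNReal.ofReal_lt_ofReal_iff_of_nonneg (by positivity),
      div_lt_div_iff₀ hd' (by positivity)]
    constructor
    · intro h; exact_mod_cast h
    · intro h; exact_mod_cast h
  refine REPred.of_eq ?_ fun x => (h1 x).symm
  refine re_exists (p := fun (x : α) (j : ℕ) =>
    (c * 2 ^ j) / d < (allStr j).countP (fun σ => decide (p x σ))) ?_
  refine re_count (p := fun (y : α × ℕ) (σ : List Bool) => p y.1 σ) ?_ (L := fun y => allStr y.2)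
    (primrec_allStr.to_comp.comp Computable.snd) (t := fun y => (c * 2 ^ y.2) / d) ?_
  · exact re_comp hp (f := fun z : (α × ℕ) × List Bool => (z.1.1, z.2))
      ((Computable.fst.comp Computable.fst).pair Computable.snd)
  · exact Primrec.nat_div.to_comp.comp (Primrec.nat_mul.to_comp.comp (Computable.const c)
      (computable_pow2.comp Computable.snd)) (Computable.const d)

end Vale.Agent.P327
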