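import Vale.Agent.P327.Clopen

/-! Conditional measure on cylinders, and a density lemma. -/

open MeasureTheory
open scoped ENNReal

namespace Vale.Agent.P327

namespace PD

theorem bool_half (b : Bool) : (PMF.uniformOfFintype Bool).toMeasure {b} = (2 : ℝ≥0∞)⁻¹ := by
  rw [PMF.toMeasure_apply_singleton _ _ (measurableSet_singleton b)]
  simp

theorem map_xorC (A : Cantor) : fairCoin.map (xorC A) = fairCoin := by
  unfold fairCoin
  have h := Measure.infinitePi_map_pi (μ := fun _ : ℕ => (PMF.uniformOfFintype Bool).toMeasure)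
    (f := fun i b => xor (A i) b) (fun i => measurable_of_countable _)
  have h2 : (fun i : ℕ => (PMF.uniformOfFintype Bool).toMeasure.map (fun b => xor (A i) b)) =
      fun _ : ℕ => (PMF.uniformOfFintype Bool).toMeasure := by
    funext i
    apply Measure.ext_of_singleton
    intro b
    rw [Measure.map_apply (measurable_of_countable _) (measurableSet_singleton b)]
    have h3 : (fun b => xor (A i) b) ⁻¹' {b} = {xor (A i) b} := by
      ext c
      simp only [Set.mem_preimage, Set.mem_singleton_iff]
      cases A i <;> cases b <;> cases c <;> simp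
    rw [h3, bool_half, bool_half]
  rw [h2] at h
  exact h

/-- flip one bit -/
def flip1 (i : ℕ) (Y : Cantor) : Cantor := xorC (fun n => decide (n = i)) Y

theorem flip1_apply (i n : ℕ) (Y : Cantor) : flip1 i Y n = if n = i then !(Y n) else Y n := by
  unfold flip1 xorC
  split_ifs with h <;> simp [h]

theorem measurable_flip1 (i : ℕ) : Measurable (flip1 i) := by
  refine measurable_pi_lambda _ fun n => ?_
  exact (measurable_of_countable (fun b : Bool => xor (decide (n = i)) b)).comp
    (measurable_pi_apply n)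

theorem flip1_measure (i : ℕ) (E : Set Cantor) (hE : MeasurableSet E) :
    fairCoin (flip1 i ⁻¹' E) = fairCoin E := by
  have h : fairCoin.map (flip1 i) = fairCoin := map_xorC (fun n => decide (n = i))
  conv_rhs => rw [← h]
  rw [Measure.map_apply (measurable_flip1 i) hE]

theorem measurable_put (N : ℕ) (z : Cantor) : Measurable (put N z) := by
  refine measurable_pi_lambda _ fun n => ?_
  unfold put
  split_ifs
  · exact measurable_const
  · exact measurable_pi_apply n

theorem put_succ (N : ℕ) (z Y : Cantor) :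
    put (N + 1) z Y = put N z (Function.update Y N (z N)) := by
  funext n
  unfold put
  by_cases h : n = N
  · subst h; simp
  · rw [Function.update_of_ne h]
    by_cases h2 : n < N
    · rw [if_pos (by omega), if_pos h2]
    · rw [if_neg (by omega), if_neg h2]

theorem update_measure (i : ℕ) (b : Bool) (E : Set Cantor) (hE : MeasurableSet E) :
    fairCoin {Y | Function.update Y i b ∈ E} = 2 * fairCoin (E ∩ {Y | Y i = b}) := by
  have hb : MeasurableSet {Y : Cantor | Y i = b} :=
    measurableSet_eq_fun (measurable_pi_apply i) measurable_const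
  have h1 : {Y : Cantor | Function.update Y i b ∈ E} =
      (E ∩ {Y | Y i = b}) ∪ (flip1 i ⁻¹' (E ∩ {Y | Y i = b})) := by
    ext Y
    by_cases h : Y i = b
    · have h2 : Function.update Y i b = Y := by rw [← h]; exact Function.update_eq_self i Y
      simp only [Set.mem_ofPred_eq, h2, Set.mem_union, Set.mem_inter_iff, h, and_true,
        Set.mem_preimage, flip1_apply, if_true]
      constructor
      · exact Or.inl
      · rintro (h3 | ⟨-, h3⟩)
        · exact h3
        · cases b <;> simp at h3
    · have h2 : Function.update Y i b = flip1 i Y := by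
        funext n
        rw [flip1_apply]
        by_cases hn : n = i
        · subst hn
          rw [if_pos rfl, Function.update_self]
          revert h; cases Y n <;> cases b <;> simp
        · rw [if_neg hn, Function.update_of_ne hn]
      have h4 : (flip1 i Y) i = b := by rw [← h2]; simp
      simp only [Set.mem_ofPred_eq, h2, Set.mem_union, Set.mem_inter_iff, h, and_false,
        Set.mem_preimage, h4, and_true, false_or]
  rw [h1, measure_union _ (measurable_flip1 i (hE.inter hb)), flip1_measure _ _ (hE.inter hb),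
    two_mul]
  rw [Set.disjoint_left]
  rintro Y ⟨-, h2⟩ ⟨-, h3⟩
  simp only [Set.mem_ofPred_eq, flip1_apply, if_true] at h2 h3
  rw [h2] at h3
  cases b <;> simp at h3

theorem put_measure (N : ℕ) (z : Cantor) (E : Set Cantor) (hE : MeasurableSet E) :
    fairCoin {Y | put N z Y ∈ E} = 2 ^ N * fairCoin (E ∩ {Y | pre Y N = pre z N}) := by
  induction N generalizing E with
  | zero =>
    have h1 : {Y : Cantor | put 0 z Y ∈ E} = E := by
      ext Y
      have : put 0 z Y = Y := by funext n; simp [put]
      simp [this]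
    rw [h1]
    simp [pre]
  | succ N ih =>
    have h1 : {Y | put (N + 1) z Y ∈ E} =
        {Y | Function.update Y N (z N) ∈ {Y | put N z Y ∈ E}} := by
      ext Y
      simp [put_succ]
    have hb : MeasurableSet {Y : Cantor | Y N = z N} :=
      measurableSet_eq_fun (measurable_pi_apply N) measurable_const
    have hm : MeasurableSet {Y | put N z Y ∈ E} := measurable_put N z hE
    rw [h1, update_measure N (z N) _ hm]
    have h2 : {Y | put N z Y ∈ E} ∩ {Y | Y N = z N} = {Y | put N z Y ∈ E ∩ {Y | Y N = z N}} := by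
      ext Y
      simp [put]
    rw [h2, ih _ (hE.inter hb), ← mul_assoc, pow_succ, mul_comm 2 (2 ^ N)]
    congr 2
    ext Y
    simp only [Set.mem_inter_iff, Set.mem_ofPred_eq, pre_eq_iff]
    constructor
    · rintro ⟨⟨a, b⟩, c⟩
      refine ⟨a, fun n hn => ?_⟩
      rcases Nat.lt_succ_iff_lt_or_eq.1 hn with h | rfl
      · exact c n h
      · exact b
    · rintro ⟨a, b⟩
      exact ⟨⟨a, b N (by omega)⟩, fun n hn => b n (by omega)⟩

theorem put_null (N : ℕ) (z : Cantor) {p : Cantor → Prop} (h : ∀ᵐ A ∂fairCoin, p A) :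
    ∀ᵐ Y ∂fairCoin, p (put N z Y) := by
  rw [ae_iff] at h ⊢
  have hm := measurableSet_toMeasurable fairCoin {A | ¬ p A}
  have h1 := put_measure N z _ hm
  have h2 : fairCoin (toMeasurable fairCoin {A | ¬ p A} ∩ {Y | pre Y N = pre z N}) = 0 := by
    refine measure_mono_null Set.inter_subset_left ?_
    rw [measure_toMeasurable, h]
  rw [h2, mul_zero] at h1
  refine measure_mono_null ?_ h1
  intro Y hY
  exact subset_toMeasurable _ _ hY

theorem measurableSet_cyl (n : ℕ) (σ : List Bool) : MeasurableSet {Z : Cantor | pre Z n = σ} := by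
  by_cases h : ∃ z : Cantor, pre z n = σ
  · obtain ⟨z, rfl⟩ := h
    have h1 : {Z : Cantor | pre Z n = pre z n} = ⋂ i ∈ Finset.range n, {Z : Cantor | Z i = z i} := by
      ext Z
      simp [pre_eq_iff]
    rw [h1]
    exact Finset.measurableSet_biInter _ fun i _ =>
      measurableSet_eq_fun (measurable_pi_apply i) measurable_const
  · have : {Z : Cantor | pre Z n = σ} = ∅ := by
      ext Z
      simp only [Set.mem_ofPred_eq, Set.mem_empty_iff_false, iff_false]
      exact fun h2 => h ⟨Z, h2⟩
    rw [this]
    exact MeasurableSet.empty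

theorem cyl_real (n : ℕ) (z : Cantor) :
    fairCoin.real {Z : Cantor | pre Z n = pre z n} = (2 ^ n)⁻¹ := by
  have h := put_measure n z Set.univ MeasurableSet.univ
  simp only [Set.mem_univ, Set.ofPred_true, Set.univ_inter, measure_univ] at h
  have h2 := congrArg ENNReal.toReal h
  rw [ENNReal.toReal_mul] at h2
  simp only [ENNReal.toReal_one, ENNReal.toReal_pow, ENNReal.toReal_ofNat] at h2
  change 1 = 2 ^ n * fairCoin.real {Z : Cantor | pre Z n = pre z n} at h2
  have hp : (0 : ℝ) < 2 ^ n := by positivity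
  field_simp
  linarith

theorem density_compact (K : Set Cantor) (hK : IsCompact K) (h : 0 < fairCoin.real K) (η : ℝ)
    (hη : 0 < η) (hη1 : η < 1) :
    ∃ (N : ℕ) (z : Cantor), 1 - η ≤ fairCoin.real {Y | put (4 * N) z Y ∈ K} := by
  classical
  have hKc : IsClosed K := hK.isClosed
  have hKm : MeasurableSet K := hKc.measurableSet
  let KN : ℕ → Set Cantor := fun n => {Z | ∃ Z' ∈ K, pre Z n = pre Z' n}
  have hKNm : ∀ n, MeasurableSet (KN n) := by
    intro n
    have : KN n = ⋃ σ ∈ (allStr n).toFinset.filter (fun σ => ∃ Z' ∈ K, pre Z' n = σ),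
        {Z : Cantor | pre Z n = σ} := by
      ext Z
      simp only [KN, Set.mem_ofPred_eq, Set.mem_iUnion, Finset.mem_filter, List.mem_toFinset,
        mem_allStr, exists_prop]
      constructor
      · rintro ⟨Z', h1, h2⟩
        exact ⟨pre Z n, ⟨by simp, Z', h1, h2.symm⟩, rfl⟩
      · rintro ⟨σ, ⟨-, Z', h1, h2⟩, h3⟩
        exact ⟨Z', h1, by rw [h3, h2]⟩
    rw [this]
    exact Finset.measurableSet_biUnion _ fun σ _ => measurableSet_cyl n σ
  have hanti : Antitone KN := by
    intro m n hmn Z
    rintro ⟨Z', h1, h2⟩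
    refine ⟨Z', h1, ?_⟩
    rw [pre_eq_iff] at h2 ⊢
    exact fun k hk => h2 k (lt_of_lt_of_le hk hmn)
  have hinter : ⋂ n, KN n = K := by
    apply Set.Subset.antisymm
    · intro Z hZ
      rw [Set.mem_iInter] at hZ
      by_contra hcon
      have ho := (PiNat.isTopologicalBasis_cylinders (fun _ : ℕ => Bool)).exists_subset_of_mem_open
        (show Z ∈ Kᶜ from hcon) hKc.isOpen_compl
      obtain ⟨v, ⟨x, n, rfl⟩, hv, hvt⟩ := ho
      obtain ⟨Z', h1, h2⟩ := hZ n
      rw [pre_eq_iff] at h2
      refine hvt ?_ h1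
      rw [PiNat.mem_cylinder_iff] at hv ⊢
      intro i hi
      rw [← h2 i hi, hv i hi]
    · intro Z hZ
      rw [Set.mem_iInter]
      exact fun n => ⟨Z, hZ, rfl⟩
  have htend : Filter.Tendsto (fun n => fairCoin.real (KN n)) Filter.atTop
      (nhds (fairCoin.real K)) := by
    have h1 := tendsto_measure_iInter_atTop (μ := fairCoin) (s := KN)
      (fun n => (hKNm n).nullMeasurableSet) hanti ⟨0, measure_ne_top _ _⟩
    rw [hinter] at h1
    exact (ENNReal.tendsto_toReal (measure_ne_top _ _)).comp h1
  have hlt : fairCoin.real K < fairCoin.real K / (1 - η) := by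
    rw [lt_div_iff₀ (by linarith)]
    nlinarith
  obtain ⟨N, hN⟩ := Filter.eventually_atTop.1 (htend.eventually (gt_mem_nhds hlt))
  have hN4 : fairCoin.real (KN (4 * N)) < fairCoin.real K / (1 - η) := hN _ (by omega)
  set n := 4 * N with hn
  set R : Finset (List Bool) := (allStr n).toFinset.filter (fun σ => ∃ Z' ∈ K, pre Z' n = σ)
    with hR
  have hKN : KN n = ⋃ σ ∈ R, {Z : Cantor | pre Z n = σ} := by
    ext Z
    simp only [KN, hR, Set.mem_ofPred_eq, Set.mem_iUnion, Finset.mem_filter, List.mem_toFinset,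
      mem_allStr, exists_prop]
    constructor
    · rintro ⟨Z', h1, h2⟩
      exact ⟨pre Z n, ⟨by simp, Z', h1, h2.symm⟩, rfl⟩
    · rintro ⟨σ, ⟨-, Z', h1, h2⟩, h3⟩
      exact ⟨Z', h1, by rw [h3, h2]⟩
  have hpd : Set.PairwiseDisjoint (R : Set (List Bool)) fun σ => {Z : Cantor | pre Z n = σ} := by
    intro σ _ τ _ hne
    rw [Function.onFun, Set.disjoint_left]
    intro Z h1 h2
    exact hne (h1.symm.trans h2)
  have hsum1 : fairCoin.real (KN n) = ∑ σ ∈ R, fairCoin.real {Z : Cantor | pre Z n = σ} := by
    rw [hKN, measureReal_biUnion_finset hpd (fun σ _ => measurableSet_cyl n σ)]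
  have hsum2 : fairCoin.real K ≤ ∑ σ ∈ R, fairCoin.real (K ∩ {Z : Cantor | pre Z n = σ}) := by
    have : K = ⋃ σ ∈ R, (K ∩ {Z : Cantor | pre Z n = σ}) := by
      ext Z
      simp only [Set.mem_iUnion, Set.mem_inter_iff, Set.mem_ofPred_eq, exists_prop]
      constructor
      · intro hZ
        refine ⟨pre Z n, ?_, hZ, rfl⟩
        rw [hR]
        simp only [Finset.mem_filter, List.mem_toFinset, mem_allStr, pre_length, true_and]
        exact ⟨Z, hZ, rfl⟩
      · rintro ⟨_, _, hZ, _⟩; exact hZ
    conv_lhs => rw [this]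
    exact measureReal_biUnion_finset_le _ _
  by_contra hcon
  push Not at hcon
  have hall : ∀ σ ∈ R, fairCoin.real (K ∩ {Z : Cantor | pre Z n = σ}) ≤
      (1 - η) * fairCoin.real {Z : Cantor | pre Z n = σ} := by
    intro σ hσ
    rw [hR] at hσ
    simp only [Finset.mem_filter, List.mem_toFinset, mem_allStr] at hσ
    obtain ⟨-, z, -, rfl⟩ := hσ
    have h1 := hcon N z
    have h2 := put_measure n z K hKm
    have h3 : fairCoin.real {Y | put n z Y ∈ K} =
        2 ^ n * fairCoin.real (K ∩ {Z : Cantor | pre Z n = pre z n}) := by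
      unfold Measure.real
      rw [h2, ENNReal.toReal_mul]
      simp
    rw [← hn, h3] at h1
    rw [cyl_real]
    have hp : (0 : ℝ) < 2 ^ n := by positivity
    rw [← div_eq_mul_inv, le_div_iff₀ hp]
    linarith
  have h5 : fairCoin.real K ≤ (1 - η) * fairCoin.real (KN n) := by
    rw [hsum1, Finset.mul_sum]
    exact hsum2.trans (Finset.sum_le_sum hall)
  rw [lt_div_iff₀ (by linarith)] at hN4
  linarith

theorem density' (E : Set Cantor) (hE : MeasurableSet E) (h : 0 < fairCoin E) (η : ℝ)
    (hη : 0 < η) :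
    ∃ (N : ℕ) (z : Cantor), 1 - η ≤ fairCoin.real {Y | put (4 * N) z Y ∈ E} := by
  by_cases hη1 : η < 1
  · obtain ⟨K, hKE, hK, hpos⟩ := hE.exists_lt_isCompact_of_ne_top (measure_ne_top _ _) h
    have hp : 0 < fairCoin.real K := ENNReal.toReal_pos hpos.ne' (measure_ne_top _ _)
    obtain ⟨N, z, hN⟩ := density_compact K hK hp η hη hη1
    exact ⟨N, z, hN.trans (measureReal_mono fun Y hY => hKE hY)⟩
  · exact ⟨0, fun _ => false, le_trans (by linarith) measureReal_nonneg⟩

end PD

end Vale.Agent.P327
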