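import Vale.Agent.P327.Basic

/-! A toolkit for recursively enumerable predicates. -/

open Classical

namespace Vale.Agent.P327

variable {α β γ : Type*} [Primcodable α] [Primcodable β] [Primcodable γ]

theorem re_of_stage {p : α → Prop} (f : α → ℕ → Bool) (hf : Computable₂ f)
    (h : ∀ a, p a ↔ ∃ s, f a s = true) : REPred p := by
  have h1 : Partrec fun a => Nat.rfind fun s => Part.some (f a s) :=
    Partrec.rfind hf.partrec₂
  refine h1.dom_re.of_eq (fun a => ?_)
  rw [h a]
  constructor
  · intro hd
    obtain ⟨n, hn⟩ := Part.dom_iff_mem.1 hd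
    have := Nat.rfind_spec hn
    exact ⟨n, (Part.mem_some_iff.1 this).symm⟩
  · rintro ⟨s, hs⟩
    obtain ⟨n, hn, _⟩ := Nat.rfind_min' (p := fun s => f a s) (m := s) hs
    exact Part.dom_iff_mem.2 ⟨n, hn⟩

theorem re_exists_stage {p : α → Prop} (hp : REPred p) :
    ∃ f : α → ℕ → Bool, Computable₂ f ∧ (∀ a s t, s ≤ t → f a s = true → f a t = true) ∧
      ∀ a, p a ↔ ∃ s, f a s = true := by
  unfold REPred at hp
  obtain ⟨c, hc⟩ := Nat.Partrec.Code.exists_code.1 hp
  refine ⟨fun a s => (Nat.Partrec.Code.evaln s c (Encodable.encode a)).isSome, ?_, ?_, ?_⟩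
  · have h1 : Computable fun x : α × ℕ =>
        Nat.Partrec.Code.evaln x.2 c (Encodable.encode x.1) :=
      Nat.Partrec.Code.primrec_evaln.to_comp.comp
        ((Computable.snd.pair (Computable.const c)).pair (Computable.encode.comp Computable.fst))
    have h2 : Computable fun o : Option ℕ => o.isSome := Primrec.option_isSome.to_comp
    exact h2.comp h1
  · intro a s t hst h
    rw [Option.isSome_iff_exists] at h ⊢
    obtain ⟨x, hx⟩ := h
    exact ⟨x, Nat.Partrec.Code.evaln_mono hst hx⟩
  · intro a
    have h3 : (Nat.Partrec.Code.eval c (Encodable.encode a)).Dom ↔ p a := by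
      rw [hc]
      simp [Part.assert]
    rw [← h3, Part.dom_iff_mem]
    constructor
    · rintro ⟨x, hx⟩
      obtain ⟨k, hk⟩ := Nat.Partrec.Code.evaln_complete.1 hx
      exact ⟨k, Option.isSome_iff_exists.2 ⟨x, hk⟩⟩
    · rintro ⟨s, hs⟩
      obtain ⟨x, hx⟩ := Option.isSome_iff_exists.1 hs
      exact ⟨x, Nat.Partrec.Code.evaln_complete.2 ⟨s, hx⟩⟩

/-- Stage approximation of an r.e. predicate. -/
theorem re_stage (p : α → Prop) : REPred p ↔
    ∃ f : α → ℕ → Bool, Computable₂ f ∧ (∀ a s t, s ≤ t → f a s = true → f a t = true) ∧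
      ∀ a, p a ↔ ∃ s, f a s = true :=
  ⟨re_exists_stage, fun ⟨f, hf, _, h⟩ => re_of_stage f hf h⟩

theorem computable_and : Computable₂ (fun a b : Bool => a && b) := Primrec.and.to_comp
theorem computable_or : Computable₂ (fun a b : Bool => a || b) := Primrec.or.to_comp

theorem re_and {p q : α → Prop} (hp : REPred p) (hq : REPred q) :
    REPred fun a => p a ∧ q a := by
  obtain ⟨f, hf, mf, ef⟩ := re_exists_stage hp
  obtain ⟨g, hg, mg, eg⟩ := re_exists_stage hq
  refine re_of_stage (fun a s => f a s && g a s) (computable_and.comp hf hg) (fun a => ?_)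
  rw [ef a, eg a]
  constructor
  · rintro ⟨⟨s, hs⟩, t, ht⟩
    refine ⟨max s t, ?_⟩
    rw [Bool.and_eq_true]
    exact ⟨mf a _ _ (le_max_left _ _) hs, mg a _ _ (le_max_right _ _) ht⟩
  · rintro ⟨s, hs⟩
    rw [Bool.and_eq_true] at hs
    exact ⟨⟨s, hs.1⟩, s, hs.2⟩

theorem re_or {p q : α → Prop} (hp : REPred p) (hq : REPred q) :
    REPred fun a => p a ∨ q a := by
  obtain ⟨f, hf, mf, ef⟩ := re_exists_stage hp
  obtain ⟨g, hg, mg, eg⟩ := re_exists_stage hq
  refine re_of_stage (fun a s => f a s || g a s) (computable_or.comp hf hg) (fun a => ?_)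
  rw [ef a, eg a]
  constructor
  · rintro (⟨s, hs⟩ | ⟨t, ht⟩)
    · exact ⟨s, by rw [Bool.or_eq_true]; exact Or.inl hs⟩
    · exact ⟨t, by rw [Bool.or_eq_true]; exact Or.inr ht⟩
  · rintro ⟨s, hs⟩
    rw [Bool.or_eq_true] at hs
    exact hs.imp (fun h => ⟨s, h⟩) (fun h => ⟨s, h⟩)

theorem re_exists {p : α → β → Prop} (hp : REPred fun x : α × β => p x.1 x.2) :
    REPred fun a => ∃ b, p a b := by
  obtain ⟨f, hf, mf, ef⟩ := re_exists_stage hp
  have hc : Computable₂ (fun (a : α) (k : ℕ) =>
      ((Encodable.decode (α := β) k.unpair.1).map (fun b => f (a, b) k.unpair.2)).getD false) := by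
    have h1 : Computable fun x : α × ℕ => Encodable.decode (α := β) x.2.unpair.1 :=
      Computable.decode.comp (Computable.fst.comp (Computable.unpair.comp Computable.snd))
    have h2 : Computable₂ fun (x : α × ℕ) (b : β) => f (x.1, b) x.2.unpair.2 := by
      refine Computable₂.comp (f := fun (x : α × β) (s : ℕ) => f x s) hf ?_ ?_
      · exact (Computable.fst.comp Computable.fst).pair Computable.snd
      · exact Computable.snd.comp (Computable.unpair.comp (Computable.snd.comp Computable.fst))
    exact Computable.option_getD (Computable.option_map h1 h2) (Computable.const false)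
  refine re_of_stage _ hc (fun a => ?_)
  constructor
  · rintro ⟨b, hb⟩
    obtain ⟨s, hs⟩ := (ef (a, b)).1 hb
    refine ⟨Nat.pair (Encodable.encode b) s, ?_⟩
    simp [hs]
  · rintro ⟨k, hk⟩
    cases hd : Encodable.decode (α := β) k.unpair.1 with
    | none => rw [hd] at hk; simp at hk
    | some b =>
      rw [hd] at hk
      exact ⟨b, (ef (a, b)).2 ⟨k.unpair.2, by simpa using hk⟩⟩

theorem re_comp {p : β → Prop} (hp : REPred p) {f : α → β} (hf : Computable f) :
    REPred fun a => p (f a) := by
  obtain ⟨g, hg, _, eg⟩ := re_exists_stage hp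
  refine re_of_stage (fun a s => g (f a) s) ?_ (fun a => eg (f a))
  exact Computable₂.comp hg (hf.comp Computable.fst) Computable.snd

theorem re_of_computable {f : α → Bool} (hf : Computable f) : REPred fun a => f a = true := by
  refine re_of_stage (fun a _ => f a) (hf.comp Computable.fst) (fun a => ?_)
  simp

/-- Computability of `List.all` with a computable test. -/
theorem computable_all {L : α → List β} (hL : Computable L) {f : α → β → Bool}
    (hf : Computable₂ f) : Computable fun a => (L a).all (f a) := by
  have key : ∀ (l : List β) (g : β → Bool) (n : ℕ), n ≤ l.length →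
      (Nat.rec true (fun i acc => acc && ((l[i]?).map g).getD true) n : Bool) =
        (l.take n).all g := by
    intro l g n hn
    induction n with
    | zero => simp
    | succ n ih =>
      have h1 := ih (by omega)
      have h2 : n < l.length := by omega
      rw [List.take_succ_eq_append_getElem h2, List.all_append, ← h1]
      simp [List.getElem?_eq_getElem h2]
  have hc : Computable fun a => (Nat.rec true
      (fun i acc => acc && (((L a)[i]?).map (f a)).getD true) (L a).length : Bool) := by
    refine Computable.nat_rec (h := fun a (x : ℕ × Bool) =>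
      x.2 && (((L a)[x.1]?).map (f a)).getD true)
      (Computable.list_length.comp hL) (Computable.const true) ?_
    have h3 : Computable fun x : α × ℕ × Bool => (L x.1)[x.2.1]? :=
      Computable.list_getElem?.comp (hL.comp Computable.fst)
        (Computable.fst.comp Computable.snd)
    have h4 : Computable₂ fun (x : α × ℕ × Bool) (b : β) => f x.1 b :=
      Computable₂.comp hf (Computable.fst.comp Computable.fst) Computable.snd
    exact computable_and.comp (Computable.snd.comp Computable.snd)
      (Computable.option_getD (Computable.option_map h3 h4) (Computable.const true))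
  refine hc.of_eq (fun a => ?_)
  rw [key _ _ _ le_rfl, List.take_length]

/-- Computability of `List.countP` with a computable test. -/
theorem computable_countP {L : α → List β} (hL : Computable L) {f : α → β → Bool}
    (hf : Computable₂ f) : Computable fun a => (L a).countP (f a) := by
  have key : ∀ (l : List β) (g : β → Bool) (n : ℕ), n ≤ l.length →
      (Nat.rec 0 (fun i acc => acc + (((l[i]?).map g).getD false).toNat) n : ℕ) =
        (l.take n).countP g := by
    intro l g n hn
    induction n with
    | zero => simp
    | succ n ih =>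
      have h1 := ih (by omega)
      have h2 : n < l.length := by omega
      rw [List.take_succ_eq_append_getElem h2, List.countP_append, ← h1]
      simp [List.getElem?_eq_getElem h2, List.countP_singleton]
      cases g l[n] <;> simp
  have hc : Computable fun a => (Nat.rec 0
      (fun i acc => acc + ((((L a)[i]?).map (f a)).getD false).toNat) (L a).length : ℕ) := by
    refine Computable.nat_rec (h := fun a (x : ℕ × ℕ) =>
      x.2 + ((((L a)[x.1]?).map (f a)).getD false).toNat)
      (Computable.list_length.comp hL) (Computable.const 0) ?_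
    have h3 : Computable fun x : α × ℕ × ℕ => (L x.1)[x.2.1]? :=
      Computable.list_getElem?.comp (hL.comp Computable.fst)
        (Computable.fst.comp Computable.snd)
    have h4 : Computable₂ fun (x : α × ℕ × ℕ) (b : β) => f x.1 b :=
      Computable₂.comp hf (Computable.fst.comp Computable.fst) Computable.snd
    have h5 : Computable Bool.toNat := (Primrec.dom_finite _).to_comp
    exact Primrec.nat_add.to_comp.comp (Computable.snd.comp Computable.snd)
      (h5.comp (Computable.option_getD (Computable.option_map h3 h4) (Computable.const false)))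
  refine hc.of_eq (fun a => ?_)
  rw [key _ _ _ le_rfl, List.take_length]

/-- Bounded universal quantification over a computable list. -/
theorem re_forall_mem {p : α → β → Prop} (hp : REPred fun x : α × β => p x.1 x.2)
    {L : α → List β} (hL : Computable L) : REPred fun a => ∀ b ∈ L a, p a b := by
  obtain ⟨f, hf, mf, ef⟩ := re_exists_stage hp
  have hc : Computable₂ fun (a : α) (s : ℕ) => (L a).all (fun b => f (a, b) s) := by
    refine computable_all (α := α × ℕ) (L := fun x => L x.1) (hL.comp Computable.fst)
      (f := fun x b => f (x.1, b) x.2) ?_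
    exact Computable₂.comp hf ((Computable.fst.comp Computable.fst).pair Computable.snd)
      (Computable.snd.comp Computable.fst)
  refine re_of_stage _ hc (fun a => ?_)
  constructor
  · intro h
    have : ∀ l : List β, (∀ b ∈ l, p a b) → ∃ s, l.all (fun b => f (a, b) s) = true := by
      intro l
      induction l with
      | nil => intro _; exact ⟨0, rfl⟩
      | cons b l ih =>
        intro hl
        obtain ⟨s, hs⟩ := ih (fun c hc => hl c (List.mem_cons_of_mem b hc))
        obtain ⟨t, ht⟩ := (ef (a, b)).1 (hl b List.mem_cons_self)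
        refine ⟨max s t, ?_⟩
        rw [List.all_cons, Bool.and_eq_true]
        refine ⟨mf _ _ _ (le_max_right _ _) ht, ?_⟩
        rw [List.all_eq_true] at hs ⊢
        exact fun c hc => mf _ _ _ (le_max_left _ _) (hs c hc)
    exact this _ h
  · rintro ⟨s, hs⟩ b hb
    rw [List.all_eq_true] at hs
    exact (ef (a, b)).2 ⟨s, hs b hb⟩

/-- Counting the elements of a computable list which satisfy an r.e. predicate. -/
theorem re_count {p : α → β → Prop} (hp : REPred fun x : α × β => p x.1 x.2)
    {L : α → List β} (hL : Computable L) {t : α → ℕ} (ht : Computable t) :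
    REPred fun a => t a < (L a).countP (fun b => decide (p a b)) := by
  obtain ⟨f, hf, mf, ef⟩ := re_exists_stage hp
  have hc : Computable fun x : α × ℕ => (L x.1).countP (fun b => f (x.1, b) x.2) := by
    refine computable_countP (α := α × ℕ) (L := fun x => L x.1) (hL.comp Computable.fst)
      (f := fun x b => f (x.1, b) x.2) ?_
    exact Computable₂.comp hf ((Computable.fst.comp Computable.fst).pair Computable.snd)
      (Computable.snd.comp Computable.fst)
  have hlt : Computable₂ fun m n : ℕ => decide (m < n) := Primrec.nat_lt.decide.to_comp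
  have hc' : Computable₂ fun (a : α) (s : ℕ) =>
      decide (t a < (L a).countP (fun b => f (a, b) s)) :=
    hlt.comp (ht.comp Computable.fst) hc
  refine re_of_stage _ hc' (fun a => ?_)
  have hle : ∀ (l : List β) (s : ℕ), l.countP (fun b => f (a, b) s)
      ≤ l.countP (fun b => decide (p a b)) := by
    intro l s
    refine List.countP_mono_left (fun b _ hb => ?_)
    exact decide_eq_true ((ef (a, b)).2 ⟨s, hb⟩)
  have hex : ∀ l : List β, ∃ s, l.countP (fun b => decide (p a b))
      ≤ l.countP (fun b => f (a, b) s) := by
    intro l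
    induction l with
    | nil => exact ⟨0, le_rfl⟩
    | cons b l ih =>
      obtain ⟨s, hs⟩ := ih
      by_cases hb : p a b
      · obtain ⟨u, hu⟩ := (ef (a, b)).1 hb
        refine ⟨max s u, ?_⟩
        rw [List.countP_cons, List.countP_cons]
        rw [if_pos (decide_eq_true hb), if_pos (mf _ _ _ (le_max_right _ _) hu)]
        refine Nat.add_le_add_right (hs.trans ?_) 1
        exact List.countP_mono_left (fun c _ hc => mf _ _ _ (le_max_left _ _) hc)
      · refine ⟨s, ?_⟩
        rw [List.countP_cons, List.countP_cons]
        have : ¬ (decide (p a b) = true) := by simpa using hb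
        rw [if_neg this]
        omega
  constructor
  · intro h
    obtain ⟨s, hs⟩ := hex (L a)
    exact ⟨s, decide_eq_true (lt_of_lt_of_le h hs)⟩
  · rintro ⟨s, hs⟩
    exact lt_of_lt_of_le (of_decide_eq_true hs) (hle _ _)

theorem re_countable : {p : α → Prop | REPred p}.Countable := by
  have : ∀ p : {p : α → Prop | REPred p}, ∃ c : Nat.Partrec.Code,
      ∀ a, p.1 a ↔ (Nat.Partrec.Code.eval c (Encodable.encode a)).Dom := by
    rintro ⟨p, hp⟩
    obtain ⟨c, hc⟩ := Nat.Partrec.Code.exists_code.1 hp
    refine ⟨c, fun a => ?_⟩
    rw [hc]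
    simp [Part.assert]
  choose c hc using this
  rw [← Set.countable_coe_iff]
  refine Function.Injective.countable (f := c) (fun p q h => ?_)
  apply Subtype.ext
  funext a
  exact propext ((hc p a).trans ((by rw [h] : _ ↔ _).trans (hc q a).symm))

theorem computable_iff_total {f : α → β} : Computable f ↔ Partrec fun a => Part.some (f a) :=
  Iff.rfl

/-- Selecting a computable sequence of pairwise related elements of an r.e. set. -/
theorem re_seq (P : α → Prop) (hP : REPred P) (Q : α → α → Prop)
    (hQ : REPred fun x : α × α => Q x.1 x.2)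
    (h : ∀ l : List α, (∀ y ∈ l, P y) → ∃ x, P x ∧ ∀ y ∈ l, Q y x) :
    ∃ f : ℕ → α, Computable f ∧ (∀ m, P (f m)) ∧ ∀ j m, j < m → Q (f j) (f m) := by
  -- the relation to be searched
  have hR : REPred fun x : List α × α => P x.2 ∧ ∀ y ∈ x.1, Q y x.2 := by
    refine re_and (re_comp hP Computable.snd) ?_
    refine re_forall_mem (α := List α × α) (p := fun x y => Q y x.2) ?_ Computable.fst
    exact re_comp (f := fun x : (List α × α) × α => (x.2, x.1.2)) hQ
      (Computable.snd.pair (Computable.snd.comp Computable.fst))
  obtain ⟨f, hf, mf, ef⟩ := re_exists_stage hR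
  -- the search
  let t : List α → ℕ → Option α := fun l k =>
    (Encodable.decode (α := α) k.unpair.1).bind
      (fun x => if f (l, x) k.unpair.2 = true then some x else none)
  have ht : Computable₂ t := by
    have h1 : Computable fun x : List α × ℕ => Encodable.decode (α := α) x.2.unpair.1 :=
      Computable.decode.comp (Computable.fst.comp (Computable.unpair.comp Computable.snd))
    refine Computable.option_bind h1 ?_
    have h2 : Computable fun x : (List α × ℕ) × α => f (x.1.1, x.2) x.1.2.unpair.2 := by
      refine Computable₂.comp hf ((Computable.fst.comp Computable.fst).pair Computable.snd) ?_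
      exact Computable.snd.comp (Computable.unpair.comp (Computable.snd.comp Computable.fst))
    refine (Computable.cond h2 (Computable.option_some.comp Computable.snd)
      (Computable.const none)).of_eq (fun x => ?_)
    beta_reduce
    rw [Bool.cond_eq_ite]
  have hsearch : Partrec fun l : List α => Nat.rfindOpt (t l) := Partrec.rfindOpt ht
  have hspec : ∀ l : List α, ∀ x ∈ Nat.rfindOpt (t l), P x ∧ ∀ y ∈ l, Q y x := by
    intro l x hx
    obtain ⟨k, hk⟩ := Nat.rfindOpt_spec hx
    obtain ⟨y, hy, hyx⟩ := Option.bind_eq_some_iff.1 (Option.mem_def.1 hk)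
    by_cases hfy : f (l, y) k.unpair.2 = true
    · rw [if_pos hfy] at hyx
      obtain rfl := Option.some_inj.1 hyx
      exact (ef (l, y)).2 ⟨_, hfy⟩
    · rw [if_neg hfy] at hyx
      cases hyx
  have hdom : ∀ l : List α, (∀ y ∈ l, P y) → (Nat.rfindOpt (t l)).Dom := by
    intro l hl
    rw [Nat.rfindOpt_dom]
    obtain ⟨x, hx⟩ := h l hl
    obtain ⟨s, hs⟩ := (ef (l, x)).1 hx
    refine ⟨Nat.pair (Encodable.encode x) s, x, ?_⟩
    simp only [t, Nat.unpair_pair, Encodable.encodek, Option.bind_some, Option.mem_def]
    rw [if_pos hs]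
  -- the sequence of lists
  let g : ℕ → Part (List α) := fun n =>
    Nat.rec (Part.some []) (fun _ IH => IH.bind fun l =>
      (Nat.rfindOpt (t l)).map (fun x => x :: l)) n
  have hg : Partrec g := by
    have h1 : Partrec₂ (fun (_ : ℕ) (x : ℕ × List α) =>
        (Nat.rfindOpt (t x.2)).map (fun y => y :: x.2)) := by
      refine Partrec.map (f := fun x : ℕ × ℕ × List α => Nat.rfindOpt (t x.2.2))
        (g := fun x y => y :: x.2.2) ?_ ?_
      · exact hsearch.comp (Computable.snd.comp Computable.snd)
      · exact Computable.list_cons.comp Computable.snd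
          (Computable.snd.comp (Computable.snd.comp Computable.fst))
    exact Partrec.nat_rec (f := fun n : ℕ => n) (g := fun _ => Part.some [])
      Computable.id (Computable.const []).partrec h1
  have hgs : ∀ n, g (n + 1) = (g n).bind fun l => (Nat.rfindOpt (t l)).map (fun x => x :: l) :=
    fun n => rfl
  have htot : ∀ n, ∃ l, l ∈ g n ∧ ∀ y ∈ l, P y := by
    intro n
    induction n with
    | zero => exact ⟨[], Part.mem_some _, by simp⟩
    | succ n ih =>
      obtain ⟨l, hl, hlP⟩ := ih
      obtain ⟨x, hx⟩ := Part.dom_iff_mem.1 (hdom l hlP)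
      refine ⟨x :: l, ?_, ?_⟩
      · rw [hgs, Part.mem_bind_iff]
        exact ⟨l, hl, (Part.mem_map_iff _).2 ⟨x, hx, rfl⟩⟩
      · intro y hy
        rcases List.mem_cons.1 hy with rfl | hy
        · exact (hspec l _ hx).1
        · exact hlP y hy
  choose L hL hLP using htot
  have hLc : Computable L := by
    refine Partrec.of_eq hg (fun n => ?_)
    exact Part.eq_some_iff.2 (hL n)
  have hstep : ∀ n, ∃ x, L (n + 1) = x :: L n ∧ P x ∧ ∀ y ∈ L n, Q y x := by
    intro n
    have h1 := hL (n + 1)
    rw [hgs, Part.mem_bind_iff] at h1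
    obtain ⟨l, hl, hl2⟩ := h1
    have : l = L n := Part.mem_unique hl (hL n)
    subst this
    obtain ⟨x, hx, hxe⟩ := (Part.mem_map_iff _).1 hl2
    exact ⟨x, hxe.symm, (hspec _ _ hx).1, (hspec _ _ hx).2⟩
  choose v hv hvP hvQ using hstep
  have hvc : Computable v := by
    have h1 : Computable fun n => (L (n + 1))[0]? :=
      Computable.list_getElem?.comp (hLc.comp Computable.succ) (Computable.const 0)
    refine Computable.option_some_iff.1 (h1.of_eq (fun n => ?_))
    rw [hv n]
    rfl
  refine ⟨v, hvc, hvP, fun j m hjm => ?_⟩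
  have hmem : ∀ m, j < m → v j ∈ L m := by
    intro m hm
    induction m, hm using Nat.le_induction with
    | base => rw [hv j]; exact List.mem_cons_self
    | succ m _ ih => rw [hv m]; exact List.mem_cons_of_mem _ ih
  exact hvQ m _ (hmem m hjm)

end Vale.Agent.P327
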